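import Mathlib

/-!
Cut lists: a finite list of weighted Boolean assignments, the induced cut (semi)metric on functional points,
and the extension step adding a new vertex by coins.
-/


namespace Vale.Agent.Lib.P235.UB

variable {V : Type} [DecidableEq V]

/-- weighted assignments -/
abbrev Cut (V : Type) := List (ℝ × (V → Bool))

/-- a point is a Boolean functional of an assignment -/
abbrev Pt (V : Type) := (V → Bool) → Bool

/-- cut distance between points -/
def sDist (L : Cut V) (P Q : Pt V) : ℝ :=
  (L.map fun e => e.1 * (if P e.2 = Q e.2 then 0 else 1)).sum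

def maj3 (x y z : Bool) : Bool := (x && y) || (x && z) || (y && z)

/-- evaluation at a vertex -/
def ev (x : V) : Pt V := fun g => g x

/-- the hub (majority point) of a triple given by `T : Fin 3 → V`. -/
def hubPt (T : Fin 3 → V) : Pt V := fun g => maj3 (g (T 0)) (g (T 1)) (g (T 2))

/-- The extension step: each entry splits by coins `q 0, q 1, q 2, 1 - Σ q` (the new vertex `w` copies
slot `i`, or the hub), and a new entry of mass `s` isolates `w`. -/
def stepCut (L : Cut V) (w : V) (T : Fin 3 → V) (q : Fin 3 → ℝ) (s : ℝ) : Cut V :=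
  (L.flatMap fun e =>
    [ (e.1 * q 0, Function.update e.2 w (e.2 (T 0))),
      (e.1 * q 1, Function.update e.2 w (e.2 (T 1))),
      (e.1 * q 2, Function.update e.2 w (e.2 (T 2))),
      (e.1 * (1 - q 0 - q 1 - q 2), Function.update e.2 w (hubPt T e.2)) ])
    ++ [(s, Function.update (fun _ => false) w true)]

/-- `P` does not read the coordinate `w`. -/
def IndepOf (w : V) (P : Pt V) : Prop := ∀ g b, P (Function.update g w b) = P g

/-- `P` vanishes on the zero assignment. -/
def ZeroPt (P : Pt V) : Prop := P (fun _ => false) = false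

/-- Coin expansion: the general lemma everything else follows from. `F₁ b` and `F₂ b` are points not reading `w`. -/
theorem sDist_step (L : Cut V) (w : V) (T : Fin 3 → V) (q : Fin 3 → ℝ) (s : ℝ)
    (_hT : ∀ i, T i ≠ w)
    (F₁ F₂ : Bool → Pt V) (h₁ : ∀ b, IndepOf w (F₁ b)) (h₂ : ∀ b, IndepOf w (F₂ b)) :
    sDist (stepCut L w T q s) (fun g => F₁ (g w) g) (fun g => F₂ (g w) g)
      = q 0 * sDist L (fun g => F₁ (g (T 0)) g) (fun g => F₂ (g (T 0)) g)
      + q 1 * sDist L (fun g => F₁ (g (T 1)) g) (fun g => F₂ (g (T 1)) g)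
      + q 2 * sDist L (fun g => F₁ (g (T 2)) g) (fun g => F₂ (g (T 2)) g)
      + (1 - q 0 - q 1 - q 2) * sDist L (fun g => F₁ (hubPt T g) g) (fun g => F₂ (hubPt T g) g)
      + s * (if F₁ true (Function.update (fun _ => false) w true) = F₂ true (Function.update (fun _ => false) w true) then 0 else 1) := by
  have h1 : ∀ (b : Bool) (g : V → Bool), F₁ b (Function.update g w b) = F₁ b g := fun b g => h₁ b g b
  have h2 : ∀ (b : Bool) (g : V → Bool), F₂ b (Function.update g w b) = F₂ b g := fun b g => h₂ b g b
  have key : ∀ L : Cut V,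
      (((L.flatMap fun e =>
        [ (e.1 * q 0, Function.update e.2 w (e.2 (T 0))),
          (e.1 * q 1, Function.update e.2 w (e.2 (T 1))),
          (e.1 * q 2, Function.update e.2 w (e.2 (T 2))),
          (e.1 * (1 - q 0 - q 1 - q 2), Function.update e.2 w (hubPt T e.2)) ]).map
        fun e => e.1 * (if F₁ (e.2 w) e.2 = F₂ (e.2 w) e.2 then 0 else 1)).sum)
      = q 0 * sDist L (fun g => F₁ (g (T 0)) g) (fun g => F₂ (g (T 0)) g)
      + q 1 * sDist L (fun g => F₁ (g (T 1)) g) (fun g => F₂ (g (T 1)) g)
      + q 2 * sDist L (fun g => F₁ (g (T 2)) g) (fun g => F₂ (g (T 2)) g)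
      + (1 - q 0 - q 1 - q 2) * sDist L (fun g => F₁ (hubPt T g) g) (fun g => F₂ (hubPt T g) g) := by
    intro L
    induction L with
    | nil => simp [sDist]
    | cons e L ih =>
      simp only [sDist] at ih
      simp only [List.flatMap_cons, List.map_append, List.sum_append, ih, sDist, List.map_cons,
        List.sum_cons, List.map_nil, List.sum_nil, Function.update_self, h1, h2]
      ring
  have key' := key L
  unfold sDist stepCut at *
  simp only [List.map_append, List.sum_append, List.map_cons, List.map_nil, List.sum_cons, List.sum_nil,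
    Function.update_self, key']
  ring

/-! Consequences needed by the assembly (all from `sDist_step` and pointwise Boolean identities). -/

theorem sDist_comm (L : Cut V) (P Q : Pt V) : sDist L P Q = sDist L Q P := by
  simp only [sDist, eq_comm]

theorem sDist_nonneg (L : Cut V) (hL : ∀ e ∈ L, 0 ≤ e.1) (P Q : Pt V) : 0 ≤ sDist L P Q := by
  unfold sDist
  apply List.sum_nonneg
  intro x hx
  obtain ⟨e, he, rfl⟩ := List.mem_map.mp hx
  have := hL e he
  split_ifs <;> simp [this]

private theorem ind_tri (a b c : Bool) :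
    (if a = c then (0:ℝ) else 1) ≤ (if a = b then (0:ℝ) else 1) + (if b = c then (0:ℝ) else 1) := by
  cases a <;> cases b <;> cases c <;> norm_num

theorem sDist_tri (L : Cut V) (hL : ∀ e ∈ L, 0 ≤ e.1) (P Q R : Pt V) :
    sDist L P R ≤ sDist L P Q + sDist L Q R := by
  induction L with
  | nil => simp [sDist]
  | cons e L ih =>
    have h0 : 0 ≤ e.1 := hL e (by simp)
    have ih' := ih (fun x hx => hL x (by simp [hx]))
    simp only [sDist, List.map_cons, List.sum_cons] at ih' ⊢
    have h1 := mul_le_mul_of_nonneg_left (ind_tri (P e.2) (Q e.2) (R e.2)) h0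
    rw [mul_add] at h1
    linarith

private theorem maj_between (a b c : Bool) :
    ((if a = b then (0:ℝ) else 1) = (if a = maj3 a b c then 0 else 1) + (if maj3 a b c = b then 0 else 1))
    ∧ ((if a = c then (0:ℝ) else 1) = (if a = maj3 a b c then 0 else 1) + (if maj3 a b c = c then 0 else 1))
    ∧ ((if b = c then (0:ℝ) else 1) = (if b = maj3 a b c then 0 else 1) + (if maj3 a b c = c then 0 else 1))
    ∧ ((if b = a then (0:ℝ) else 1) = (if b = maj3 a b c then 0 else 1) + (if maj3 a b c = a then 0 else 1))
    ∧ ((if c = a then (0:ℝ) else 1) = (if c = maj3 a b c then 0 else 1) + (if maj3 a b c = a then 0 else 1))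
    ∧ ((if c = b then (0:ℝ) else 1) = (if c = maj3 a b c then 0 else 1) + (if maj3 a b c = b then 0 else 1)) := by
  cases a <;> cases b <;> cases c <;> norm_num [maj3]

/-- the hub lies between two slots (pointwise median property), also for repeated vertices -/
theorem sDist_hub_between (L : Cut V) (T : Fin 3 → V) (i j : Fin 3) (hij : i ≠ j) :
    sDist L (ev (T i)) (ev (T j)) = sDist L (ev (T i)) (hubPt T) + sDist L (hubPt T) (ev (T j)) := by
  induction L with
  | nil => simp [sDist]
  | cons e L ih =>
    simp only [sDist, List.map_cons, List.sum_cons] at ih ⊢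
    rw [ih]
    have key : (if ev (T i) e.2 = ev (T j) e.2 then (0:ℝ) else 1)
        = (if ev (T i) e.2 = hubPt T e.2 then (0:ℝ) else 1) + (if hubPt T e.2 = ev (T j) e.2 then (0:ℝ) else 1) := by
      simp only [ev, hubPt]
      obtain ⟨h01, h02, h12, h10, h20, h21⟩ := maj_between (e.2 (T 0)) (e.2 (T 1)) (e.2 (T 2))
      fin_cases i <;> fin_cases j <;> first | exact absurd rfl hij | skip
      · exact h01
      · exact h02
      · exact h10
      · exact h12
      · exact h20
      · exact h21
    rw [key]; ring

/-- `ev x` does not read `w ≠ x`; `hubPt T` does not read `w` outside the image; both vanish at zero. -/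
theorem indepOf_ev {w x : V} (h : x ≠ w) : IndepOf w (ev x) := by
  intro g b
  simp [ev, Function.update_of_ne h]

theorem indepOf_hub {w : V} {T : Fin 3 → V} (h : ∀ i, T i ≠ w) : IndepOf w (hubPt T) := by
  intro g b
  simp [hubPt, Function.update_of_ne (h _)]

theorem zeroPt_ev (x : V) : ZeroPt (ev x) := by
  simp [ZeroPt, ev]

theorem zeroPt_hub (T : Fin 3 → V) : ZeroPt (hubPt T) := by
  simp [ZeroPt, hubPt, maj3]

/-- points not reading `w` and vanishing at zero keep their distance under the step -/
theorem sDist_step_persist (L : Cut V) (w : V) (T : Fin 3 → V) (q : Fin 3 → ℝ) (s : ℝ) (hT : ∀ i, T i ≠ w)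
    (P Q : Pt V) (hP : IndepOf w P) (hQ : IndepOf w Q) (hP0 : ZeroPt P) (hQ0 : ZeroPt Q) :
    sDist (stepCut L w T q s) P Q = sDist L P Q := by
  have h := sDist_step L w T q s hT (fun _ => P) (fun _ => Q) (fun _ => hP) (fun _ => hQ)
  have e1 : P (Function.update (fun _ => false) w true) = false := (hP _ _).trans hP0
  have e2 : Q (Function.update (fun _ => false) w true) = false := (hQ _ _).trans hQ0
  simp only [e1, e2] at h
  have hPe : (fun g => P g) = P := rfl
  have hQe : (fun g => Q g) = Q := rfl
  simp only [hPe, hQe] at h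
  rw [h]; simp; ring

/-- distance from the new vertex -/
theorem sDist_step_new (L : Cut V) (w : V) (T : Fin 3 → V) (q : Fin 3 → ℝ) (s : ℝ) (hT : ∀ i, T i ≠ w)
    (Q : Pt V) (hQ : IndepOf w Q) (hQ0 : ZeroPt Q) :
    sDist (stepCut L w T q s) (ev w) Q
      = s + q 0 * sDist L (ev (T 0)) Q + q 1 * sDist L (ev (T 1)) Q + q 2 * sDist L (ev (T 2)) Q
        + (1 - q 0 - q 1 - q 2) * sDist L (hubPt T) Q := by
  have h := sDist_step L w T q s hT (fun b _ => b) (fun _ => Q) (fun _ _ _ => rfl) (fun _ => hQ)
  have e2 : Q (Function.update (fun _ => false) w true) = false := (hQ _ _).trans hQ0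
  simp only [e2] at h
  have hev : (fun g : V → Bool => g w) = ev w := rfl
  have hQe : (fun g => Q g) = Q := rfl
  have hev2 : ∀ i, (fun g : V → Bool => g (T i)) = ev (T i) := fun _ => rfl
  have hub : (fun g : V → Bool => hubPt T g) = hubPt T := rfl
  simp only [hev, hQe, hev2, hub] at h
  rw [h]; simp; ring

/-- majority with slot `c` replaced by `b` -/
private def slotMaj (T : Fin 3 → V) (c : Fin 3) (b : Bool) : Pt V := fun g =>
  maj3 (if c = 0 then b else g (T 0)) (if c = 1 then b else g (T 1)) (if c = 2 then b else g (T 2))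

private theorem hub_update (T : Fin 3 → V) (c : Fin 3) (w : V) :
    hubPt (Function.update T c w) = fun g => slotMaj T c (g w) g := by
  funext g
  fin_cases c <;> simp [hubPt, slotMaj, Function.update]

private theorem slotMaj_indep {w : V} {T : Fin 3 → V} (hT : ∀ i, T i ≠ w) (c : Fin 3) (b : Bool) :
    IndepOf w (slotMaj T c b) := by
  intro g b'
  simp [slotMaj, Function.update_of_ne (hT _)]

private theorem slotMaj_slot (T : Fin 3 → V) (c i : Fin 3) (g : V → Bool) :
    slotMaj T c (g (T i)) g = if i = c then hubPt T g else g (T i) := by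
  simp only [slotMaj, hubPt]
  fin_cases c <;> fin_cases i <;>
    (simp only [Fin.zero_eta, Fin.mk_one, Fin.reduceFinMk]
     cases h0 : g (T 0) <;> cases h1 : g (T 1) <;> cases h2 : g (T 2) <;> simp [maj3, h0, h1, h2])

private theorem slotMaj_hub (T : Fin 3 → V) (c : Fin 3) (g : V → Bool) :
    slotMaj T c (hubPt T g) g = hubPt T g := by
  simp only [slotMaj, hubPt]
  generalize g (T 0) = a
  generalize g (T 1) = b
  generalize g (T 2) = d
  fin_cases c <;> cases a <;> cases b <;> cases d <;> simp [maj3]

private theorem slotMaj_fresh {w : V} {T : Fin 3 → V} (hT : ∀ i, T i ≠ w) (c : Fin 3) :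
    slotMaj T c true (Function.update (fun _ => false) w true) = false := by
  simp only [slotMaj, Function.update_of_ne (hT _)]
  fin_cases c <;> simp [maj3]

/-- distance from the hub of a child triple: for `c` the replaced slot the coins on the other two slots survive,
all the rest goes to the old hub (uses `maj3 (maj3 a b e) a b = maj3 a b e` etc.) -/
theorem sDist_step_childHub (L : Cut V) (w : V) (T : Fin 3 → V) (q : Fin 3 → ℝ) (s : ℝ) (hT : ∀ i, T i ≠ w)
    (c : Fin 3) (Q : Pt V) (hQ : IndepOf w Q) (hQ0 : ZeroPt Q) :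
    sDist (stepCut L w T q s) (hubPt (Function.update T c w)) Q
      = ∑ i : Fin 3, (if i = c then 0 else q i * sDist L (ev (T i)) Q)
        + (1 - ∑ i : Fin 3, (if i = c then 0 else q i)) * sDist L (hubPt T) Q := by
  have h := sDist_step L w T q s hT (slotMaj T c) (fun _ => Q) (slotMaj_indep hT c) (fun _ => hQ)
  have e2 : Q (Function.update (fun _ => false) w true) = false := (hQ _ _).trans hQ0
  rw [slotMaj_fresh hT c] at h
  simp only [e2, slotMaj_slot, slotMaj_hub] at h
  have hQe : (fun g => Q g) = Q := rfl
  simp only [hQe] at h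
  rw [hub_update, h]
  have hub : (fun g : V → Bool => hubPt T g) = hubPt T := rfl
  have hev : ∀ i, (fun g : V → Bool => g (T i)) = ev (T i) := fun _ => rfl
  fin_cases c <;> simp [Fin.sum_univ_three, hub, hev] <;> ring

/-- distance from the new vertex to the hub of a child triple: `s + q c σ c` -/
theorem sDist_step_new_childHub (L : Cut V) (w : V) (T : Fin 3 → V) (q : Fin 3 → ℝ) (s : ℝ) (hT : ∀ i, T i ≠ w)
    (c : Fin 3) :
    sDist (stepCut L w T q s) (ev w) (hubPt (Function.update T c w))
      = s + q c * sDist L (ev (T c)) (hubPt T) := by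
  have h := sDist_step L w T q s hT (fun b _ => b) (slotMaj T c) (fun _ _ _ => rfl) (slotMaj_indep hT c)
  rw [slotMaj_fresh hT c] at h
  simp only [slotMaj_slot, slotMaj_hub] at h
  have hev : (fun g : V → Bool => g w) = ev w := rfl
  rw [hev, ← hub_update] at h
  rw [h]
  have hub : (fun g : V → Bool => hubPt T g) = hubPt T := rfl
  have hev2 : ∀ i, (fun g : V → Bool => g (T i)) = ev (T i) := fun _ => rfl
  have hself : ∀ P : Pt V, sDist L P P = 0 := by
    intro P
    simp [sDist]
  fin_cases c <;> simp [hub, hev2, hself, sDist_comm L (hubPt T)] <;> ring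

end Vale.Agent.Lib.P235.UB
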