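import Vale.Agent.Lib.P235.UB.DeepDefs

/-!
Upper bound program for treewidth 3: the one step potential inequality.
-/

namespace Vale.Agent.Lib.P235.UB

open Finset

/-! ### Generic tools -/

theorem pair_min_le {K K' : Fin 4 → ℝ} (hK : ∀ Z, 0 ≤ K Z) (hK' : ∀ Z, 0 ≤ K' Z)
    (h1 : ∑ Z, K Z = 1) (h1' : ∑ Z, K' Z = 1) (f : Fin 4 → ℝ) :
    ∑ Z, ∑ Z', K Z * K' Z' * min (f Z) (f Z') ≤ min (∑ Z, K Z * f Z) (∑ Z, K' Z * f Z) := by
  refine le_min ?_ ?_
  · calc ∑ Z, ∑ Z', K Z * K' Z' * min (f Z) (f Z')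
        ≤ ∑ Z, ∑ Z', K Z * K' Z' * f Z := sum_le_sum fun Z _ => sum_le_sum fun Z' _ =>
          mul_le_mul_of_nonneg_left (min_le_left _ _) (mul_nonneg (hK Z) (hK' Z'))
      _ = ∑ Z, K Z * f Z := by
        refine sum_congr rfl fun Z _ => ?_
        calc ∑ Z', K Z * K' Z' * f Z = K Z * f Z * ∑ Z', K' Z' := by
              rw [mul_sum]
              exact sum_congr rfl fun _ _ => by ring
          _ = _ := by rw [h1', mul_one]
  · calc ∑ Z, ∑ Z', K Z * K' Z' * min (f Z) (f Z')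
        ≤ ∑ Z, ∑ Z', K Z * K' Z' * f Z' := sum_le_sum fun Z _ => sum_le_sum fun Z' _ =>
          mul_le_mul_of_nonneg_left (min_le_right _ _) (mul_nonneg (hK Z) (hK' Z'))
      _ = ∑ Z', K' Z' * f Z' := by
        rw [sum_comm]
        refine sum_congr rfl fun Z' _ => ?_
        calc ∑ Z, K Z * K' Z' * f Z' = K' Z' * f Z' * ∑ Z, K Z := by
              rw [mul_sum]
              exact sum_congr rfl fun _ _ => by ring
          _ = _ := by rw [h1, mul_one]

theorem mval_kernel_le {l p1 p0 : Fin 4 → ℝ} {K : Fin 4 → Fin 4 → ℝ} (hp1 : ∀ X, 0 ≤ p1 X)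
    (hK : ∀ X Z, 0 ≤ K X Z) (hK1 : ∀ X, ∑ Z, K X Z = 1) (hp0 : ∀ Z, p0 Z = ∑ X, p1 X * K X Z)
    (y : Fin 4) :
    mval l p0 y ≤ ∑ X, ∑ X', p1 X * p1 X'
      * min (∑ Z, K X Z * star l Z y) (∑ Z, K X' Z * star l Z y) := by
  have hexp : mval l p0 y = ∑ X, ∑ X', p1 X * p1 X'
      * ∑ Z, ∑ Z', K X Z * K X' Z' * min (star l Z y) (star l Z' y) := by
    unfold mval
    have h1 : ∀ Z Z', p0 Z * p0 Z' * min (star l Z y) (star l Z' y)
        = ∑ X, ∑ X', p1 X * p1 X' * (K X Z * K X' Z' * min (star l Z y) (star l Z' y)) := by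
      intro Z Z'
      rw [hp0 Z, hp0 Z', sum_mul_sum, sum_mul]
      refine sum_congr rfl fun X _ => ?_
      rw [sum_mul]
      exact sum_congr rfl fun X' _ => by ring
    simp_rw [h1]
    simp_rw [mul_sum]
    calc ∑ Z, ∑ Z', ∑ X, ∑ X', p1 X * p1 X' * (K X Z * K X' Z' * min (star l Z y) (star l Z' y))
        = ∑ Z, ∑ X, ∑ Z', ∑ X', p1 X * p1 X' * (K X Z * K X' Z' * min (star l Z y) (star l Z' y)) :=
          sum_congr rfl fun Z _ => sum_comm
      _ = ∑ X, ∑ Z, ∑ Z', ∑ X', p1 X * p1 X' * (K X Z * K X' Z' * min (star l Z y) (star l Z' y)) :=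
          sum_comm
      _ = ∑ X, ∑ Z, ∑ X', ∑ Z', p1 X * p1 X' * (K X Z * K X' Z' * min (star l Z y) (star l Z' y)) :=
          sum_congr rfl fun X _ => sum_congr rfl fun Z _ => sum_comm
      _ = ∑ X, ∑ X', ∑ Z, ∑ Z', p1 X * p1 X' * (K X Z * K X' Z' * min (star l Z y) (star l Z' y)) :=
          sum_congr rfl fun X _ => sum_comm
  rw [hexp]
  refine sum_le_sum fun X _ => sum_le_sum fun X' _ => ?_
  exact mul_le_mul_of_nonneg_left (pair_min_le (hK X) (hK X') (hK1 X) (hK1 X') _)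
    (mul_nonneg (hp1 X) (hp1 X'))

theorem mix_mval_le {l p1 p0 π : Fin 4 → ℝ} {K : Fin 4 → Fin 4 → ℝ} (hp1 : ∀ X, 0 ≤ p1 X)
    (hK : ∀ X Z, 0 ≤ K X Z) (hK1 : ∀ X, ∑ Z, K X Z = 1) (hp0 : ∀ Z, p0 Z = ∑ X, p1 X * K X Z)
    (hπ : ∀ y, 0 ≤ π y) :
    ∑ y, π y * mval l p0 y ≤ ∑ X, ∑ X', p1 X * p1 X'
      * min (∑ y, π y * ∑ Z, K X Z * star l Z y) (∑ y, π y * ∑ Z, K X' Z * star l Z y) := by
  calc ∑ y, π y * mval l p0 y
      ≤ ∑ y, π y * ∑ X, ∑ X', p1 X * p1 X'
        * min (∑ Z, K X Z * star l Z y) (∑ Z, K X' Z * star l Z y) :=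
        sum_le_sum fun y _ => mul_le_mul_of_nonneg_left (mval_kernel_le hp1 hK hK1 hp0 y) (hπ y)
    _ = ∑ X, ∑ X', p1 X * p1 X' * ∑ y, π y
        * min (∑ Z, K X Z * star l Z y) (∑ Z, K X' Z * star l Z y) := by
        simp_rw [mul_sum]
        calc ∑ y, ∑ X, ∑ X', π y * (p1 X * p1 X'
              * min (∑ Z, K X Z * star l Z y) (∑ Z, K X' Z * star l Z y))
            = ∑ X, ∑ y, ∑ X', π y * (p1 X * p1 X'
              * min (∑ Z, K X Z * star l Z y) (∑ Z, K X' Z * star l Z y)) := sum_comm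
          _ = ∑ X, ∑ X', ∑ y, π y * (p1 X * p1 X'
              * min (∑ Z, K X Z * star l Z y) (∑ Z, K X' Z * star l Z y)) :=
              sum_congr rfl fun X _ => sum_comm
          _ = _ := sum_congr rfl fun X _ => sum_congr rfl fun X' _ => sum_congr rfl fun y _ => by ring
    _ ≤ _ := by
        refine sum_le_sum fun X _ => sum_le_sum fun X' _ => ?_
        refine mul_le_mul_of_nonneg_left (le_min ?_ ?_) (mul_nonneg (hp1 X) (hp1 X'))
        · exact sum_le_sum fun y _ => mul_le_mul_of_nonneg_left (min_le_left _ _) (hπ y)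
        · exact sum_le_sum fun y _ => mul_le_mul_of_nonneg_left (min_le_right _ _) (hπ y)

theorem sum_min_le {p C S : Fin 4 → ℝ} (hp : ∀ X, 0 ≤ p X) (hsum : ∑ X, p X = 1) {e : ℝ}
    (h : ∀ X, C X ≤ S X + e) :
    ∑ X, ∑ X', p X * p X' * min (C X) (C X')
      ≤ ∑ X, ∑ X', p X * p X' * min (S X) (S X') + e := by
  have h1 : ∑ X, ∑ X', p X * p X' * e = e := by
    simp_rw [← sum_mul, ← mul_sum, hsum]
    simp [hsum]
  rw [← h1, ← sum_add_distrib]
  refine sum_le_sum fun X _ => ?_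
  rw [← sum_add_distrib]
  refine sum_le_sum fun X' _ => ?_
  rw [← mul_add]
  refine mul_le_mul_of_nonneg_left ?_ (mul_nonneg (hp X) (hp X'))
  calc min (C X) (C X') ≤ min (S X + e) (S X' + e) := min_le_min (h X) (h X')
    _ = _ := min_add_add_right _ _ _

theorem exists_le_of_mix {π f : Fin 4 → ℝ} (hπ : ∀ y, 0 ≤ π y) (h1 : ∑ y, π y = 1) {X : ℝ}
    (h : ∑ y, π y * f y ≤ X) : ∃ y, f y ≤ X := by
  obtain ⟨y0, -, hy0⟩ := exists_min_image univ f ⟨0, mem_univ _⟩
  refine ⟨y0, le_trans ?_ h⟩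
  calc f y0 = ∑ y, π y * f y0 := by rw [← sum_mul, h1, one_mul]
    _ ≤ _ := sum_le_sum fun y _ => mul_le_mul_of_nonneg_left (hy0 y (mem_univ y)) (hπ y)

/-! ### Closed forms -/

section Closed

variable {x y z p q r u : ℝ}

theorem mval_three (hx : 0 ≤ x) (hy : 0 ≤ y) (hz : 0 ≤ z) :
    mval ![x, y, z, 0] ![p, q, r, u] 3
      = p ^ 2 * x + q ^ 2 * y + r ^ 2 * z + 2 * p * q * min x y + 2 * p * r * min x z
        + 2 * q * r * min y z := by
  have e1 : min y x = min x y := min_comm _ _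
  have e2 : min z x = min x z := min_comm _ _
  have e3 : min z y = min y z := min_comm _ _
  simp [mval, star, Fin.sum_univ_four, hx, hy, hz, e1, e2, e3]
  ring

theorem mval_zero (hx : 0 ≤ x) (hy : 0 ≤ y) (hz : 0 ≤ z) :
    mval ![x, y, z, 0] ![p, q, r, u] 0
      = (q + r + u) ^ 2 * x + q ^ 2 * y + r ^ 2 * z + 2 * q * r * min y z := by
  have e1 : min (y + x) (z + x) = min y z + x := min_add_add_right _ _ _
  have e2 : min (z + x) (y + x) = min y z + x := by rw [min_comm]; exact e1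
  have e3 : min (y + x) x = x := min_eq_right (by linarith)
  have e4 : min x (y + x) = x := min_eq_left (by linarith)
  have e5 : min (z + x) x = x := min_eq_right (by linarith)
  have e6 : min x (z + x) = x := min_eq_left (by linarith)
  have e7 : min 0 (y + x) = 0 := min_eq_left (by linarith)
  have e8 : min (y + x) 0 = 0 := min_eq_right (by linarith)
  have e9 : min 0 (z + x) = 0 := min_eq_left (by linarith)
  have e10 : min (z + x) 0 = 0 := min_eq_right (by linarith)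
  have e11 : min 0 x = 0 := min_eq_left hx
  have e12 : min x 0 = 0 := min_eq_right hx
  simp [mval, star, Fin.sum_univ_four, e1, e2, e3, e4, e5, e6, e7, e8, e9, e10, e11, e12]
  ring

theorem mval_one (hx : 0 ≤ x) (hy : 0 ≤ y) (hz : 0 ≤ z) :
    mval ![x, y, z, 0] ![p, q, r, u] 1
      = (p + r + u) ^ 2 * y + p ^ 2 * x + r ^ 2 * z + 2 * p * r * min x z := by
  have e1 : min (x + y) (z + y) = min x z + y := min_add_add_right _ _ _
  have e2 : min (z + y) (x + y) = min x z + y := by rw [min_comm]; exact e1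
  have e3 : min (x + y) y = y := min_eq_right (by linarith)
  have e4 : min y (x + y) = y := min_eq_left (by linarith)
  have e5 : min (z + y) y = y := min_eq_right (by linarith)
  have e6 : min y (z + y) = y := min_eq_left (by linarith)
  have e7 : min 0 (x + y) = 0 := min_eq_left (by linarith)
  have e8 : min (x + y) 0 = 0 := min_eq_right (by linarith)
  have e9 : min 0 (z + y) = 0 := min_eq_left (by linarith)
  have e10 : min (z + y) 0 = 0 := min_eq_right (by linarith)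
  have e11 : min 0 y = 0 := min_eq_left hy
  have e12 : min y 0 = 0 := min_eq_right hy
  simp [mval, star, Fin.sum_univ_four, e1, e2, e3, e4, e5, e6, e7, e8, e9, e10, e11, e12]
  ring

theorem mval_two (hx : 0 ≤ x) (hy : 0 ≤ y) (hz : 0 ≤ z) :
    mval ![x, y, z, 0] ![p, q, r, u] 2
      = (p + q + u) ^ 2 * z + p ^ 2 * x + q ^ 2 * y + 2 * p * q * min x y := by
  have e1 : min (x + z) (y + z) = min x y + z := min_add_add_right _ _ _
  have e2 : min (y + z) (x + z) = min x y + z := by rw [min_comm]; exact e1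
  have e3 : min (x + z) z = z := min_eq_right (by linarith)
  have e4 : min z (x + z) = z := min_eq_left (by linarith)
  have e5 : min (y + z) z = z := min_eq_right (by linarith)
  have e6 : min z (y + z) = z := min_eq_left (by linarith)
  have e7 : min 0 (x + z) = 0 := min_eq_left (by linarith)
  have e8 : min (x + z) 0 = 0 := min_eq_right (by linarith)
  have e9 : min 0 (y + z) = 0 := min_eq_left (by linarith)
  have e10 : min (y + z) 0 = 0 := min_eq_right (by linarith)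
  have e11 : min 0 z = 0 := min_eq_left hz
  have e12 : min z 0 = 0 := min_eq_right hz
  simp [mval, star, Fin.sum_univ_four, e1, e2, e3, e4, e5, e6, e7, e8, e9, e10, e11, e12]
  ring

end Closed

/-! ### The step -/

theorem mix_bound {l0 l1 p1 p0 π : Fin 4 → ℝ} {K : Fin 4 → Fin 4 → ℝ} (hp1 : ∀ X, 0 ≤ p1 X)
    (hsum : ∑ X, p1 X = 1) (hK : ∀ X Z, 0 ≤ K X Z) (hK1 : ∀ X, ∑ Z, K X Z = 1)
    (hp0 : ∀ Z, p0 Z = ∑ X, p1 X * K X Z) (hπ : ∀ y, 0 ≤ π y) {y : Fin 4} {e : ℝ}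
    (hC : ∀ X, ∑ y', π y' * ∑ Z, K X Z * star l0 Z y' ≤ star l1 X y + e) :
    ∑ y', π y' * mval l0 p0 y' ≤ mval l1 p1 y + e :=
  (mix_mval_le hp1 hK hK1 hp0 hπ).trans (sum_min_le hp1 hsum hC)

theorem mix_psi (K : ℝ) (g l p π : Fin 4 → ℝ) :
    ∑ y, π y * psi K g l p y = ∑ y, π y * ghat g l y + K * ∑ y, π y * mval l p y := by
  unfold psi
  rw [mul_sum, ← sum_add_distrib]
  exact sum_congr rfl fun y _ => by ring

/-- the kernels -/
def kern (qa qb qe : ℝ) : Fin 4 → Fin 4 → ℝ :=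
  ![![1, 0, 0, 0], ![0, 1, 0, 0], ![qa, qb, qe, 1 - qa - qb - qe], ![qa, qb, 0, 1 - qa - qb]]

/-- the legs of the child -/
abbrev L1 (σa σb σe qa qb qe s : ℝ) : Fin 4 → ℝ :=
  ![σa - qa * σa + qb * σb, σb - qb * σb + qa * σa, s + qe * σe, 0]

/-- the legs of the parent -/
abbrev L0 (σa σb σe : ℝ) : Fin 4 → ℝ := ![σa, σb, σe, 0]

/-- the votes of the parent -/
abbrev P0 (qa qb qe a' b' t μ : ℝ) : Fin 4 → ℝ :=
  ![a' + qa * (t + μ), b' + qb * (t + μ), qe * t,
    1 - (a' + qa * (t + μ)) - (b' + qb * (t + μ)) - qe * t]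

/-- The hypotheses of the step. -/
structure StepHyp (σa σb σe qa qb qe s bxa bxb bxe ga gb ge gw a' b' t μ : ℝ) : Prop where
  hσa : 0 ≤ σa
  hσb : 0 ≤ σb
  hσe : 0 ≤ σe
  hqa : 0 ≤ qa
  hqb : 0 ≤ qb
  hqe : 0 ≤ qe
  hq : qa + qb + qe ≤ 1
  hs : 0 ≤ s
  ha' : 0 ≤ a'
  hb' : 0 ≤ b'
  ht : 0 ≤ t
  hμ : 0 ≤ μ
  hsum : a' + b' + t + μ = 1
  hfa : bxa ≤ s + qb * σb + qe * σe - qa * σa + σa
  hfb : bxb ≤ s + qa * σa + qe * σe - qb * σb + σb
  hfe : bxe ≤ s + qa * σa + qb * σb - qe * σe + σe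
  hga : |ga - gw| ≤ bxa
  hgb : |gb - gw| ≤ bxb
  hge : |ge - gw| ≤ bxe
  hab : |ga - gb| ≤ σa + σb
  hLCe : min (bxa + σa) (min (bxb + σb) (bxe + σe)) ≤ s + qe * σe + 30 * (qa * σa + qb * σb)

section Step

variable {σa σb σe qa qb qe s bxa bxb bxe ga gb ge gw a' b' t μ : ℝ}

theorem kern_nonneg (hqa : 0 ≤ qa) (hqb : 0 ≤ qb) (hqe : 0 ≤ qe) (hq : qa + qb + qe ≤ 1)
    (X Z : Fin 4) : 0 ≤ kern qa qb qe X Z := by
  fin_cases X <;> fin_cases Z <;> simp [kern] <;> linarith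

theorem kern_sum (qa qb qe : ℝ) (X : Fin 4) : ∑ Z, kern qa qb qe X Z = 1 := by
  fin_cases X <;> simp [kern, Fin.sum_univ_four]
  all_goals ring

theorem p0_eq (hsum : a' + b' + t + μ = 1) (Z : Fin 4) :
    P0 qa qb qe a' b' t μ Z = ∑ X, ![a', b', t, μ] X * kern qa qb qe X Z := by
  fin_cases Z <;> simp [kern, Fin.sum_univ_four] <;>
    first
      | ring1
      | linear_combination -hsum

theorem p1_nonneg (ha' : 0 ≤ a') (hb' : 0 ≤ b') (ht : 0 ≤ t) (hμ : 0 ≤ μ) (X : Fin 4) :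
    0 ≤ ![a', b', t, μ] X := by
  fin_cases X <;> simp <;> assumption

theorem p1_sum (hsum : a' + b' + t + μ = 1) : ∑ X, ![a', b', t, μ] X = 1 := by
  simpa [Fin.sum_univ_four] using hsum

variable (h : StepHyp σa σb σe qa qb qe s bxa bxb bxe ga gb ge gw a' b' t μ)

include h

theorem la_nonneg : 0 ≤ σa - qa * σa + qb * σb := by
  have h1 : 0 ≤ (1 - qa) * σa := mul_nonneg (by linarith [h.hq, h.hqb, h.hqe]) h.hσa
  have h2 := mul_nonneg h.hqb h.hσb
  linarith

theorem lb_nonneg : 0 ≤ σb - qb * σb + qa * σa := by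
  have h1 : 0 ≤ (1 - qb) * σb := mul_nonneg (by linarith [h.hq, h.hqa, h.hqe]) h.hσb
  have h2 := mul_nonneg h.hqa h.hσa
  linarith

theorem lw_nonneg : 0 ≤ s + qe * σe := by
  have h2 := mul_nonneg h.hqe h.hσe
  linarith [h.hs]

theorem kB_nonneg : 0 ≤ qa * σa * (1 - qa) + qb * σb * (1 - qb) := by
  have h1 : 0 ≤ qa * σa * (1 - qa) :=
    mul_nonneg (mul_nonneg h.hqa h.hσa) (by linarith [h.hq, h.hqb, h.hqe])
  have h2 : 0 ≤ qb * σb * (1 - qb) :=
    mul_nonneg (mul_nonneg h.hqb h.hσb) (by linarith [h.hq, h.hqa, h.hqe])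
  linarith

theorem kE_nonneg : 0 ≤ qe * σe * (1 - qe) :=
  mul_nonneg (mul_nonneg h.hqe h.hσe) (by linarith [h.hq, h.hqa, h.hqb])

theorem case_a :
    psi 20 ![ga, gb, ge, 0] (L0 σa σb σe) (P0 qa qb qe a' b' t μ) 0
      ≤ psi 20 ![ga, gb, gw, 0] (L1 σa σb σe qa qb qe s) ![a', b', t, μ] 0 := by
  have hπ : ∀ y, 0 ≤ (![1, 0, 0, 0] : Fin 4 → ℝ) y := by
    intro y
    fin_cases y <;> simp
  have hm := mix_bound (l0 := L0 σa σb σe) (l1 := L1 σa σb σe qa qb qe s)
    (p0 := P0 qa qb qe a' b' t μ) (π := ![1, 0, 0, 0]) (y := 0) (e := 0)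
    (p1_nonneg h.ha' h.hb' h.ht h.hμ) (p1_sum h.hsum) (kern_nonneg h.hqa h.hqb h.hqe h.hq)
    (kern_sum qa qb qe) (p0_eq h.hsum) hπ (by
      intro X
      fin_cases X <;> simp [Fin.sum_univ_four, kern, star]
      · linarith
      · linarith [h.hs]
      · linarith)
  have hm2 : mval (L0 σa σb σe) (P0 qa qb qe a' b' t μ) 0
      ≤ mval (L1 σa σb σe qa qb qe s) ![a', b', t, μ] 0 := by
    simpa [Fin.sum_univ_four] using hm
  unfold psi
  have e1 : ghat ![ga, gb, ge, 0] (L0 σa σb σe) 0 = ga := by simp [ghat]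
  have e2 : ghat ![ga, gb, gw, 0] (L1 σa σb σe qa qb qe s) 0 = ga := by simp [ghat]
  rw [e1, e2]
  linarith

theorem case_b :
    psi 20 ![ga, gb, ge, 0] (L0 σa σb σe) (P0 qa qb qe a' b' t μ) 1
      ≤ psi 20 ![ga, gb, gw, 0] (L1 σa σb σe qa qb qe s) ![a', b', t, μ] 1 := by
  have hπ : ∀ y, 0 ≤ (![0, 1, 0, 0] : Fin 4 → ℝ) y := by
    intro y
    fin_cases y <;> simp
  have hm := mix_bound (l0 := L0 σa σb σe) (l1 := L1 σa σb σe qa qb qe s)
    (p0 := P0 qa qb qe a' b' t μ) (π := ![0, 1, 0, 0]) (y := 1) (e := 0)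
    (p1_nonneg h.ha' h.hb' h.ht h.hμ) (p1_sum h.hsum) (kern_nonneg h.hqa h.hqb h.hqe h.hq)
    (kern_sum qa qb qe) (p0_eq h.hsum) hπ (by
      intro X
      fin_cases X <;> simp [Fin.sum_univ_four, kern, star]
      · linarith
      · linarith [h.hs]
      · linarith)
  have hm2 : mval (L0 σa σb σe) (P0 qa qb qe a' b' t μ) 1
      ≤ mval (L1 σa σb σe qa qb qe s) ![a', b', t, μ] 1 := by
    simpa [Fin.sum_univ_four] using hm
  unfold psi
  have e1 : ghat ![ga, gb, ge, 0] (L0 σa σb σe) 1 = gb := by simp [ghat]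
  have e2 : ghat ![ga, gb, gw, 0] (L1 σa σb σe qa qb qe s) 1 = gb := by simp [ghat]
  rw [e1, e2]
  linarith

/-- The bound of the parent hub-type minimum through the new vertex. -/
theorem U0_le :
    min (ga + σa) (min (gb + σb) (ge + σe)) - gw ≤ s + qe * σe + 30 * (qa * σa + qb * σb) := by
  have h1 := abs_le.1 h.hga
  have h2 := abs_le.1 h.hgb
  have h3 := abs_le.1 h.hge
  refine le_trans ?_ h.hLCe
  refine le_min ?_ (le_min ?_ ?_)
  · have := min_le_left (ga + σa) (min (gb + σb) (ge + σe))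
    linarith
  · have := min_le_right (ga + σa) (min (gb + σb) (ge + σe))
    have := min_le_left (gb + σb) (ge + σe)
    linarith
  · have := min_le_right (ga + σa) (min (gb + σb) (ge + σe))
    have := min_le_right (gb + σb) (ge + σe)
    linarith

theorem hub_mix : ∃ y', psi 20 ![ga, gb, ge, 0] (L0 σa σb σe) (P0 qa qb qe a' b' t μ) y'
      ≤ psi 20 ![ga, gb, gw, 0] (L1 σa σb σe qa qb qe s) ![a', b', t, μ] 3
        + 71 * (qa * σa * (1 - qa) + qb * σb * (1 - qb)) := by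
  have hB := kB_nonneg h
  have hqa := h.hqa
  have hqb := h.hqb
  have hqe := h.hqe
  have hs := h.hs
  have hq' : 0 ≤ 1 - qa - qb := by linarith [h.hq]
  have hπ : ∀ y, 0 ≤ (![qa, qb, 0, 1 - qa - qb] : Fin 4 → ℝ) y := by
    intro y
    fin_cases y <;> simp <;> first | assumption | linarith
  have hπ1 : ∑ y, (![qa, qb, 0, 1 - qa - qb] : Fin 4 → ℝ) y = 1 := by
    simp [Fin.sum_univ_four]
  refine exists_le_of_mix hπ hπ1 ?_
  rw [mix_psi]
  have hm := mix_bound (l0 := L0 σa σb σe) (l1 := L1 σa σb σe qa qb qe s)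
    (p0 := P0 qa qb qe a' b' t μ) (π := ![qa, qb, 0, 1 - qa - qb]) (y := 3)
    (e := 2 * (qa * σa * (1 - qa) + qb * σb * (1 - qb)))
    (p1_nonneg h.ha' h.hb' h.ht h.hμ) (p1_sum h.hsum) (kern_nonneg h.hqa h.hqb h.hqe h.hq)
    (kern_sum qa qb qe) (p0_eq h.hsum) hπ (by
      intro X
      fin_cases X <;> simp [Fin.sum_univ_four, kern, star]
      all_goals nlinarith)
  have hg : ∑ y, (![qa, qb, 0, 1 - qa - qb] : Fin 4 → ℝ) y * ghat ![ga, gb, ge, 0] (L0 σa σb σe) y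
      ≤ ghat ![ga, gb, gw, 0] (L1 σa σb σe qa qb qe s) 3
        + 31 * (qa * σa * (1 - qa) + qb * σb * (1 - qb)) := by
    have e1 : ∑ y, (![qa, qb, 0, 1 - qa - qb] : Fin 4 → ℝ) y * ghat ![ga, gb, ge, 0] (L0 σa σb σe) y
        = qa * ga + qb * gb + (1 - qa - qb) * min (ga + σa) (min (gb + σb) (ge + σe)) := by
      simp [Fin.sum_univ_four, ghat]
    have e2 : ghat ![ga, gb, gw, 0] (L1 σa σb σe qa qb qe s) 3
        = min (ga + (σa - qa * σa + qb * σb))
          (min (gb + (σb - qb * σb + qa * σa)) (gw + (s + qe * σe))) := by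
      simp [ghat]
    rw [e1, e2]
    have hU := U0_le h
    set U0 := min (ga + σa) (min (gb + σb) (ge + σe)) with hU0
    have hU1 : U0 ≤ ga + σa := min_le_left _ _
    have hU2 : U0 ≤ gb + σb := (min_le_right _ _).trans (min_le_left _ _)
    have hab := abs_le.1 h.hab
    have hga := abs_le.1 h.hga
    have hgb := abs_le.1 h.hgb
    have hfa := h.hfa
    have hfb := h.hfb
    have key : qa * ga + qb * gb + (1 - qa - qb) * U0
        - 31 * (qa * σa * (1 - qa) + qb * σb * (1 - qb))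
        ≤ min (ga + (σa - qa * σa + qb * σb))
          (min (gb + (σb - qb * σb + qa * σa)) (gw + (s + qe * σe))) := by
      refine le_min ?_ (le_min ?_ ?_)
      · have h1 : 0 ≤ qb * (σa + σb - (gb - ga)) := mul_nonneg hqb (by linarith [hab.1])
        have h2 : 0 ≤ (1 - qa - qb) * (ga + σa - U0) := mul_nonneg hq' (by linarith)
        nlinarith
      · have h1 : 0 ≤ qa * (σa + σb - (ga - gb)) := mul_nonneg hqa (by linarith [hab.2])
        have h2 : 0 ≤ (1 - qa - qb) * (gb + σb - U0) := mul_nonneg hq' (by linarith)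
        nlinarith
      · have h1 : 0 ≤ qa * ((σa - qa * σa + qb * σb) + (s + qe * σe) - (ga - gw)) :=
          mul_nonneg hqa (by linarith [hga.2])
        have h2 : 0 ≤ qb * ((σb - qb * σb + qa * σa) + (s + qe * σe) - (gb - gw)) :=
          mul_nonneg hqb (by linarith [hgb.2])
        have h3 : 0 ≤ (1 - qa - qb) * ((s + qe * σe) + 30 * (qa * σa + qb * σb) - (U0 - gw)) :=
          mul_nonneg hq' (by linarith)
        have h4 : 0 ≤ qb * (qa * σa) := mul_nonneg hqb (mul_nonneg hqa h.hσa)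
        have h5 : 0 ≤ qa * (qb * σb) := mul_nonneg hqa (mul_nonneg hqb h.hσb)
        nlinarith
    linarith
  have : (20 : ℝ) * (mval (L1 σa σb σe qa qb qe s) ![a', b', t, μ] 3
      + 2 * (qa * σa * (1 - qa) + qb * σb * (1 - qb)))
      = 20 * mval (L1 σa σb σe qa qb qe s) ![a', b', t, μ] 3
        + 40 * (qa * σa * (1 - qa) + qb * σb * (1 - qb)) := by ring
  unfold psi
  linarith

omit h in
theorem ab_bound {a' b' : ℝ} (ha' : 0 ≤ a') (hb' : 0 ≤ b')
    (h1 : 20 * (2 * a' - 1 + 2 * a' * b') < 1) (h2 : 20 * (2 * b' - 1) < 1) :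
    a' + b' ≤ 87 / 100 := by
  by_contra hne
  push Not at hne
  have h3 : 0 < (a' + b' - 87 / 100) * (1 + b') := mul_pos (by linarith) (by linarith)
  have h4 : 0 ≤ b' * (21 / 40 - b') := mul_nonneg hb' (by linarith)
  nlinarith

omit h in
theorem tau_core {a' b' la lb : ℝ} (ha' : 0 ≤ a') (hb' : 0 ≤ b') (hla : 0 ≤ la) (hlb : 0 ≤ lb)
    (h1 : 20 * ((2 * a' - 1) * la + 2 * a' * b' * min la lb) < la)
    (h2 : 20 * ((2 * b' - 1) * lb + 2 * a' * b' * min la lb) < lb) : a' + b' ≤ 87 / 100 := by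
  have hab0 : 0 ≤ 2 * a' * b' := by positivity
  have hlapos : 0 < la := by
    rcases hla.eq_or_lt with h | h
    · rw [← h, min_eq_left hlb] at h1
      simp at h1
    · exact h
  have hlbpos : 0 < lb := by
    rcases hlb.eq_or_lt with h | h
    · rw [← h, min_eq_right hla] at h2
      simp at h2
    · exact h
  rcases le_total la lb with hle | hle
  · rw [min_eq_left hle] at h1 h2
    refine ab_bound ha' hb' ?_ ?_
    · by_contra hc
      push Not at hc
      nlinarith [mul_le_mul_of_nonneg_right hc hlapos.le]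
    · by_contra hc
      push Not at hc
      have h3 : 0 ≤ 2 * a' * b' * la := mul_nonneg hab0 hla
      nlinarith [mul_le_mul_of_nonneg_right hc hlbpos.le]
  · rw [min_eq_right hle] at h1 h2
    have := ab_bound hb' ha' (a' := b') (b' := a') ?_ ?_
    · linarith
    · by_contra hc
      push Not at hc
      nlinarith [mul_le_mul_of_nonneg_right hc hlbpos.le]
    · by_contra hc
      push Not at hc
      have h3 : 0 ≤ 2 * a' * b' * lb := mul_nonneg hab0 hlb
      nlinarith [mul_le_mul_of_nonneg_right hc hlapos.le]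

theorem tau_bound
    (h1 : psi 20 ![ga, gb, gw, 0] (L1 σa σb σe qa qb qe s) ![a', b', t, μ] 3
      < psi 20 ![ga, gb, gw, 0] (L1 σa σb σe qa qb qe s) ![a', b', t, μ] 0)
    (h2 : psi 20 ![ga, gb, gw, 0] (L1 σa σb σe qa qb qe s) ![a', b', t, μ] 3
      < psi 20 ![ga, gb, gw, 0] (L1 σa σb σe qa qb qe s) ![a', b', t, μ] 1) :
    a' + b' ≤ 87 / 100 := by
  have hla := la_nonneg h
  have hlb := lb_nonneg h
  have hlw := lw_nonneg h
  have hab := abs_le.1 h.hab
  have hga := abs_le.1 h.hga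
  have hgb := abs_le.1 h.hgb
  have hfa := h.hfa
  have hfb := h.hfb
  have ha' := h.ha'
  have hb' := h.hb'
  have ht := h.ht
  have hμ := h.hμ
  have hsum := h.hsum
  unfold psi at h1 h2
  rw [mval_three hla hlb hlw, mval_zero hla hlb hlw] at h1
  rw [mval_three hla hlb hlw, mval_one hla hlb hlw] at h2
  have e3 : ghat ![ga, gb, gw, 0] (L1 σa σb σe qa qb qe s) 3
      = min (ga + (σa - qa * σa + qb * σb))
        (min (gb + (σb - qb * σb + qa * σa)) (gw + (s + qe * σe))) := by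
    simp [ghat]
  have e0 : ghat ![ga, gb, gw, 0] (L1 σa σb σe qa qb qe s) 0 = ga := by simp [ghat]
  have e1 : ghat ![ga, gb, gw, 0] (L1 σa σb σe qa qb qe s) 1 = gb := by simp [ghat]
  rw [e3, e0] at h1
  rw [e3, e1] at h2
  set la := σa - qa * σa + qb * σb with hladef
  set lb := σb - qb * σb + qa * σa with hlbdef
  set lw := s + qe * σe with hlwdef
  have hU1 : ga - la ≤ min (ga + la) (min (gb + lb) (gw + lw)) := by
    refine le_min (by linarith) (le_min ?_ ?_)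
    · rw [hladef, hlbdef]
      linarith [hab.2]
    · rw [hladef, hlwdef]
      linarith [hga.2]
  have hU2 : gb - lb ≤ min (ga + la) (min (gb + lb) (gw + lw)) := by
    refine le_min ?_ (le_min (by linarith) ?_)
    · rw [hladef, hlbdef]
      linarith [hab.1]
    · rw [hlbdef, hlwdef]
      linarith [hgb.2]
  set Uk := min (ga + la) (min (gb + lb) (gw + lw)) with hUk
  have e4 : b' + t + μ = 1 - a' := by linarith
  have e5 : a' + t + μ = 1 - b' := by linarith
  rw [e4] at h1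
  rw [e5] at h2
  refine tau_core ha' hb' hla hlb ?_ ?_
  · have h3 : 0 ≤ 2 * a' * t * min la lw := by
      have := le_min hla hlw
      positivity
    nlinarith
  · have h3 : 0 ≤ 2 * b' * t * min lb lw := by
      have := le_min hlb hlw
      positivity
    nlinarith

theorem t_bound
    (h1 : psi 20 ![ga, gb, gw, 0] (L1 σa σb σe qa qb qe s) ![a', b', t, μ] 2
      < psi 20 ![ga, gb, gw, 0] (L1 σa σb σe qa qb qe s) ![a', b', t, μ] 3) :
    27 / 100 ≤ t := by
  have hla := la_nonneg h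
  have hlb := lb_nonneg h
  have hlw := lw_nonneg h
  have ha' := h.ha'
  have hb' := h.hb'
  have ht := h.ht
  have hμ := h.hμ
  have hsum := h.hsum
  unfold psi at h1
  rw [mval_three hla hlb hlw, mval_two hla hlb hlw] at h1
  have e3 : ghat ![ga, gb, gw, 0] (L1 σa σb σe qa qb qe s) 3
      = min (ga + (σa - qa * σa + qb * σb))
        (min (gb + (σb - qb * σb + qa * σa)) (gw + (s + qe * σe))) := by
    simp [ghat]
  have e2 : ghat ![ga, gb, gw, 0] (L1 σa σb σe qa qb qe s) 2 = gw := by simp [ghat]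
  rw [e3, e2] at h1
  set la := σa - qa * σa + qb * σb with hladef
  set lb := σb - qb * σb + qa * σa with hlbdef
  set lw := s + qe * σe with hlwdef
  have hU : min (ga + la) (min (gb + lb) (gw + lw)) ≤ gw + lw :=
    (min_le_right _ _).trans (min_le_right _ _)
  set Uk := min (ga + la) (min (gb + lb) (gw + lw)) with hUk
  have e4 : a' + b' + μ = 1 - t := by linarith
  rw [e4] at h1
  have hm1 : min la lw ≤ lw := min_le_right _ _
  have hm2 : min lb lw ≤ lw := min_le_right _ _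
  have h5 : 2 * a' * t * min la lw ≤ 2 * a' * t * lw := by
    have : 0 ≤ 2 * a' * t := by positivity
    exact mul_le_mul_of_nonneg_left hm1 this
  have h6 : 2 * b' * t * min lb lw ≤ 2 * b' * t * lw := by
    have : 0 ≤ 2 * b' * t := by positivity
    exact mul_le_mul_of_nonneg_left hm2 this
  have h7 : 0 ≤ 2 * μ * t * lw := by positivity
  have key : 20 * ((1 - 4 * t + 2 * t ^ 2) * lw) < lw := by
    have e6 : 2 * a' * t * lw + 2 * b' * t * lw + 2 * μ * t * lw = 2 * (1 - t) * t * lw := by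
      rw [← e4]
      ring
    nlinarith
  have hlwpos : 0 < lw := by
    rcases hlw.eq_or_lt with h0 | h0
    · rw [← h0] at key
      simp at key
    · exact h0
  by_contra hc
  push Not at hc
  have h8 : 0 < (27 / 100 - t) * (173 / 50 - 2 * t) := mul_pos (by linarith) (by linarith)
  have h9 : (1 : ℝ) ≤ 20 * (1 - 4 * t + 2 * t ^ 2) := by nlinarith
  nlinarith [mul_le_mul_of_nonneg_right h9 hlwpos.le]

theorem w_mix : ∃ y', psi 20 ![ga, gb, ge, 0] (L0 σa σb σe) (P0 qa qb qe a' b' t μ) y'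
      ≤ psi 20 ![ga, gb, gw, 0] (L1 σa σb σe qa qb qe s) ![a', b', t, μ] 2
        + (s + 71 * (qa * σa * (1 - qa) + qb * σb * (1 - qb) + qe * σe * (1 - qe))) := by
  have hB := kB_nonneg h
  have hE0 := kE_nonneg h
  have hqa := h.hqa
  have hqb := h.hqb
  have hqe := h.hqe
  have hs := h.hs
  have hqM : 0 ≤ 1 - qa - qb - qe := by linarith [h.hq]
  have hπ : ∀ y, 0 ≤ (![qa, qb, qe, 1 - qa - qb - qe] : Fin 4 → ℝ) y := by
    intro y
    fin_cases y <;> simp <;> first | assumption | linarith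
  have hπ1 : ∑ y, (![qa, qb, qe, 1 - qa - qb - qe] : Fin 4 → ℝ) y = 1 := by
    simp [Fin.sum_univ_four]
  refine exists_le_of_mix hπ hπ1 ?_
  rw [mix_psi]
  have hm := mix_bound (l0 := L0 σa σb σe) (l1 := L1 σa σb σe qa qb qe s)
    (p0 := P0 qa qb qe a' b' t μ) (π := ![qa, qb, qe, 1 - qa - qb - qe]) (y := 2)
    (e := 2 * (qa * σa * (1 - qa) + qb * σb * (1 - qb) + qe * σe * (1 - qe)))
    (p1_nonneg h.ha' h.hb' h.ht h.hμ) (p1_sum h.hsum) (kern_nonneg h.hqa h.hqb h.hqe h.hq)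
    (kern_sum qa qb qe) (p0_eq h.hsum) hπ (by
      intro X
      fin_cases X <;> simp [Fin.sum_univ_four, kern, star]
      all_goals nlinarith)
  have hg : ∑ y, (![qa, qb, qe, 1 - qa - qb - qe] : Fin 4 → ℝ) y
        * ghat ![ga, gb, ge, 0] (L0 σa σb σe) y
      ≤ ghat ![ga, gb, gw, 0] (L1 σa σb σe qa qb qe s) 2
        + (s + 31 * (qa * σa * (1 - qa) + qb * σb * (1 - qb) + qe * σe * (1 - qe))) := by
    have e1 : ∑ y, (![qa, qb, qe, 1 - qa - qb - qe] : Fin 4 → ℝ) y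
          * ghat ![ga, gb, ge, 0] (L0 σa σb σe) y
        = qa * ga + qb * gb + qe * ge
          + (1 - qa - qb - qe) * min (ga + σa) (min (gb + σb) (ge + σe)) := by
      simp [Fin.sum_univ_four, ghat]
    have e2 : ghat ![ga, gb, gw, 0] (L1 σa σb σe qa qb qe s) 2 = gw := by
      simp [ghat]
    rw [e1, e2]
    have hU := U0_le h
    set U0 := min (ga + σa) (min (gb + σb) (ge + σe)) with hU0
    have hga := abs_le.1 h.hga
    have hgb := abs_le.1 h.hgb
    have hge := abs_le.1 h.hge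
    have hfa := h.hfa
    have hfb := h.hfb
    have hfe := h.hfe
    have h1 : 0 ≤ qa * ((s + qb * σb + qe * σe - qa * σa + σa) - (ga - gw)) :=
      mul_nonneg hqa (by linarith [hga.2])
    have h2 : 0 ≤ qb * ((s + qa * σa + qe * σe - qb * σb + σb) - (gb - gw)) :=
      mul_nonneg hqb (by linarith [hgb.2])
    have h3 : 0 ≤ qe * ((s + qa * σa + qb * σb - qe * σe + σe) - (ge - gw)) :=
      mul_nonneg hqe (by linarith [hge.2])
    have h4 : 0 ≤ (1 - qa - qb - qe) * ((s + qe * σe) + 30 * (qa * σa + qb * σb) - (U0 - gw)) :=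
      mul_nonneg hqM (by linarith)
    have k1 : 0 ≤ qb * (qa * σa) := mul_nonneg hqb (mul_nonneg hqa h.hσa)
    have k2 : 0 ≤ qe * (qa * σa) := mul_nonneg hqe (mul_nonneg hqa h.hσa)
    have k3 : 0 ≤ qa * (qb * σb) := mul_nonneg hqa (mul_nonneg hqb h.hσb)
    have k4 : 0 ≤ qe * (qb * σb) := mul_nonneg hqe (mul_nonneg hqb h.hσb)
    nlinarith
  have : (20 : ℝ) * (mval (L1 σa σb σe qa qb qe s) ![a', b', t, μ] 2
      + 2 * (qa * σa * (1 - qa) + qb * σb * (1 - qb) + qe * σe * (1 - qe)))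
      = 20 * mval (L1 σa σb σe qa qb qe s) ![a', b', t, μ] 2
        + 40 * (qa * σa * (1 - qa) + qb * σb * (1 - qb) + qe * σe * (1 - qe)) := by ring
  unfold psi
  linarith

end Step

/-- One step of the deep lemma. Data: legs `σa σb σe` of the parent triple `(a,b,e)`, the action `s, qa, qb, qe`
(with `qM = 1 - qa - qb - qe ≥ 0`, `κ = q σ`) of the new vertex `w`, votes `a' b' t μ` on the child triple `(a,b,w)` and hub.
`bxa bxb bxe` stand for `β d(w,·)`, `g*` for `β d(z,·)`. -/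
theorem deep_step
    (σa σb σe qa qb qe s bxa bxb bxe ga gb ge gw a' b' t μ : ℝ)
    (hσa : 0 ≤ σa) (hσb : 0 ≤ σb) (hσe : 0 ≤ σe)
    (hqa : 0 ≤ qa) (hqb : 0 ≤ qb) (hqe : 0 ≤ qe) (hq : qa + qb + qe ≤ 1) (hs : 0 ≤ s)
    (ha' : 0 ≤ a') (hb' : 0 ≤ b') (ht : 0 ≤ t) (hμ : 0 ≤ μ) (hsum : a' + b' + t + μ = 1)
    -- floors: `β d(w,u) ≤ S(w,u)`
    (hfa : bxa ≤ s + qb * σb + qe * σe - qa * σa + σa)
    (hfb : bxb ≤ s + qa * σa + qe * σe - qb * σb + σb)
    (hfe : bxe ≤ s + qa * σa + qb * σb - qe * σe + σe)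
    -- Lipschitz
    (hga : |ga - gw| ≤ bxa) (hgb : |gb - gw| ≤ bxb) (hge : |ge - gw| ≤ bxe)
    (hab : |ga - gb| ≤ σa + σb)
    -- LC conditions with `C_L = 30`
    (hLCa : min (bxa + σa) (min (bxb + σb) (bxe + σe)) ≤ s + qa * σa + 30 * (qb * σb + qe * σe))
    (hLCb : min (bxa + σa) (min (bxb + σb) (bxe + σe)) ≤ s + qb * σb + 30 * (qa * σa + qe * σe))
    (hLCe : min (bxa + σa) (min (bxb + σb) (bxe + σe)) ≤ s + qe * σe + 30 * (qa * σa + qb * σb))
    (y : Fin 4) :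
    ∃ y' : Fin 4,
      psi 20 ![ga, gb, ge, 0] ![σa, σb, σe, 0]
          ![a' + qa * (t + μ), b' + qb * (t + μ), qe * t, 1 - (a' + qa * (t + μ)) - (b' + qb * (t + μ)) - qe * t] y'
        ≤ psi 20 ![ga, gb, gw, 0] ![σa - qa * σa + qb * σb, σb - qb * σb + qa * σa, s + qe * σe, 0]
            ![a', b', t, μ] y
          + 5000 * (t ^ 2 * (s + qe * σe * (1 - qe))
              + (t + μ) ^ 2 * (qa * σa * (1 - qa) + qb * σb * (1 - qb))) := by
  have h : StepHyp σa σb σe qa qb qe s bxa bxb bxe ga gb ge gw a' b' t μ :=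
    ⟨hσa, hσb, hσe, hqa, hqb, hqe, hq, hs, ha', hb', ht, hμ, hsum, hfa, hfb, hfe, hga, hgb, hge, hab,
      hLCe⟩
  have hB := kB_nonneg h
  have hE := kE_nonneg h
  set B := qa * σa * (1 - qa) + qb * σb * (1 - qb) with hBdef
  set E := qe * σe * (1 - qe) with hEdef
  have hT : 0 ≤ t ^ 2 * (s + E) := by positivity
  have hτ : 0 ≤ (t + μ) ^ 2 * B := by positivity
  have hΔ : 0 ≤ t ^ 2 * (s + E) + (t + μ) ^ 2 * B := by linarith
  have hA := case_a (ga := ga) (gb := gb) (ge := ge) (gw := gw) h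
  have hB' := case_b (ga := ga) (gb := gb) (ge := ge) (gw := gw) h
  have hub : ∃ y' : Fin 4,
      psi 20 ![ga, gb, ge, 0] (L0 σa σb σe) (P0 qa qb qe a' b' t μ) y'
        ≤ psi 20 ![ga, gb, gw, 0] (L1 σa σb σe qa qb qe s) ![a', b', t, μ] 3
          + 5000 * (t ^ 2 * (s + E) + (t + μ) ^ 2 * B) := by
    by_cases h1 : psi 20 ![ga, gb, gw, 0] (L1 σa σb σe qa qb qe s) ![a', b', t, μ] 0
        ≤ psi 20 ![ga, gb, gw, 0] (L1 σa σb σe qa qb qe s) ![a', b', t, μ] 3
    · exact ⟨0, by linarith⟩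
    by_cases h2 : psi 20 ![ga, gb, gw, 0] (L1 σa σb σe qa qb qe s) ![a', b', t, μ] 1
        ≤ psi 20 ![ga, gb, gw, 0] (L1 σa σb σe qa qb qe s) ![a', b', t, μ] 3
    · exact ⟨1, by linarith⟩
    have hab' := tau_bound h (not_le.1 h1) (not_le.1 h2)
    obtain ⟨y3, hy3⟩ := hub_mix (ga := ga) (gb := gb) (ge := ge) (gw := gw) h
    refine ⟨y3, hy3.trans ?_⟩
    have hτ1 : 13 / 100 ≤ t + μ := by linarith
    have hτ2 : (13 / 100 : ℝ) ^ 2 ≤ (t + μ) ^ 2 := pow_le_pow_left₀ (by norm_num) hτ1 2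
    have h3 : (13 / 100 : ℝ) ^ 2 * B ≤ (t + μ) ^ 2 * B := mul_le_mul_of_nonneg_right hτ2 hB
    nlinarith
  fin_cases y
  · exact ⟨0, by simpa using hA.trans (le_add_of_nonneg_right (by positivity))⟩
  · exact ⟨1, by simpa using hB'.trans (le_add_of_nonneg_right (by positivity))⟩
  · by_cases h1 : psi 20 ![ga, gb, gw, 0] (L1 σa σb σe qa qb qe s) ![a', b', t, μ] 3
        ≤ psi 20 ![ga, gb, gw, 0] (L1 σa σb σe qa qb qe s) ![a', b', t, μ] 2
    · obtain ⟨y', hy'⟩ := hub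
      exact ⟨y', by simpa using hy'.trans (by linarith)⟩
    · have ht' := t_bound h (not_le.1 h1)
      obtain ⟨y2, hy2⟩ := w_mix (ga := ga) (gb := gb) (ge := ge) (gw := gw) h
      refine ⟨y2, ?_⟩
      have ht2 : (27 / 100 : ℝ) ^ 2 ≤ t ^ 2 := pow_le_pow_left₀ (by norm_num) ht' 2
      have hττ : t ^ 2 ≤ (t + μ) ^ 2 := pow_le_pow_left₀ ht (by linarith) 2
      have h3 : (27 / 100 : ℝ) ^ 2 * (s + E) ≤ t ^ 2 * (s + E) :=
        mul_le_mul_of_nonneg_right ht2 (by positivity)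
      have h4 : (27 / 100 : ℝ) ^ 2 * B ≤ (t + μ) ^ 2 * B :=
        mul_le_mul_of_nonneg_right (ht2.trans hττ) hB
      have h5 : s + 71 * (B + E) ≤ 5000 * (t ^ 2 * (s + E) + (t + μ) ^ 2 * B) := by
        nlinarith
      simpa using hy2.trans (by linarith)
  · simpa using hub

end Vale.Agent.Lib.P235.UB
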