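import Vale.Agent.Lib.P235.UB.CutCalc

/-!
Negative type inequality for the clouds of two triples in a cut list (module A2 of the upper bound program).
For one entry with assignment `g`: let `u`, `v` be the laws of the value `1` of the two clouds. The four points of
a triple form a star around the hub (at most one slot differs from the hub), which gives
`Σ_i [g (T i) ≠ hub] p_i (1 - p_i) = u (1 - u)`, while the pair term is `u (1 - v) + v (1 - u)`; the difference is `(u - v)^2`.
-/

namespace Vale.Agent.Lib.P235.UB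

noncomputable section

variable {V : Type} [DecidableEq V]

/-- point number `X` of a triple: slots and hub -/
def ptOf (T : Fin 3 → V) (X : Fin 4) : Pt V :=
  if h : X = 3 then hubPt T else ev (T ⟨X.1, by omega⟩)

omit [DecidableEq V] in
theorem ptOf_zero (T : Fin 3 → V) : ptOf T 0 = ev (T 0) := rfl
omit [DecidableEq V] in
theorem ptOf_one (T : Fin 3 → V) : ptOf T 1 = ev (T 1) := rfl
omit [DecidableEq V] in
theorem ptOf_two (T : Fin 3 → V) : ptOf T 2 = ev (T 2) := rfl
omit [DecidableEq V] in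
theorem ptOf_three (T : Fin 3 → V) : ptOf T 3 = hubPt T := rfl

/-- indicator of a Boolean as a real number -/
def bv (b : Bool) : ℝ := if b then 1 else 0

/-- the law of the value `1` of a cloud -/
def cloudU (T : Fin 3 → V) (p : Fin 4 → ℝ) (g : V → Bool) : ℝ :=
  p 0 * bv (g (T 0)) + p 1 * bv (g (T 1)) + p 2 * bv (g (T 2)) + p 3 * bv (hubPt T g)

/-- per entry left side -/
def cloudL (T : Fin 3 → V) (p : Fin 4 → ℝ) (g : V → Bool) : ℝ :=
  (if g (T 0) = hubPt T g then (0:ℝ) else 1) * (p 0 * (1 - p 0))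
  + (if g (T 1) = hubPt T g then (0:ℝ) else 1) * (p 1 * (1 - p 1))
  + (if g (T 2) = hubPt T g then (0:ℝ) else 1) * (p 2 * (1 - p 2))

/-- the star identity for one entry, on Boolean values -/
theorem star_bool (a b c : Bool) (p0 p1 p2 : ℝ) :
    (if a = maj3 a b c then (0:ℝ) else 1) * (p0 * (1 - p0))
      + (if b = maj3 a b c then (0:ℝ) else 1) * (p1 * (1 - p1))
      + (if c = maj3 a b c then (0:ℝ) else 1) * (p2 * (1 - p2))
    = (p0 * bv a + p1 * bv b + p2 * bv c + (1 - p0 - p1 - p2) * bv (maj3 a b c))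
      * (1 - (p0 * bv a + p1 * bv b + p2 * bv c + (1 - p0 - p1 - p2) * bv (maj3 a b c))) := by
  cases a <;> cases b <;> cases c <;> simp [maj3, bv] <;> ring

omit [DecidableEq V] in
theorem cloudL_eq (T : Fin 3 → V) (p : Fin 4 → ℝ) (hp : p 0 + p 1 + p 2 + p 3 = 1) (g : V → Bool) :
    cloudL T p g = cloudU T p g * (1 - cloudU T p g) := by
  have h3 : p 3 = 1 - p 0 - p 1 - p 2 := by linarith
  simp only [cloudL, cloudU, hubPt, h3]
  exact star_bool _ _ _ _ _ _

/-- indicator of difference in terms of values -/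
theorem ne_ind (a b : Bool) : (if a = b then (0:ℝ) else 1) = bv a * (1 - bv b) + bv b * (1 - bv a) := by
  cases a <;> cases b <;> simp [bv]

omit [DecidableEq V] in
/-- the pair term, one entry -/
theorem pair_entry (T T' : Fin 3 → V) (p p' : Fin 4 → ℝ)
    (hp : ∑ X, p X = 1) (hp' : ∑ X, p' X = 1) (g : V → Bool) :
    ∑ X, ∑ Y, p X * p' Y * (if ptOf T X g = ptOf T' Y g then (0:ℝ) else 1)
      = cloudU T p g * (1 - cloudU T' p' g) + cloudU T' p' g * (1 - cloudU T p g) := by
  have h3 : p 3 = 1 - p 0 - p 1 - p 2 := by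
    rw [Fin.sum_univ_four] at hp; linarith
  have h3' : p' 3 = 1 - p' 0 - p' 1 - p' 2 := by
    rw [Fin.sum_univ_four] at hp'; linarith
  simp only [ne_ind, Fin.sum_univ_four, ptOf_zero, ptOf_one, ptOf_two, ptOf_three, cloudU, ev, h3, h3']
  ring

/-- the left side of the negative type inequality, as a function of the cut list -/
theorem legs_sum_cons (e : ℝ × (V → Bool)) (L : Cut V) (T : Fin 3 → V) (p : Fin 4 → ℝ) :
    (∑ i : Fin 3, sDist (e :: L) (ev (T i)) (hubPt T) * (p i.castSucc * (1 - p i.castSucc)))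
      = e.1 * cloudL T p e.2
        + ∑ i : Fin 3, sDist L (ev (T i)) (hubPt T) * (p i.castSucc * (1 - p i.castSucc)) := by
  have h : ∀ (i : Fin 3), sDist (e :: L) (ev (T i)) (hubPt T)
      = e.1 * (if e.2 (T i) = hubPt T e.2 then (0:ℝ) else 1) + sDist L (ev (T i)) (hubPt T) := by
    intro i
    rfl
  simp only [Fin.sum_univ_three, h, cloudL]
  have h0 : ((0 : Fin 3).castSucc : Fin 4) = 0 := rfl
  have h1 : ((1 : Fin 3).castSucc : Fin 4) = 1 := rfl
  have h2 : ((2 : Fin 3).castSucc : Fin 4) = 2 := rfl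
  rw [h0, h1, h2]
  ring

/-- the pair term as a function of the cut list -/
theorem pair_cons (e : ℝ × (V → Bool)) (L : Cut V) (T T' : Fin 3 → V) (p p' : Fin 4 → ℝ) :
    (∑ X, ∑ Y, p X * p' Y * sDist (e :: L) (ptOf T X) (ptOf T' Y))
      = e.1 * (∑ X, ∑ Y, p X * p' Y * (if ptOf T X e.2 = ptOf T' Y e.2 then (0:ℝ) else 1))
        + ∑ X, ∑ Y, p X * p' Y * sDist L (ptOf T X) (ptOf T' Y) := by
  simp only [sDist, List.map_cons, List.sum_cons, mul_add, Finset.sum_add_distrib, Finset.mul_sum]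
  congr 1
  apply Finset.sum_congr rfl; intro X _
  apply Finset.sum_congr rfl; intro Y _
  ring

/-- negative type for cut lists with nonnegative weights, laws `p` and `p'`, in raw form. -/
theorem negative_type_raw (L : Cut V) (hL : ∀ e ∈ L, 0 ≤ e.1) (T T' : Fin 3 → V) (p p' : Fin 4 → ℝ)
    (hp : ∑ X, p X = 1) (hp' : ∑ X, p' X = 1) :
    (∑ i : Fin 3, sDist L (ev (T i)) (hubPt T) * (p i.castSucc * (1 - p i.castSucc)))
      + (∑ i : Fin 3, sDist L (ev (T' i)) (hubPt T') * (p' i.castSucc * (1 - p' i.castSucc)))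
      ≤ ∑ X, ∑ Y, p X * p' Y * sDist L (ptOf T X) (ptOf T' Y) := by
  have hp4 : p 0 + p 1 + p 2 + p 3 = 1 := by rw [← hp, Fin.sum_univ_four]
  have hp4' : p' 0 + p' 1 + p' 2 + p' 3 = 1 := by rw [← hp', Fin.sum_univ_four]
  induction L with
  | nil => simp [sDist]
  | cons e L ih =>
    have h0 : 0 ≤ e.1 := hL e (by simp)
    have ih' := ih (fun x hx => hL x (by simp [hx]))
    rw [legs_sum_cons, legs_sum_cons, pair_cons, pair_entry T T' p p' hp hp' e.2,
      cloudL_eq T p hp4, cloudL_eq T' p' hp4']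
    have key : e.1 * (cloudU T p e.2 * (1 - cloudU T p e.2)) + e.1 * (cloudU T' p' e.2 * (1 - cloudU T' p' e.2))
        ≤ e.1 * (cloudU T p e.2 * (1 - cloudU T' p' e.2) + cloudU T' p' e.2 * (1 - cloudU T p e.2)) := by
      rw [← mul_add]
      apply mul_le_mul_of_nonneg_left _ h0
      nlinarith [sq_nonneg (cloudU T p e.2 - cloudU T' p' e.2)]
    linarith

end

end Vale.Agent.Lib.P235.UB
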