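import Vale.Agent.Lib.P235.Defs

/-!
From a tree decomposition of width 3 to a construction sequence.
A history is a list of pairs `(w, T)`, most recent first: vertex `w` was attached to the triple `T : Fin 3 → V` (repeats allowed).
-/

namespace Vale.Agent.Lib.P235.UB

variable {V : Type} [DecidableEq V]

/-- the vertices placed so far -/
def placed (r : V) (H : List (V × (Fin 3 → V))) : List V := r :: H.map Prod.fst

/-- `T` is the root triple `(r,r,r)` or a child of an earlier triple: one slot replaced by the vertex attached to it. -/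
def ValidTriple (r : V) (H : List (V × (Fin 3 → V))) (T : Fin 3 → V) : Prop :=
  T = (fun _ => r) ∨ ∃ w T₀ c, (w, T₀) ∈ H ∧ T = Function.update T₀ c w

/-- construction sequences -/
inductive Seq (r : V) : List (V × (Fin 3 → V)) → Prop
  | nil : Seq r []
  | cons {H w T} : Seq r H → ValidTriple r H T → w ∉ placed r H → Seq r ((w, T) :: H)

/-- all vertices appear and every edge of `G` is covered: when its later endpoint `w` is attached to `T`, the earlier endpoint is in `T`. -/
def Covers (G : SimpleGraph V) (r : V) (H : List (V × (Fin 3 → V))) : Prop :=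
  (∀ v, v ∈ placed r H) ∧
  ∀ H' w T, ((w, T) :: H') <:+ H → ∀ u, G.Adj u w → u ∈ placed r H' → ∃ i, T i = u

omit [DecidableEq V] in
theorem mem_placed_cons {r v w : V} {T : Fin 3 → V} {H : List (V × (Fin 3 → V))} :
    v ∈ placed r ((w, T) :: H) ↔ v = w ∨ v ∈ placed r H := by
  simp only [placed, List.map_cons, List.mem_cons]
  tauto

omit [DecidableEq V] in
theorem placed_mono {r v : V} {H₁ H₂ : List (V × (Fin 3 → V))} (h : H₁ <:+ H₂)
    (hv : v ∈ placed r H₁) : v ∈ placed r H₂ := by
  simp only [placed, List.mem_cons, List.mem_map] at hv ⊢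
  rcases hv with hv | ⟨x, hx, rfl⟩
  · exact Or.inl hv
  · exact Or.inr ⟨x, h.subset hx, rfl⟩

omit [DecidableEq V] in
theorem ValidTriple.mono {r : V} {H : List (V × (Fin 3 → V))} {T : Fin 3 → V}
    (x : V × (Fin 3 → V)) (h : ValidTriple r H T) : ValidTriple r (x :: H) T := by
  rcases h with h | ⟨w, T₀, c, hm, rfl⟩
  · exact Or.inl h
  · exact Or.inr ⟨w, T₀, c, List.mem_cons_of_mem _ hm, rfl⟩

omit [DecidableEq V] in
theorem Seq.valid_of_mem {r : V} {H : List (V × (Fin 3 → V))} (hs : Seq r H) :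
    ∀ {w : V} {T : Fin 3 → V}, (w, T) ∈ H → ValidTriple r H T := by
  induction hs with
  | nil => intro w T h; cases h
  | cons hs hv hw ih =>
    intro w T h
    rcases List.mem_cons.1 h with h | h
    · cases h; exact hv.mono _
    · exact (ih h).mono _

omit [DecidableEq V] in
theorem exists_slot {A : Finset V} (T : Fin 3 → V) (w : V) (hA : ∀ a ∈ A, ∃ i, T i = a)
    (hc : A.card ≤ 2) : ∃ c, ∀ a ∈ A, ∃ i, Function.update T c w i = a := by
  classical
  choose! f hf using hA
  have hlt : (A.image f).card < (Finset.univ : Finset (Fin 3)).card := by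
    calc (A.image f).card ≤ A.card := Finset.card_image_le
      _ ≤ 2 := hc
      _ < _ := by simp
  obtain ⟨c, -, hc'⟩ := Finset.exists_mem_notMem_of_card_lt_card hlt
  refine ⟨c, fun a ha => ⟨f a, ?_⟩⟩
  have hne : f a ≠ c := fun h => hc' (h ▸ Finset.mem_image_of_mem f ha)
  rw [Function.update_of_ne hne]
  exact hf a ha

theorem add_new (r : V) : ∀ (n : ℕ) (N A : Finset V) (H : List (V × (Fin 3 → V))) (T : Fin 3 → V),
    N.card = n → Seq r H → ValidTriple r H T → (∀ v ∈ N, v ∉ placed r H) →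
    (∀ a ∈ A, ∃ i, T i = a) → A.card + N.card ≤ 4 →
    ∃ H', Seq r H' ∧ H <:+ H' ∧ (∀ v, v ∈ placed r H' ↔ v ∈ placed r H ∨ v ∈ N) ∧
      (N.Nonempty → ∃ w T', (w, T') ∈ H' ∧ ∀ v, v ∈ A ∨ v ∈ N → v = w ∨ ∃ i, T' i = v) ∧
      (∀ H'' w T', (w, T') :: H'' <:+ H' → (w, T') :: H'' <:+ H ∨
        (w ∈ N ∧ ∀ u ∈ placed r H'', (u ∈ A ∨ u ∈ N) → ∃ i, T' i = u)) := by
  intro n
  induction n with
  | zero =>
    intro N A H T hN hs hv hnew hA hc
    have hN0 : N = ∅ := Finset.card_eq_zero.1 hN
    subst hN0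
    refine ⟨H, hs, List.suffix_refl _, by simp, by simp, fun H'' w T' h => Or.inl h⟩
  | succ n ih =>
    intro N A H T hN hs hv hnew hA hc
    have hne : N.Nonempty := by
      rw [← Finset.card_pos]; omega
    obtain ⟨x, hx⟩ := hne
    have hxnew := hnew x hx
    have hs₁ : Seq r ((x, T) :: H) := Seq.cons hs hv hxnew
    have hcard₀ : (N.erase x).card = n := by
      rw [Finset.card_erase_of_mem hx]; omega
    -- the two kinds of new suffix
    have hsuff : ∀ H'' w T', (w, T') :: H'' <:+ (x, T) :: H → (w, T') :: H'' <:+ H ∨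
        (w ∈ N ∧ ∀ u ∈ placed r H'', (u ∈ A ∨ u ∈ N) → ∃ i, T' i = u) := by
      intro H'' w T' h
      rcases List.suffix_cons_iff.1 h with h | h
      · right
        have h1 : w = x := congrArg Prod.fst (List.head_eq_of_cons_eq h)
        have h2 : T' = T := congrArg Prod.snd (List.head_eq_of_cons_eq h)
        have h3 : H'' = H := List.tail_eq_of_cons_eq h
        subst h1 h2 h3
        refine ⟨hx, fun u hu huA => ?_⟩
        rcases huA with huA | huN
        · exact hA u huA
        · exact absurd hu (hnew u huN)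
      · exact Or.inl h
    by_cases hem : (N.erase x).Nonempty
    · -- more vertices to come
      have hAc : A.card ≤ 2 := by
        have := Finset.card_pos.2 hem
        omega
      obtain ⟨c, hcA⟩ := exists_slot T x hA hAc
      obtain ⟨H', hs', hsu, hpl, hho, hco⟩ := ih (N.erase x) (insert x A) ((x, T) :: H)
        (Function.update T c x) hcard₀ hs₁
        (Or.inr ⟨x, T, c, List.mem_cons_self, rfl⟩)
        (fun v hv' => by
          rw [mem_placed_cons]
          rintro (h | h)
          · exact (Finset.mem_erase.1 hv').1 h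
          · exact hnew v (Finset.mem_of_mem_erase hv') h)
        (fun a ha => by
          rcases Finset.mem_insert.1 ha with rfl | ha
          · exact ⟨c, by simp⟩
          · exact hcA a ha)
        (by
          have := Finset.card_insert_le x A
          omega)
      refine ⟨H', hs', (List.suffix_cons _ _).trans hsu, fun v => ?_, fun _ => ?_, ?_⟩
      · rw [hpl, mem_placed_cons, Finset.mem_erase]
        by_cases hvx : v = x
        · subst hvx; simp [hx]
        · simp [hvx]
      · obtain ⟨w, T', hm, hw⟩ := hho hem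
        refine ⟨w, T', hm, fun v hv' => hw v ?_⟩
        by_cases hvx : v = x
        · subst hvx; exact Or.inl (Finset.mem_insert_self _ _)
        · rcases hv' with h | h
          · exact Or.inl (Finset.mem_insert_of_mem h)
          · exact Or.inr (Finset.mem_erase.2 ⟨hvx, h⟩)
      · intro H'' w T' h
        rcases hco H'' w T' h with h | ⟨hw, hu⟩
        · exact hsuff H'' w T' h
        · refine Or.inr ⟨Finset.mem_of_mem_erase hw, fun u hup hu' => hu u hup ?_⟩
          by_cases hvx : u = x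
          · subst hvx; exact Or.inl (Finset.mem_insert_self _ _)
          · rcases hu' with h | h
            · exact Or.inl (Finset.mem_insert_of_mem h)
            · exact Or.inr (Finset.mem_erase.2 ⟨hvx, h⟩)
    · -- `x` is the last one
      have hNx : ∀ v, v ∈ N ↔ v = x := by
        intro v
        constructor
        · intro hv'
          by_contra hvx
          exact hem ⟨v, Finset.mem_erase.2 ⟨hvx, hv'⟩⟩
        · rintro rfl; exact hx
      refine ⟨(x, T) :: H, hs₁, List.suffix_cons _ _, fun v => ?_, fun _ => ?_, hsuff⟩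
      · rw [mem_placed_cons, hNx]; tauto
      · refine ⟨x, T, List.mem_cons_self, fun v hv' => ?_⟩
        rcases hv' with h | h
        · exact Or.inr (hA v h)
        · exact Or.inl ((hNx v).1 h)

section Tree

variable {ι : Type}

theorem reach_of_avoid {Tr : SimpleGraph ι} {t t' a b : ι} (p : Tr.Walk a b)
    (h : t ∉ p.support ∨ t' ∉ p.support) : (Tr.deleteEdges {s(t, t')}).Reachable a b := by
  rw [SimpleGraph.reachable_deleteEdges_iff_exists_walk]
  refine ⟨p, fun he => ?_⟩
  rcases h with h | h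
  · exact h (p.fst_mem_support_of_mem_edges he)
  · exact h (p.snd_mem_support_of_mem_edges he)

theorem not_reach {Tr : SimpleGraph ι} (hac : Tr.IsAcyclic) {t t' : ι} (hadj : Tr.Adj t t') :
    ¬ (Tr.deleteEdges {s(t, t')}).Reachable t t' :=
  SimpleGraph.isBridge_iff.1 (SimpleGraph.isAcyclic_iff_forall_adj_isBridge.1 hac hadj)

/-- elements of a connected set avoiding `t` reach `t'` without the edge `t t'`. -/
theorem reach_in {Tr : SimpleGraph ι} {t t' t₀ s : ι} {P : Finset ι}
    (hconn : ∀ s ∈ P, ∃ p : Tr.Walk t₀ s, ∀ z ∈ p.support, z ∈ P) (ht : t ∉ P) (ht' : t' ∈ P)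
    (hs : s ∈ P) : (Tr.deleteEdges {s(t, t')}).Reachable t' s := by
  obtain ⟨p, hp⟩ := hconn s hs
  obtain ⟨q, hq⟩ := hconn t' ht'
  have h1 := reach_of_avoid (t := t) (t' := t') p (Or.inl fun h => ht (hp _ h))
  have h2 := reach_of_avoid (t := t) (t' := t') q (Or.inl fun h => ht (hq _ h))
  exact h2.symm.trans h1

variable {bag : ι → Finset V}

/-- a vertex in the new bag and in a processed bag lies in the parent bag. -/
theorem factA {Tr : SimpleGraph ι} (hac : Tr.IsAcyclic)
    (hX : ∀ v a b, v ∈ bag a → v ∈ bag b → ∃ p : Tr.Walk a b, ∀ z ∈ p.support, v ∈ bag z)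
    {t t' t₀ : ι} (hadj : Tr.Adj t t') {P : Finset ι}
    (hconn : ∀ s ∈ P, ∃ p : Tr.Walk t₀ s, ∀ z ∈ p.support, z ∈ P) (ht : t ∉ P) (ht' : t' ∈ P)
    {x : V} {s : ι} (hxt : x ∈ bag t) (hs : s ∈ P) (hxs : x ∈ bag s) : x ∈ bag t' := by
  by_contra hx
  obtain ⟨p, hp⟩ := hX x t s hxt hxs
  have h1 := reach_of_avoid (t := t) (t' := t') p (Or.inr fun h => hx (hp _ h))
  exact not_reach hac hadj (h1.trans (reach_in hconn ht ht' hs).symm)

/-- a processed vertex sharing a bag with a new vertex of the bag `t` lies in `t`. -/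
theorem factB {Tr : SimpleGraph ι} (hac : Tr.IsAcyclic)
    (hX : ∀ v a b, v ∈ bag a → v ∈ bag b → ∃ p : Tr.Walk a b, ∀ z ∈ p.support, v ∈ bag z)
    {t t' t₀ : ι} (hadj : Tr.Adj t t') {P : Finset ι}
    (hconn : ∀ s ∈ P, ∃ p : Tr.Walk t₀ s, ∀ z ∈ p.support, z ∈ P) (ht : t ∉ P) (ht' : t' ∈ P)
    {u w : V} {q s : ι} (hq : q ∈ P) (huq : u ∈ bag q) (hus : u ∈ bag s) (hws : w ∈ bag s)
    (hwt : w ∈ bag t) (hwP : ∀ z ∈ P, w ∉ bag z) : u ∈ bag t := by
  by_contra hu
  obtain ⟨p₁, hp₁⟩ := hX w s t hws hwt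
  have h1 := reach_of_avoid (t := t) (t' := t') p₁ (Or.inr fun h => hwP t' ht' (hp₁ _ h))
  obtain ⟨p₂, hp₂⟩ := hX u q s huq hus
  have h2 := reach_of_avoid (t := t) (t' := t') p₂ (Or.inl fun h => hu (hp₂ _ h))
  exact not_reach hac hadj (((reach_in hconn ht ht' hq).trans (h2.trans h1)).symm)

/-- the invariant of the construction -/
structure Inv (r : V) (Tr : SimpleGraph ι) (bag : ι → Finset V) (t₀ : ι) (P : Finset ι)
    (H : List (V × (Fin 3 → V))) : Prop where
  root : t₀ ∈ P
  conn : ∀ s ∈ P, ∃ p : Tr.Walk t₀ s, ∀ z ∈ p.support, z ∈ P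
  seq : Seq r H
  placed_iff : ∀ v, v ∈ placed r H ↔ ∃ s ∈ P, v ∈ bag s
  host : ∀ s ∈ P, (∀ v ∈ bag s, v = r) ∨ ∃ w T, (w, T) ∈ H ∧ ∀ v ∈ bag s, v = w ∨ ∃ i, T i = v
  cover : ∀ H' w T, (w, T) :: H' <:+ H → ∀ u ∈ placed r H', (∃ s, u ∈ bag s ∧ w ∈ bag s) →
    ∃ i, T i = u

theorem Inv.step [DecidableEq ι] {r : V} {Tr : SimpleGraph ι} (hac : Tr.IsAcyclic) {t₀ : ι}
    (hX : ∀ v a b, v ∈ bag a → v ∈ bag b → ∃ p : Tr.Walk a b, ∀ z ∈ p.support, v ∈ bag z)
    (hcard : ∀ t, (bag t).card ≤ 4) {P : Finset ι} {H : List (V × (Fin 3 → V))}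
    (hI : Inv r Tr bag t₀ P H) {t t' : ι} (hadj : Tr.Adj t t') (ht : t ∉ P) (ht' : t' ∈ P) :
    ∃ H', Inv r Tr bag t₀ (insert t P) H' := by
  classical
  have hconn' : ∀ s ∈ insert t P, ∃ p : Tr.Walk t₀ s, ∀ z ∈ p.support, z ∈ insert t P := by
    intro s hs
    rcases Finset.mem_insert.1 hs with rfl | hs
    · obtain ⟨p, hp⟩ := hI.conn t' ht'
      refine ⟨p.concat hadj.symm, fun z hz => ?_⟩
      rw [SimpleGraph.Walk.support_concat, List.mem_append, List.mem_singleton] at hz
      rcases hz with hz | rfl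
      · exact Finset.mem_insert_of_mem (hp z hz)
      · exact Finset.mem_insert_self _ _
    · obtain ⟨p, hp⟩ := hI.conn s hs
      exact ⟨p, fun z hz => Finset.mem_insert_of_mem (hp z hz)⟩
  set N := (bag t).filter (fun v => v ∉ placed r H) with hNdef
  set O := (bag t).filter (fun v => v ∈ placed r H) with hOdef
  have hcardON : O.card + N.card ≤ 4 := by
    have h5 : O.card + N.card = (bag t).card := by
      rw [hOdef, hNdef]
      convert Finset.card_filter_add_card_filter_not (s := bag t) (fun v => v ∈ placed r H)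
    have h4 := hcard t
    omega
  have hOsub : ∀ a ∈ O, a ∈ bag t' := by
    intro a ha
    obtain ⟨hat, hap⟩ := Finset.mem_filter.1 ha
    obtain ⟨s, hs, has⟩ := (hI.placed_iff a).1 hap
    exact factA hac hX hadj hI.conn ht ht' hat hs has
  have hsplit : ∀ v ∈ bag t, v ∈ O ∨ v ∈ N := by
    intro v hv
    by_cases h : v ∈ placed r H
    · exact Or.inl (Finset.mem_filter.2 ⟨hv, h⟩)
    · exact Or.inr (Finset.mem_filter.2 ⟨hv, h⟩)
  by_cases hNe : N.Nonempty
  · -- new vertices: find a triple holding `O`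
    have hOc : O.card ≤ 3 := by
      have := Finset.card_pos.2 hNe
      omega
    have hT : ∃ T, ValidTriple r H T ∧ ∀ a ∈ O, ∃ i, T i = a := by
      rcases hI.host t' ht' with hh | ⟨w₀, T₀, hm, hh⟩
      · refine ⟨fun _ => r, Or.inl rfl, fun a ha => ⟨0, (hh a (hOsub a ha)).symm⟩⟩
      · by_cases hw₀ : w₀ ∈ O
        · have hc2 : (O.erase w₀).card ≤ 2 := by
            rw [Finset.card_erase_of_mem hw₀]; omega
          obtain ⟨c, hc⟩ := exists_slot (A := O.erase w₀) T₀ w₀ (fun a ha => by
            rcases hh a (hOsub a (Finset.mem_of_mem_erase ha)) with h | h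
            · exact absurd h (Finset.mem_erase.1 ha).1
            · exact h) hc2
          refine ⟨Function.update T₀ c w₀, Or.inr ⟨w₀, T₀, c, hm, rfl⟩, fun a ha => ?_⟩
          by_cases haw : a = w₀
          · exact ⟨c, by simp [haw]⟩
          · exact hc a (Finset.mem_erase.2 ⟨haw, ha⟩)
        · refine ⟨T₀, hI.seq.valid_of_mem hm, fun a ha => ?_⟩
          rcases hh a (hOsub a ha) with h | h
          · exact absurd (h ▸ ha) hw₀
          · exact h
    obtain ⟨T, hTv, hTO⟩ := hT
    obtain ⟨H', hs', hsu, hpl, hho, hco⟩ := add_new r N.card N O H T rfl hI.seq hTv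
      (fun v hv => (Finset.mem_filter.1 hv).2) hTO hcardON
    refine ⟨H', ⟨Finset.mem_insert_of_mem hI.root, hconn', hs', fun v => ?_, fun s hs => ?_, ?_⟩⟩
    · rw [hpl]
      constructor
      · rintro (h | h)
        · obtain ⟨s, hs, hvs⟩ := (hI.placed_iff v).1 h
          exact ⟨s, Finset.mem_insert_of_mem hs, hvs⟩
        · exact ⟨t, Finset.mem_insert_self _ _, (Finset.mem_filter.1 h).1⟩
      · rintro ⟨s, hs, hvs⟩
        rcases Finset.mem_insert.1 hs with rfl | hs
        · rcases hsplit v hvs with h | h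
          · exact Or.inl (Finset.mem_filter.1 h).2
          · exact Or.inr h
        · exact Or.inl ((hI.placed_iff v).2 ⟨s, hs, hvs⟩)
    · rcases Finset.mem_insert.1 hs with rfl | hs
      · obtain ⟨w, T', hm, hw⟩ := hho hNe
        exact Or.inr ⟨w, T', hm, fun v hv => hw v (hsplit v hv)⟩
      · rcases hI.host s hs with h | ⟨w, T', hm, hw⟩
        · exact Or.inl h
        · exact Or.inr ⟨w, T', hsu.subset hm, hw⟩
    · intro H'' w T' hsuf u hu hub
      rcases hco H'' w T' hsuf with h | ⟨hw, hcov⟩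
      · exact hI.cover H'' w T' h u hu hub
      · refine hcov u hu ?_
        have hu' : u ∈ placed r H' :=
          placed_mono ((List.suffix_cons _ _).trans hsuf) hu
        rcases (hpl u).1 hu' with h | h
        · left
          obtain ⟨q, hq, huq⟩ := (hI.placed_iff u).1 h
          obtain ⟨s, hus, hws⟩ := hub
          have hwN := Finset.mem_filter.1 hw
          refine Finset.mem_filter.2 ⟨?_, h⟩
          exact factB hac hX hadj hI.conn ht ht' hq huq hus hws hwN.1
            (fun z hz hwz => hwN.2 ((hI.placed_iff w).2 ⟨z, hz, hwz⟩))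
        · exact Or.inr h
  · -- nothing new
    have hN0 : ∀ v ∈ bag t, v ∈ O := by
      intro v hv
      rcases hsplit v hv with h | h
      · exact h
      · exact absurd ⟨v, h⟩ hNe
    refine ⟨H, ⟨Finset.mem_insert_of_mem hI.root, hconn', hI.seq, fun v => ?_, fun s hs => ?_,
      hI.cover⟩⟩
    · rw [hI.placed_iff]
      constructor
      · rintro ⟨s, hs, hvs⟩
        exact ⟨s, Finset.mem_insert_of_mem hs, hvs⟩
      · rintro ⟨s, hs, hvs⟩
        rcases Finset.mem_insert.1 hs with rfl | hs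
        · exact (hI.placed_iff v).1 (Finset.mem_filter.1 (hN0 v hvs)).2
        · exact ⟨s, hs, hvs⟩
    · rcases Finset.mem_insert.1 hs with rfl | hs
      · rcases hI.host t' ht' with h | ⟨w, T', hm, hw⟩
        · exact Or.inl fun v hv => h v (hOsub v (hN0 v hv))
        · exact Or.inr ⟨w, T', hm, fun v hv => hw v (hOsub v (hN0 v hv))⟩
      · exact hI.host s hs

theorem Inv.init [DecidableEq ι] {r : V} {Tr : SimpleGraph ι} {t₀ : ι} (hr : r ∈ bag t₀)
    (hcard : (bag t₀).card ≤ 4) : ∃ H, Inv r Tr bag t₀ {t₀} H := by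
  have hc : ({r} : Finset V).card + ((bag t₀).erase r).card ≤ 4 := by
    rw [Finset.card_erase_of_mem hr, Finset.card_singleton]
    have := Finset.card_pos.2 ⟨r, hr⟩
    omega
  obtain ⟨H', hs', hsu, hpl, hho, hco⟩ := add_new r _ ((bag t₀).erase r) {r} [] (fun _ => r) rfl
    Seq.nil (Or.inl rfl)
    (fun v hv => by
      simp only [placed, List.map_nil, List.mem_singleton]
      exact (Finset.mem_erase.1 hv).1)
    (fun a ha => ⟨0, (Finset.mem_singleton.1 ha).symm⟩) hc
  have hplr : ∀ v, v ∈ placed r [] ↔ v = r := by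
    intro v; simp [placed]
  refine ⟨H', ⟨Finset.mem_singleton_self _, fun s hs => ?_, hs', fun v => ?_, fun s hs => ?_, ?_⟩⟩
  · rw [Finset.mem_singleton.1 hs]
    exact ⟨SimpleGraph.Walk.nil, fun z hz => by simpa using hz⟩
  · rw [hpl, hplr]
    constructor
    · rintro (rfl | h)
      · exact ⟨t₀, Finset.mem_singleton_self _, hr⟩
      · exact ⟨t₀, Finset.mem_singleton_self _, Finset.mem_of_mem_erase h⟩
    · rintro ⟨s, hs, hvs⟩
      rw [Finset.mem_singleton.1 hs] at hvs
      by_cases hvr : v = r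
      · exact Or.inl hvr
      · exact Or.inr (Finset.mem_erase.2 ⟨hvr, hvs⟩)
  · rw [Finset.mem_singleton.1 hs]
    by_cases hem : ((bag t₀).erase r).Nonempty
    · obtain ⟨w, T', hm, hw⟩ := hho hem
      refine Or.inr ⟨w, T', hm, fun v hv => hw v ?_⟩
      by_cases hvr : v = r
      · exact Or.inl (Finset.mem_singleton.2 hvr)
      · exact Or.inr (Finset.mem_erase.2 ⟨hvr, hv⟩)
    · refine Or.inl fun v hv => ?_
      by_contra hvr
      exact hem ⟨v, Finset.mem_erase.2 ⟨hvr, hv⟩⟩
  · intro H'' w T' hsuf u hu _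
    rcases hco H'' w T' hsuf with h | ⟨_, hcov⟩
    · simp at h
    · refine hcov u hu ?_
      have hu' : u ∈ placed r H' := placed_mono ((List.suffix_cons _ _).trans hsuf) hu
      rcases (hpl u).1 hu' with h | h
      · exact Or.inl (Finset.mem_singleton.2 ((hplr u).1 h))
      · exact Or.inr h

end Tree

theorem walk_of_induce {ι : Type} {Tr : SimpleGraph ι} {s : Set ι} {x y : s}
    (w : (Tr.induce s).Walk x y) : ∃ p : Tr.Walk x.1 y.1, ∀ z ∈ p.support, z ∈ s := by
  induction w with
  | @nil u => exact ⟨.nil, fun z hz => by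
      have hz' : z = u.1 := by simpa using hz
      exact hz' ▸ u.2⟩
  | cons h q ih =>
    rename_i u v w
    obtain ⟨p, hp⟩ := ih
    have h' : Tr.Adj u.1 v.1 := by simpa using h
    refine ⟨.cons h' p, fun z hz => ?_⟩
    rw [SimpleGraph.Walk.support_cons, List.mem_cons] at hz
    rcases hz with rfl | hz
    · exact u.2
    · exact hp z hz

/-- From treewidth at most 3 to a construction sequence covering the graph. -/
theorem exists_seq [Fintype V] [Nonempty V] (G : SimpleGraph V) (h : TreewidthLE G 3) (r : V) :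
    ∃ H, Seq r H ∧ Covers G r H := by
  classical
  obtain ⟨ι, _, Tr, bag, htree, hconn, hedge, hcard⟩ := h
  have hX : ∀ v a b, v ∈ bag a → v ∈ bag b → ∃ p : Tr.Walk a b, ∀ z ∈ p.support, v ∈ bag z := by
    intro v a b ha hb
    obtain ⟨w⟩ := (hconn v).preconnected ⟨a, ha⟩ ⟨b, hb⟩
    exact walk_of_induce w
  have hmem : ∀ v, ∃ t, v ∈ bag t := by
    intro v
    obtain ⟨⟨t, ht⟩⟩ := (hconn v).nonempty
    exact ⟨t, ht⟩
  obtain ⟨t₀, ht₀⟩ := hmem r
  -- grow the processed set
  have hgrow : ∀ (m : ℕ) (P : Finset ι) (H : List (V × (Fin 3 → V))), (Finset.univ \ P).card = m →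
      Inv r Tr bag t₀ P H → ∃ H', Inv r Tr bag t₀ Finset.univ H' := by
    intro m
    induction m with
    | zero =>
      intro P H hm hI
      have hP : P = Finset.univ := by
        rw [Finset.card_eq_zero, Finset.sdiff_eq_empty_iff_subset] at hm
        exact Finset.univ_subset_iff.1 hm
      exact ⟨H, hP ▸ hI⟩
    | succ m ih =>
      intro P H hm hI
      obtain ⟨z, hz⟩ : (Finset.univ \ P).Nonempty := by
        rw [← Finset.card_pos]; omega
      have hzP : z ∉ P := (Finset.mem_sdiff.1 hz).2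
      obtain ⟨w⟩ := htree.1.preconnected t₀ z
      obtain ⟨d, -, hd1, hd2⟩ := w.exists_boundary_dart (↑P : Set ι) hI.root (by simpa using hzP)
      have hd1' : d.fst ∈ P := by simpa using hd1
      have hd2' : d.snd ∉ P := by simpa using hd2
      obtain ⟨H', hI'⟩ := hI.step htree.2 hX hcard d.adj.symm hd2' hd1'
      refine ih (insert d.snd P) H' ?_ hI'
      have hsub : Finset.univ \ insert d.snd P = (Finset.univ \ P).erase d.snd := by
        ext y; simp only [Finset.mem_sdiff, Finset.mem_univ, true_and, Finset.mem_insert,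
          Finset.mem_erase]; tauto
      rw [hsub, Finset.card_erase_of_mem (Finset.mem_sdiff.2 ⟨Finset.mem_univ _, hd2'⟩)]
      omega
  obtain ⟨H₀, hI₀⟩ := Inv.init (Tr := Tr) ht₀ (hcard t₀)
  obtain ⟨H, hI⟩ := hgrow _ {t₀} H₀ rfl hI₀
  refine ⟨H, hI.seq, fun v => ?_, fun H' w T hsuf u hadj hu => ?_⟩
  · obtain ⟨t, ht⟩ := hmem v
    exact (hI.placed_iff v).2 ⟨t, Finset.mem_univ _, ht⟩
  · obtain ⟨t, h1, h2⟩ := hedge u w hadj
    exact hI.cover H' w T hsuf u hu ⟨t, h1, h2⟩

end Vale.Agent.Lib.P235.UB
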