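import Vale.Agent.Lib.P235.UB.ClosureDefs
import Vale.Agent.Lib.P235.UB.CutCalc
import Vale.Agent.Lib.P235.UB.Order
import Vale.Agent.Lib.P235.UB.DeepStep
import Vale.Agent.Lib.P235.UB.NegType

/-!
Definitions of the assembly of the upper bound.
-/

namespace Vale.Agent.Lib.P235.UB

noncomputable section

variable {V : Type} [DecidableEq V]

/-- one history entry: vertex, triple, fresh mass, coins -/
abbrev HEntry (V : Type) := V × (Fin 3 → V) × ℝ × (Fin 3 → ℝ)

/-- the cut list of a history -/
def buildCut : List (HEntry V) → Cut V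
  | [] => []
  | (w, T, s, q) :: H => stepCut (buildCut H) w T q s

/-- legs of a triple in a cut list -/
def legs (L : Cut V) (T : Fin 3 → V) (i : Fin 3) : ℝ := sDist L (ev (T i)) (hubPt T)

/-- distances of a triple -/
def triDist (d : V → V → ℝ) (T : Fin 3 → V) (i j : Fin 3) : ℝ := d (T i) (T j)

/-- placed vertices of a history -/
def placedH (r : V) (H : List (HEntry V)) : List V := r :: H.map Prod.fst

/-- valid triples of a history -/
def ValidT (r : V) (H : List (HEntry V)) (T : Fin 3 → V) : Prop :=
  T = (fun _ => r) ∨ ∃ e ∈ H, ∃ c, T = Function.update e.2.1 c e.1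

/-- a history with good actions -/
inductive Good (d : V → V → ℝ) (r : V) : List (HEntry V) → Prop
  | nil : Good d r []
  | cons {H w T s q} : Good d r H → ValidT r H T → w ∉ placedH r H →
      ActionOK (legs (buildCut H) T) (fun i => d w (T i)) q s →
      Good d r ((w, T, s, q) :: H)

/-- A pseudometric -/
structure PMetric (d : V → V → ℝ) : Prop where
  self : ∀ x, d x x = 0
  symm : ∀ x y, d x y = d y x
  tri : ∀ x y z, d x z ≤ d x y + d y z


/-- a state of a vertex in the descent: votes `p` on `T` and hub, accumulated fresh mass `F` -/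
structure VState (V : Type) where
  T : Fin 3 → V
  p : Fin 4 → ℝ
  F : ℝ

/-- `V = F + Σ σ_i p_i (1 - p_i)` -/
def VVal (L : Cut V) (st : VState V) : ℝ :=
  st.F + ∑ i : Fin 3, legs L st.T i * (st.p i.castSucc * (1 - st.p i.castSucc))

/-- expectation of the distance between the clouds of two states -/
def pairVal (L : Cut V) (a b : VState V) : ℝ :=
  ∑ X, ∑ Y, a.p X * b.p Y * sDist L (ptOf a.T X) (ptOf b.T Y)


/-- the certificate of a state for the vertex `z`: some point has small potential -/
def Cert (d : V → V → ℝ) (L : Cut V) (z : V) (st : VState V) : Prop :=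
  ∃ y : Fin 4,
    psi 20 ![(1 / 100) * d z (st.T 0), (1 / 100) * d z (st.T 1), (1 / 100) * d z (st.T 2), 0]
        ![legs L st.T 0, legs L st.T 1, legs L st.T 2, 0] st.p y
      ≤ 5000 * VVal L st



end

end Vale.Agent.Lib.P235.UB
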