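import Vale.Agent.Lib.P235.UB.CAN00

namespace Vale.Agent.Lib.P235.UB.Cert

open Vale.Agent.Lib.P235.UB.Cert.Tree

def sdNA00 : ScaleD := { flagged := [12,13,14,15], ratios := [mk [(4,24),(5,-1)], mk [(4,1),(5,-1)], mk [(4,2),(5,-1)], mk [(4,1),(5,-2)], mk [(4,4),(5,-1)], mk [(4,1),(5,-4)], mk [(4,16),(5,-1)], mk [(4,1),(5,-16)], mk [(4,4),(5,-3)], mk [(4,3),(5,-4)], mk [(4,10),(5,-9)], mk [(4,9),(5,-10)], mk [(4,100),(5,-97)], mk [(4,97),(5,-100)], mk [(4,25),(5,-24)], mk [(4,24),(5,-25)], mk [(4,50),(5,-49)], mk [(4,49),(5,-50)]], grid := [(1,2),(1,4),(3,4),(1,8),(7,8),(1,16),(15,16)] }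

/-- wall -/
noncomputable def tA4n00_0 : Tree := node 48 (cons (node 41 (cons (leaf 25 26 0x136179d000136179c40009b0bce2000804e40801fc04e408003e418e0c004f013902003d8831c1803ac418e0c000620c70600fd106383000ea674b3000653889a000d2240df2000900e09b0078802c33801c48a20f0004222883c007a22883c000d08a20f0012845107801c4434f420002106383007e089ccf0003003740600e8052e0900e4) (cons (leaf 2 10 0x60002400090006004f4012d00e34000d00f5400650069) nil))) (cons (node 46 (cons (node 41 (cons (leaf 3 8 0x30000900012000a4002200ff001750032a0069) (cons (leaf 21 29 0x9946780009946720004ca33900066519c800410e3700ff01ab8000f86dbc8003c4a3bc01ce03570007b026bb001986dbc8004c408d0008604d76006d10234003acca33801955453c00328863000690187c000480832003c40295000e2811a00021408d0000b10234001e8811a00054408d000e220468007e00ce9001d0041900010456460040) nil))) (cons (leaf 8 10 0x648000024000c8400101007f02001f02007bc80065630019650069020008) (cons (node 41 (cons (leaf 28 23 0x684b388000005b3c44000065715640010d0967040020010afe007f00215fc001f00215fc007b0d096700065b7822fa00f9067403a00190695636006900074630009002156800f10003a64007100039d0002100039d000ee00039d000f600039d0007a00039d0001a00091fa007400207630054001b5ee00e4001db980008)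 (cons (leaf 24 21 0x7b4a880000074cc4000077a4240010f695040020013ba007f002774001f002774007b00277400f500277400750f69500065d864ae00f907a0ee001907c862006900270f00f100006500710013ba00110027740021002774005e0027740016002649005400270f0008) nil))) (cons (leaf 8 9 0x648002024000c8400301007f02001f02007bc80065630019630069) (cons (leaf 30 24 0x1f88c120001bdf02808002def81401000caf512f2007f015de4d0007c0577934007bac95658001742c98040002543a7be3800666d41572006900b64fd400240466cf100f100537b1c01c4028a8020051028a802001847d5b5b80021209c16f0005843c2ae0007a10f0ab8000a843c2ae000e20fab6b7003f003635580074228bb6c4002043c2ae00040) (cons (leaf 1 4 0xc000c016600930008) (cons (leaf 44 26 0x137f1eb6028000007495e39ae80014360e786124800286c1cf0c248400330ab106ec49007f0060c3b2e52001f0060c3b2e52007b14b710a1622003314b710a16220053c1eaba55480005d06bce3f3cea0025404063ffcd30019740bf7f4d6d0069007ce5dd87c0009003871252cc00f10034217013c0071145d0fc7b700021145d0fc7b7000160a2e87e3db8007a0a2e87e3db8002a0a2e87e3db800e20a2e87e3db800fc008253983160074133015d8ce00064002ca242d1600080a2e87e3db80040) nil))))))))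 nil))

def kWA00 : Nat := 71

set_option maxRecDepth 100000 in
theorem okWA00 : chkStage kWA00 (scaleRun (runProg sbA00 progNA00) (wallP sdNA00 tNA00 1 2)) (wallGoal (runProg sbA00 progNA00) tNA00 0 1 2) [tA4n00_0] = true := by decide +kernel

noncomputable def ndA00 : NeedleCert sbA00 0 1 2 where
  prog := progNA00
  t := tNA00
  K3 := kNA00
  trees3 := treesNA00
  sd := sdNA00
  K4 := kWA00
  tree4 := tA4n00_0
  ok3 := okNA00
  ok4 := okWA00
  okB := by decide +kernel
  okP := by decide +kernel
  okS := by decide +kernel
  okT := by decide +kernel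
  okK3 := by decide +kernel
  okK4 := by decide +kernel

end Vale.Agent.Lib.P235.UB.Cert
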