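import Vale.Agent.Lib.P235.UB.CAW00
import Vale.Agent.Lib.P235.UB.CAW01
import Vale.Agent.Lib.P235.UB.CAW10
import Vale.Agent.Lib.P235.UB.CAW11

namespace Vale.Agent.Lib.P235.UB.Cert

open Vale.Agent.Lib.P235.UB.Cert.Tree

noncomputable def certA : RegimeCert regimeFactsA 0 1 2 where
  prog := progA
  t := tA
  K1 := kA1
  trees1 := treesA1
  sd := sdA
  nnlU := nnlUA
  nnlV := nnlVA
  K2 := kA2
  tree2 := treeA2
  ok1 := okA1
  ok2 := okA2
  okS0 := by decide +kernel
  okP := by decide +kernel
  okS := by decide +kernel
  okT := by decide +kernel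
  okK1 := by decide +kernel
  okK2 := by decide +kernel
  needle := fun lab i => match lab, i with
    | false, false => ndA00
    | false, true => ndA01
    | true, false => ndA10
    | true, true => ndA11

end Vale.Agent.Lib.P235.UB.Cert
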