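import Vale.Agent.Lib.P235.UB.CBW00
import Vale.Agent.Lib.P235.UB.CBW01
import Vale.Agent.Lib.P235.UB.CBW10
import Vale.Agent.Lib.P235.UB.CBW11

namespace Vale.Agent.Lib.P235.UB.Cert

open Vale.Agent.Lib.P235.UB.Cert.Tree

noncomputable def certB : RegimeCert regimeFactsB 1 2 0 where
  prog := progB
  t := tB
  K1 := kB1
  trees1 := treesB1
  sd := sdB
  nnlU := nnlUB
  nnlV := nnlVB
  K2 := kB2
  tree2 := treeB2
  ok1 := okB1
  ok2 := okB2
  okS0 := by decide +kernel
  okP := by decide +kernel
  okS := by decide +kernel
  okT := by decide +kernel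
  okK1 := by decide +kernel
  okK2 := by decide +kernel
  needle := fun lab i => match lab, i with
    | false, false => ndB00
    | false, true => ndB01
    | true, false => ndB10
    | true, true => ndB11

end Vale.Agent.Lib.P235.UB.Cert
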