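import Mathlib

/-!
Reflective certificate checker for piecewise linear real statements: definitions.

A `Form` is a dense list of integer coefficients; `ev z f = Σ f[i] * z i`.
Facts are forms that are `≥ 0`; a clause is a disjunction of conjunctions of literals.
A proof tree splits on clauses; a leaf is a Farkas identity, checked on packed numbers (big `Nat`s).
-/

namespace Vale.Agent.Lib.P235.UB.Cert

/-- dense integer linear form -/
abbrev Form := List Int

/-- value of a form -/
noncomputable def ev (z : ℕ → ℝ) : Form → ℝ
  | [] => 0
  | c :: f => (c : ℝ) * z 0 + ev (fun i => z (i + 1)) f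

def fadd : Form → Form → Form
  | [], g => g
  | f, [] => f
  | a :: f, b :: g => (a + b) :: fadd f g

def fscale (k : Int) (f : Form) : Form := f.map (fun c => k * c)

def fneg (f : Form) : Form := f.map (fun c => -c)

def fsub (f g : Form) : Form := fadd f (fneg g)

/-- `c * z n` -/
def fvar (n : Nat) (c : Int) : Form := List.replicate n 0 ++ [c]

/-- `f` with all variables moved up by `n` -/
def fshift (n : Nat) (f : Form) : Form := List.replicate n 0 ++ f

/-- a literal: the form is `> 0` when `strict`, `≥ 0` otherwise -/
structure Lit where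
  strict : Bool
  form : Form

abbrev Opt := List Lit
abbrev Clause := List Opt

def Lit.holds (z : ℕ → ℝ) (l : Lit) : Prop :=
  if l.strict then 0 < ev z l.form else 0 ≤ ev z l.form

def Opt.holds (z : ℕ → ℝ) (o : Opt) : Prop := ∀ l ∈ o, l.holds z

def Clause.holds (z : ℕ → ℝ) (c : Clause) : Prop := ∃ o ∈ c, Opt.holds z o

/-- facts and clauses of a stage -/
structure St where
  n : Nat
  facts : List Form
  clauses : List Clause

def St.holds (z : ℕ → ℝ) (s : St) : Prop :=
  (∀ f ∈ s.facts, 0 ≤ ev z f) ∧ ∀ c ∈ s.clauses, Clause.holds z c

/-! ### Packed forms and the checker -/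

/-- packing base `2 ^ K` -/
def pkN (K : Nat) : Form → Nat × Nat
  | [] => (0, 0)
  | c :: f =>
    (fun r => (Nat.add c.toNat (Nat.shiftLeft r.1 K), Nat.add (-c).toNat (Nat.shiftLeft r.2 K))) (pkN K f)

abbrev PF := Nat × Nat

/-- every coefficient is below `2 ^ 24` in absolute value -/
def smallF (f : Form) : Bool := f.all (fun c => Nat.blt c.natAbs 16777216)

/-- binary tree of the packed facts; the path of index `i` is given by the low bits of `i` -/
inductive BT where
  | lf (p : PF)
  | nd (l r : BT)

def btGet : Nat → BT → PF
  | _, .lf p => p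
  | i, .nd l r => cond (Nat.beq (Nat.land i 1) 0) (btGet (Nat.shiftRight i 1) l) (btGet (Nat.shiftRight i 1) r)

def getP : Nat → List PF → PF
  | _, [] => (0, 0)
  | 0, p :: _ => p
  | n + 1, _ :: l => getP n l

/-- a proof tree. A `leaf w n payload` has `n` entries of `w + 16` bits each in `payload`, lowest first:
the low 16 bits `i` say which form (`i < 2^14`: fact number `i`; `2^14 ≤ i < 2^15`: pushed hypothesis
number `i - 2^14`; `2^15 ≤ i`: negative form number `i - 2^15`), the upper `w` bits are the multiplier.
`node c kids` splits on clause number `c`, one kid (in a `cons` chain ended by `nil`) for each option. -/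
inductive Tree where
  | leaf (w n payload : Nat)
  | nil
  | cons (kid rest : Tree)
  | node (clause : Nat) (kids : Tree)

/-- Farkas check: `Σ m_i h_i = Σ n_j g_j`, some `n_j` positive, no overflow. Accumulators: `l` and `r` are
the two sides, `sm` and `sn` the sums of the multipliers. -/
def leafLoop (K : Nat) (base : BT) (ctx negs : List PF) (w : Nat) :
    Nat → Nat → Nat → Nat → Nat → Nat → Bool
  | 0, _, l, r, sm, sn =>
    Nat.beq l r && Nat.blt 0 sn && Nat.blt (Nat.add (Nat.add sm sn) 1) (Nat.shiftLeft 1 (Nat.sub K 24))
  | k + 1, p, l, r, sm, sn =>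
    (fun e p' =>
      (fun i m =>
       cond (Nat.blt i 16384)
        ((fun h => leafLoop K base ctx negs w k p' (Nat.add l (Nat.mul m h.1)) (Nat.add r (Nat.mul m h.2)) (Nat.add sm m) sn) (btGet i base))
        (cond (Nat.blt i 32768)
        ((fun h => leafLoop K base ctx negs w k p' (Nat.add l (Nat.mul m h.1)) (Nat.add r (Nat.mul m h.2)) (Nat.add sm m) sn) (getP (Nat.sub i 16384) ctx))
        ((fun h => cond (Nat.blt 0 (Nat.add h.1 h.2)) (leafLoop K base ctx negs w k p' (Nat.add l (Nat.mul m h.2)) (Nat.add r (Nat.mul m h.1)) sm (Nat.add sn m)) false) (getP (Nat.sub i 32768) negs))))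
        (Nat.land e 65535) (Nat.shiftRight e 16))
      (Nat.land p (Nat.sub (Nat.shiftLeft 1 (Nat.add w 16)) 1)) (Nat.shiftRight p (Nat.add w 16))

abbrev PLit := Bool × PF
abbrev POpt := List PLit
abbrev PClause := List POpt

/-- push the literals of an option: each goes to the hypotheses (at the front); a strict one also goes,
negated, to the negative forms -/
def pushOpt (o : POpt) (ctx negs : List PF) : List PF × List PF :=
  o.foldl (fun s l => (l.2 :: s.1, cond l.1 ((l.2.2, l.2.1) :: s.2) s.2)) (ctx, negs)

def getC : Nat → List PClause → PClause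
  | _, [] => [[]]
  | 0, c :: _ => c
  | n + 1, _ :: l => getC n l

mutual
/-- `chk` returns `true` only if the hypotheses, clauses and negative forms are contradictory -/
def chk (K : Nat) (base : BT) (cls : List PClause) : Tree → List PF → List PF → Bool
  | .leaf w n p, ctx, negs => leafLoop K base ctx negs w n p 0 0 0 0
  | .nil, _, _ => false
  | .cons _ _, _, _ => false
  | .node c kids, ctx, negs => chkK K base cls kids (getC c cls) ctx negs
/-- all kids of a node, one for each option of the clause -/
def chkK (K : Nat) (base : BT) (cls : List PClause) : Tree → PClause → List PF → List PF → Bool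
  | .nil, [], _, _ => true
  | .cons k rest, o :: os, ctx, negs =>
     (fun s => chk K base cls k s.1 s.2 && chkK K base cls rest os ctx negs) (pushOpt o ctx negs)
  | _, _, _, _ => false
end

def BT.leaves : BT → List PF
  | .lf p => [p]
  | .nd l r => l.leaves ++ r.leaves

def pkLit (K : Nat) (l : Lit) : PLit := (l.strict, pkN K l.form)
def pkClause (K : Nat) (c : Clause) : PClause := c.map (fun o => o.map (pkLit K))

def eqPF : List PF → List PF → Bool
  | [], [] => true
  | a :: l, b :: m => Nat.beq a.1 b.1 && Nat.beq a.2 b.2 && eqPF l m
  | _, _ => false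

/-- the packed data agree with the dense data -/
def dataOK (K : Nat) (s : St) (base : BT) (cls : List PClause) : Bool :=
  s.facts.all smallF &&
  s.clauses.all (fun c => c.all (fun o => o.all (fun l => smallF l.form))) &&
  eqPF base.leaves (s.facts.map (pkN K)) &&
  (cls == s.clauses.map (pkClause K))

/-- a goal: one of the forms is `≥ 0`; with its packed forms and its proof tree -/
def chkGoal (K : Nat) (base : BT) (cls : List PClause) (g : List Form) (pg : List PF) (t : Tree) : Bool :=
  g.all smallF && eqPF pg (g.map (pkN K)) && chk K base cls t [] pg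

/-- all goals of a stage -/
def chkAll (K : Nat) (s : St) (base : BT) (cls : List PClause) (gts : List (List Form × List PF × Tree)) : Bool :=
  dataOK K s base cls && gts.all (fun gt => chkGoal K base cls gt.1 gt.2.1 gt.2.2)

/-! ### Programs: new variables defined by min, max and guarded max -/

/-- a value is a form with a positive denominator: `ev z f / den` -/
abbrev Val := Nat × Form

/-- `den * t - f` -/
def vUp (n : Nat) (v : Val) : Form := fsub (fvar n (v.1 : Int)) v.2
/-- `f - den * t` -/
def vDn (n : Nat) (v : Val) : Form := fsub v.2 (fvar n (v.1 : Int))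

def nl (f : Form) : Lit := ⟨false, f⟩
def sl (f : Form) : Lit := ⟨true, f⟩

/-- instructions; each defines one new variable, number `n` of the state -/
inductive Instr where
  /-- the largest of the values in `base` and of those guarded values whose guards are all `> 0` -/
  | gmax (base : List Val) (guarded : List (List Form × Val))
  /-- the smallest of the values -/
  | gmin (base : List Val)
  /-- if `0 < c` then `a` else `b` -/
  | ite (c : Form) (a b : Val)
  /-- exactly the value -/
  | eqv (v : Val)

def gmaxInactive (n : Nat) (g : List Form × Val) : Clause :=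
  g.1.map (fun c => [nl (fneg c)]) ++ [[nl (vUp n g.2)]]

def gmaxMain (n : Nat) (base : List Val) (guarded : List (List Form × Val)) : Clause :=
  base.map (fun b => [nl (vDn n b)]) ++ guarded.map (fun g => g.1.map sl ++ [nl (vDn n g.2)])

/-- facts and clauses of a new variable. -/
def Instr.run (s : St) : Instr → St
  | .gmax base guarded =>
    ⟨s.n + 1, s.facts ++ base.map (vUp s.n),
      s.clauses ++ guarded.map (gmaxInactive s.n) ++ [gmaxMain s.n base guarded]⟩
  | .gmin base =>
    ⟨s.n + 1, s.facts ++ base.map (vDn s.n), s.clauses ++ [base.map (fun b => [nl (vUp s.n b)])]⟩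
  | .ite c a b =>
    ⟨s.n + 1, s.facts,
      s.clauses ++ [[[nl (fneg c), nl (vUp s.n b), nl (vDn s.n b)], [sl c, nl (vUp s.n a), nl (vDn s.n a)]]]⟩
  | .eqv v =>
    ⟨s.n + 1, s.facts ++ [vUp s.n v, vDn s.n v], s.clauses⟩

def valOK (n : Nat) (v : Val) : Bool := Nat.blt 0 v.1 && Nat.ble v.2.length n

/-- well formed: all forms only use variables below `n`; denominators positive; a `gmax` or `gmin` has a base value -/
def Instr.ok (n : Nat) : Instr → Bool
  | .gmax base guarded =>
    !base.isEmpty && base.all (valOK n) && guarded.all (fun g => g.1.all (fun c => Nat.ble c.length n) && valOK n g.2)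
  | .gmin base => !base.isEmpty && base.all (valOK n)
  | .ite c a b => Nat.ble c.length n && valOK n a && valOK n b
  | .eqv v => valOK n v

def runProg (s : St) (p : List Instr) : St := p.foldl Instr.run s

def progOK : Nat → List Instr → Bool
  | _, [] => true
  | n, i :: p => i.ok n && progOK (n + 1) p

/-- all forms of a state only use variables below `s.n` -/
def St.ok (s : St) : Bool :=
  s.facts.all (fun f => Nat.ble f.length s.n) &&
  s.clauses.all (fun c => c.all (fun o => o.all (fun l => Nat.ble l.form.length s.n)))

/-! ### Scaling: nine new variables `q * z i`, `i < 9` -/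

/-- the parameters: `q = num / (numDen * sig)` -/
structure ScaleP where
  numDen : Nat
  num : Form
  sig : Form
  /-- numbers of the clauses to extend -/
  flagged : List Nat
  ratios : List Form
  /-- grid values `a / b` -/
  grid : List (Nat × Nat)

def pureF (f : Form) : Bool := Nat.ble f.length 9 && !f.isEmpty

def scaleExt (n : Nat) (c : Clause) : Clause :=
  c.map (fun o => o ++ (o.filter (fun l => pureF l.form)).flatMap
    (fun l => [nl (fshift n l.form), nl (fsub l.form (fshift n l.form))]))

def scaleRatio (n : Nat) (f : Form) : Clause :=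
  [[nl f, nl (fshift n f), nl (fsub f (fshift n f))],
   [nl (fneg f), nl (fneg (fshift n f)), nl (fsub (fshift n f) f)]]

def scaleGrid (n : Nat) (P : ScaleP) (pures : List Form) (k : Nat × Nat) : Clause :=
  [pures.map (fun f => nl (fsub (fscale k.2 (fshift n f)) (fscale k.1 f))) ++
      [nl (fsub (fscale k.2 P.num) (fscale ((k.1 : Int) * P.numDen) P.sig))],
   pures.map (fun f => nl (fsub (fscale k.1 f) (fscale k.2 (fshift n f)))) ++
      [nl (fsub (fscale ((k.1 : Int) * P.numDen) P.sig) (fscale k.2 P.num))]]

def scaleRun (s : St) (P : ScaleP) : St :=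
  let n := s.n
  let pures := s.facts.filter pureF
  ⟨n + 9,
   s.facts ++ pures.flatMap (fun f => [fshift n f, fsub f (fshift n f)]) ++
     [fsub P.num (fscale P.numDen (fshift n P.sig)), fsub (fscale P.numDen (fshift n P.sig)) P.num],
   s.clauses ++ P.flagged.map (fun i => scaleExt n (s.clauses.getD i [])) ++
     P.ratios.map (scaleRatio n) ++ P.grid.map (scaleGrid n P pures)⟩

def scaleOK (s : St) (P : ScaleP) : Bool :=
  Nat.blt 0 P.numDen && Nat.ble 9 s.n && Nat.ble P.sig.length 9 && Nat.ble P.num.length s.n &&
  P.ratios.all (fun f => Nat.ble f.length 9) && P.grid.all (fun k => Nat.blt 0 k.2 && Nat.ble k.1 k.2) &&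
  P.flagged.all (fun i => Nat.blt i s.clauses.length)

end Vale.Agent.Lib.P235.UB.Cert
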