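import Vale.Agent.Lib.P235.UB.CertDefs

/-! Semantics of programs (module T2): new variables exist and satisfy the facts and clauses. -/

namespace Vale.Agent.Lib.P235.UB.Cert

@[simp] theorem ev_nil (z : ℕ → ℝ) : ev z [] = 0 := rfl

@[simp] theorem ev_cons (z : ℕ → ℝ) (c : Int) (f : Form) :
    ev z (c :: f) = (c : ℝ) * z 0 + ev (fun i => z (i + 1)) f := rfl

/-- `ev` only depends on the variables below the length of the form -/
theorem ev_congr (f : Form) (z z' : ℕ → ℝ) (h : ∀ i < f.length, z i = z' i) : ev z f = ev z' f := by
  induction f generalizing z z' with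
  | nil => rfl
  | cons c f ih =>
    simp only [ev_cons]
    rw [h 0 (by simp), ih (fun i => z (i + 1)) (fun i => z' (i + 1))
      (fun i hi => h (i + 1) (by simpa using hi))]

theorem ev_fadd (z : ℕ → ℝ) (f g : Form) : ev z (fadd f g) = ev z f + ev z g := by
  induction f generalizing z g with
  | nil => simp [fadd]
  | cons a f ih =>
    cases g with
    | nil => simp [fadd]
    | cons b g =>
      simp only [fadd, ev_cons, ih]
      push_cast
      ring

theorem ev_fscale (z : ℕ → ℝ) (k : Int) (f : Form) : ev z (fscale k f) = (k : ℝ) * ev z f := by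
  induction f generalizing z with
  | nil => simp [fscale]
  | cons a f ih =>
    have : fscale k (a :: f) = (k * a) :: fscale k f := rfl
    rw [this]
    simp only [ev_cons, ih]
    push_cast
    ring

theorem ev_fneg (z : ℕ → ℝ) (f : Form) : ev z (fneg f) = - ev z f := by
  induction f generalizing z with
  | nil => simp [fneg]
  | cons a f ih =>
    have : fneg (a :: f) = (-a) :: fneg f := rfl
    rw [this]
    simp only [ev_cons, ih]
    push_cast
    ring

theorem ev_fsub (z : ℕ → ℝ) (f g : Form) : ev z (fsub f g) = ev z f - ev z g := by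
  unfold fsub
  rw [ev_fadd, ev_fneg]
  ring

theorem ev_fvar (z : ℕ → ℝ) (n : ℕ) (c : Int) : ev z (fvar n c) = (c : ℝ) * z n := by
  induction n generalizing z with
  | zero => simp [fvar]
  | succ n ih =>
    have : fvar (n + 1) c = 0 :: fvar n c := rfl
    rw [this]
    simp [ih]

theorem ev_fshift (z : ℕ → ℝ) (n : ℕ) (f : Form) :
    ev z (fshift n f) = ev (fun i => z (n + i)) f := by
  induction n generalizing z with
  | zero => simp [fshift]
  | succ n ih =>
    have : fshift (n + 1) f = 0 :: fshift n f := rfl
    rw [this]
    simp only [ev_cons, ih]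
    have : (fun i => z (n + i + 1)) = fun i => z (n + 1 + i) := by
      funext i
      congr 1
      omega
    simp [this]

@[simp] theorem length_fadd (f g : Form) : (fadd f g).length = max f.length g.length := by
  induction f generalizing g with
  | nil => simp [fadd]
  | cons a f ih =>
    cases g with
    | nil => simp [fadd]
    | cons b g =>
      simp only [fadd, List.length_cons, ih]
      omega

@[simp] theorem length_fscale (k : Int) (f : Form) : (fscale k f).length = f.length := by
  simp [fscale]

@[simp] theorem length_fneg (f : Form) : (fneg f).length = f.length := by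
  simp [fneg]

@[simp] theorem length_fsub (f g : Form) : (fsub f g).length = max f.length g.length := by
  simp [fsub]

@[simp] theorem length_fvar (n : ℕ) (c : Int) : (fvar n c).length = n + 1 := by
  simp [fvar]

@[simp] theorem length_fshift (n : ℕ) (f : Form) : (fshift n f).length = n + f.length := by
  simp [fshift]

/-! ### Holds under extension -/

/-- value of a `Val` -/
noncomputable def vval (z : ℕ → ℝ) (v : Val) : ℝ := ev z v.2 / (v.1 : ℝ)

theorem ev_vUp (z : ℕ → ℝ) (n : ℕ) (v : Val) :
    ev z (vUp n v) = (v.1 : ℝ) * z n - ev z v.2 := by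
  unfold vUp
  rw [ev_fsub, ev_fvar]
  simp

theorem ev_vDn (z : ℕ → ℝ) (n : ℕ) (v : Val) :
    ev z (vDn n v) = ev z v.2 - (v.1 : ℝ) * z n := by
  unfold vDn
  rw [ev_fsub, ev_fvar]
  simp

/-- forms below `n` do not see the variables from `n` on -/
theorem lit_holds_congr (l : Lit) (z z' : ℕ → ℝ) (h : ∀ i < l.form.length, z i = z' i)
    (hl : l.holds z) : l.holds z' := by
  unfold Lit.holds at *
  rw [← ev_congr l.form z z' h]
  exact hl

theorem clause_holds_congr (c : Clause) (z z' : ℕ → ℝ)
    (h : ∀ o ∈ c, ∀ l ∈ o, ∀ i < l.form.length, z i = z' i)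
    (hc : Clause.holds z c) : Clause.holds z' c := by
  obtain ⟨o, ho, hoh⟩ := hc
  exact ⟨o, ho, fun l hl => lit_holds_congr l z z' (h o ho l hl) (hoh l hl)⟩

theorem st_ok_iff (s : St) : s.ok = true ↔
    (∀ f ∈ s.facts, f.length ≤ s.n) ∧
      (∀ c ∈ s.clauses, ∀ o ∈ c, ∀ l ∈ o, l.form.length ≤ s.n) := by
  simp [St.ok, List.all_eq_true]

/-- a state holds also for anything agreeing below `n` -/
theorem st_holds_congr (s : St) (hs : s.ok = true) (z z' : ℕ → ℝ)
    (h : ∀ i < s.n, z i = z' i) (hz : St.holds z s) : St.holds z' s := by
  obtain ⟨h1, h2⟩ := (st_ok_iff s).1 hs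
  refine ⟨fun f hf => ?_, fun c hc => ?_⟩
  · rw [← ev_congr f z z' (fun i hi => h i (lt_of_lt_of_le hi (h1 f hf)))]
    exact hz.1 f hf
  · exact clause_holds_congr c z z'
      (fun o ho l hl i hi => h i (lt_of_lt_of_le hi (h2 c hc o ho l hl))) (hz.2 c hc)

/-- the existence of a maximum attained by one of finitely many values -/
theorem exists_max_of_list {α : Type*} (l : List α) (hl : l ≠ []) (g : α → ℝ) :
    ∃ a ∈ l, ∀ b ∈ l, g b ≤ g a := by
  induction l with
  | nil => exact absurd rfl hl
  | cons x l ih =>
    by_cases hl' : l = []
    · subst hl'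
      exact ⟨x, by simp, by simp⟩
    · obtain ⟨a, ha, hmax⟩ := ih hl'
      by_cases hxa : g x ≤ g a
      · refine ⟨a, List.mem_cons_of_mem _ ha, fun b hb => ?_⟩
        rcases List.mem_cons.1 hb with rfl | hb
        · exact hxa
        · exact hmax b hb
      · refine ⟨x, List.mem_cons_self, fun b hb => ?_⟩
        rcases List.mem_cons.1 hb with rfl | hb
        · exact le_refl _
        · exact le_trans (hmax b hb) (le_of_not_ge hxa)

theorem exists_min_of_list {α : Type*} (l : List α) (hl : l ≠ []) (g : α → ℝ) :
    ∃ a ∈ l, ∀ b ∈ l, g a ≤ g b := by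
  obtain ⟨a, ha, h⟩ := exists_max_of_list l hl (fun x => - g x)
  exact ⟨a, ha, fun b hb => by simpa using h b hb⟩

theorem valOK_iff (n : ℕ) (v : Val) : valOK n v = true ↔ 0 < v.1 ∧ v.2.length ≤ n := by
  simp [valOK]

/-- forms below `n` do not see the new variable -/
theorem ev_update (z : ℕ → ℝ) (n : ℕ) (t : ℝ) (f : Form) (hf : f.length ≤ n) :
    ev (Function.update z n t) f = ev z f := by
  refine ev_congr f _ _ (fun i hi => ?_)
  have : i ≠ n := by omega
  simp [Function.update_of_ne this]

theorem vUp_nonneg (z : ℕ → ℝ) (n : ℕ) (t : ℝ) (v : Val) (hv : valOK n v = true)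
    (h : vval z v ≤ t) : 0 ≤ ev (Function.update z n t) (vUp n v) := by
  obtain ⟨h0, hl⟩ := (valOK_iff n v).1 hv
  rw [ev_vUp, ev_update z n t _ hl, Function.update_self]
  have h0' : (0 : ℝ) < (v.1 : ℝ) := by exact_mod_cast h0
  unfold vval at h
  rw [div_le_iff₀ h0'] at h
  linarith

theorem vDn_nonneg (z : ℕ → ℝ) (n : ℕ) (t : ℝ) (v : Val) (hv : valOK n v = true)
    (h : t ≤ vval z v) : 0 ≤ ev (Function.update z n t) (vDn n v) := by
  obtain ⟨h0, hl⟩ := (valOK_iff n v).1 hv
  rw [ev_vDn, ev_update z n t _ hl, Function.update_self]
  have h0' : (0 : ℝ) < (v.1 : ℝ) := by exact_mod_cast h0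
  unfold vval at h
  rw [le_div_iff₀ h0'] at h
  linarith

@[simp] theorem nl_holds (z : ℕ → ℝ) (f : Form) : (nl f).holds z ↔ 0 ≤ ev z f := by
  simp [Lit.holds, nl]

@[simp] theorem sl_holds (z : ℕ → ℝ) (f : Form) : (sl f).holds z ↔ 0 < ev z f := by
  simp [Lit.holds, sl]

@[simp] theorem nl_form (f : Form) : (nl f).form = f := rfl
@[simp] theorem sl_form (f : Form) : (sl f).form = f := rfl

theorem length_vUp_le (n : ℕ) (v : Val) (hv : v.2.length ≤ n) : (vUp n v).length ≤ n + 1 := by
  simp [vUp]
  omega

theorem length_vDn_le (n : ℕ) (v : Val) (hv : v.2.length ≤ n) : (vDn n v).length ≤ n + 1 := by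
  simp [vDn]
  omega

/-- one instruction -/
theorem instr_run_sound (s : St) (i : Instr) (hs : s.ok = true) (hi : i.ok s.n = true)
    (z : ℕ → ℝ) (hz : St.holds z s) :
    ∃ z' : ℕ → ℝ, (∀ j < s.n, z' j = z j) ∧ St.holds z' (i.run s) ∧ (i.run s).ok = true ∧
      (i.run s).n = s.n + 1 := by
  obtain ⟨hsf, hsc⟩ := (st_ok_iff s).1 hs
  have hold : ∀ t : ℝ, St.holds (Function.update z s.n t) s := fun t =>
    st_holds_congr s hs z _ (fun j hj => by
      have : j ≠ s.n := by omega
      simp [Function.update_of_ne this]) hz
  have hag : ∀ t : ℝ, ∀ j < s.n, Function.update z s.n t j = z j := fun t j hj => by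
    have : j ≠ s.n := by omega
    simp [Function.update_of_ne this]
  cases i with
  | gmax base guarded =>
    simp only [Instr.ok, Bool.and_eq_true, Bool.not_eq_true', List.isEmpty_eq_false_iff,
      List.all_eq_true] at hi
    obtain ⟨⟨hne, hb⟩, hg⟩ := hi
    classical
    let active : List Form × Val → Prop := fun g => ∀ c ∈ g.1, 0 < ev z c
    let A : List Val := base ++ (guarded.filter (fun g => decide (active g))).map Prod.snd
    have hA : A ≠ [] := by
      intro h
      simp only [A, List.append_eq_nil_iff] at h
      exact hne h.1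
    obtain ⟨a, ha, hmax⟩ := exists_max_of_list A hA (vval z)
    refine ⟨Function.update z s.n (vval z a), hag _, ⟨?_, ?_⟩, ?_, rfl⟩
    · intro f hf
      simp only [Instr.run, List.mem_append, List.mem_map] at hf
      rcases hf with hf | ⟨b, hbm, rfl⟩
      · exact (hold _).1 f hf
      · exact vUp_nonneg z s.n _ b (hb b hbm) (hmax b (by simp [A, hbm]))
    · intro c hc
      simp only [Instr.run, List.mem_append, List.mem_map, List.mem_singleton] at hc
      rcases hc with (hc | ⟨g, hgm, rfl⟩) | rfl
      · exact (hold _).2 c hc
      · have hgg := hg g hgm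
        by_cases hact : active g
        · refine ⟨[nl (vUp s.n g.2)], by simp [gmaxInactive], ?_⟩
          intro l hl
          simp only [List.mem_singleton] at hl
          subst hl
          rw [nl_holds]
          refine vUp_nonneg z s.n _ g.2 hgg.2 (hmax g.2 ?_)
          simp only [A, List.mem_append, List.mem_map, List.mem_filter]
          exact Or.inr ⟨g, ⟨hgm, by simpa using hact⟩, rfl⟩
        · simp only [active, not_forall, not_lt] at hact
          obtain ⟨c, hc, hc0⟩ := hact
          refine ⟨[nl (fneg c)], ?_, ?_⟩
          · simp only [gmaxInactive, List.mem_append, List.mem_map]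
            exact Or.inl ⟨c, hc, rfl⟩
          · intro l hl
            simp only [List.mem_singleton] at hl
            subst hl
            rw [nl_holds, ev_fneg, ev_update z s.n _ c (by simpa using hgg.1 c hc)]
            linarith
      · simp only [A, List.mem_append, List.mem_map, List.mem_filter] at ha
        rcases ha with hab | ⟨g, ⟨hgm, hact⟩, rfl⟩
        · refine ⟨[nl (vDn s.n a)], ?_, ?_⟩
          · simp only [gmaxMain, List.mem_append, List.mem_map]
            exact Or.inl ⟨a, hab, rfl⟩
          · intro l hl
            simp only [List.mem_singleton] at hl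
            subst hl
            rw [nl_holds]
            exact vDn_nonneg z s.n _ a (hb a hab) (le_refl _)
        · have hgg := hg g hgm
          refine ⟨g.1.map sl ++ [nl (vDn s.n g.2)], ?_, ?_⟩
          · simp only [gmaxMain, List.mem_append, List.mem_map]
            exact Or.inr ⟨g, hgm, rfl⟩
          · intro l hl
            simp only [List.mem_append, List.mem_map, List.mem_singleton] at hl
            rcases hl with ⟨c, hc, rfl⟩ | rfl
            · rw [sl_holds, ev_update z s.n _ c (by simpa using hgg.1 c hc)]
              have hact' : active g := by simpa using hact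
              exact hact' c hc
            · rw [nl_holds]
              exact vDn_nonneg z s.n _ g.2 hgg.2 (le_refl _)
    · rw [st_ok_iff]
      simp only [Instr.run]
      refine ⟨?_, ?_⟩
      · intro f hf
        simp only [List.mem_append, List.mem_map] at hf
        rcases hf with hf | ⟨b, hbm, rfl⟩
        · have := hsf f hf
          omega
        · exact length_vUp_le _ _ ((valOK_iff _ _).1 (hb b hbm)).2
      · intro c hc o ho l hl
        simp only [List.mem_append, List.mem_map, List.mem_singleton] at hc
        rcases hc with (hc | ⟨g, hgm, rfl⟩) | rfl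
        · have := hsc c hc o ho l hl
          omega
        · have hgg := hg g hgm
          simp only [gmaxInactive, List.mem_append, List.mem_map, List.mem_singleton] at ho
          rcases ho with ⟨c, hc, rfl⟩ | rfl
          · simp only [List.mem_singleton] at hl
            subst hl
            have := hgg.1 c hc
            simp at this ⊢
            omega
          · simp only [List.mem_singleton] at hl
            subst hl
            exact length_vUp_le _ _ ((valOK_iff _ _).1 hgg.2).2
        · simp only [gmaxMain, List.mem_append, List.mem_map] at ho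
          rcases ho with ⟨b, hbm, rfl⟩ | ⟨g, hgm, rfl⟩
          · simp only [List.mem_singleton] at hl
            subst hl
            exact length_vDn_le _ _ ((valOK_iff _ _).1 (hb b hbm)).2
          · have hgg := hg g hgm
            simp only [List.mem_append, List.mem_map, List.mem_singleton] at hl
            rcases hl with ⟨c, hc, rfl⟩ | rfl
            · have := hgg.1 c hc
              simp at this ⊢
              omega
            · exact length_vDn_le _ _ ((valOK_iff _ _).1 hgg.2).2
  | gmin base =>
    simp only [Instr.ok, Bool.and_eq_true, Bool.not_eq_true', List.isEmpty_eq_false_iff,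
      List.all_eq_true] at hi
    obtain ⟨hne, hb⟩ := hi
    obtain ⟨a, ha, hmin⟩ := exists_min_of_list base hne (vval z)
    refine ⟨Function.update z s.n (vval z a), hag _, ⟨?_, ?_⟩, ?_, rfl⟩
    · intro f hf
      simp only [Instr.run, List.mem_append, List.mem_map] at hf
      rcases hf with hf | ⟨b, hbm, rfl⟩
      · exact (hold _).1 f hf
      · exact vDn_nonneg z s.n _ b (hb b hbm) (hmin b hbm)
    · intro c hc
      simp only [Instr.run, List.mem_append, List.mem_singleton] at hc
      rcases hc with hc | rfl
      · exact (hold _).2 c hc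
      · refine ⟨[nl (vUp s.n a)], ?_, ?_⟩
        · simp only [List.mem_map]
          exact ⟨a, ha, rfl⟩
        · intro l hl
          simp only [List.mem_singleton] at hl
          subst hl
          rw [nl_holds]
          exact vUp_nonneg z s.n _ a (hb a ha) (le_refl _)
    · rw [st_ok_iff]
      simp only [Instr.run]
      refine ⟨?_, ?_⟩
      · intro f hf
        simp only [List.mem_append, List.mem_map] at hf
        rcases hf with hf | ⟨b, hbm, rfl⟩
        · have := hsf f hf
          omega
        · exact length_vDn_le _ _ ((valOK_iff _ _).1 (hb b hbm)).2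
      · intro c hc o ho l hl
        simp only [List.mem_append, List.mem_singleton] at hc
        rcases hc with hc | rfl
        · have := hsc c hc o ho l hl
          omega
        · simp only [List.mem_map] at ho
          obtain ⟨b, hbm, rfl⟩ := ho
          simp only [List.mem_singleton] at hl
          subst hl
          exact length_vUp_le _ _ ((valOK_iff _ _).1 (hb b hbm)).2
  | ite c a b =>
    simp only [Instr.ok, Bool.and_eq_true] at hi
    obtain ⟨⟨hc, ha⟩, hb⟩ := hi
    have hc' : c.length ≤ s.n := by simpa using hc
    by_cases hpos : 0 < ev z c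
    · refine ⟨Function.update z s.n (vval z a), hag _, ⟨?_, ?_⟩, ?_, rfl⟩
      · intro f hf
        exact (hold _).1 f hf
      · intro d hd
        simp only [Instr.run, List.mem_append, List.mem_singleton] at hd
        rcases hd with hd | rfl
        · exact (hold _).2 d hd
        · refine ⟨[sl c, nl (vUp s.n a), nl (vDn s.n a)], by simp, ?_⟩
          intro l hl
          simp only [List.mem_cons, List.not_mem_nil, or_false] at hl
          rcases hl with rfl | rfl | rfl
          · rw [sl_holds, ev_update z s.n _ c hc']
            exact hpos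
          · rw [nl_holds]
            exact vUp_nonneg z s.n _ a ha (le_refl _)
          · rw [nl_holds]
            exact vDn_nonneg z s.n _ a ha (le_refl _)
      · rw [st_ok_iff]
        simp only [Instr.run]
        refine ⟨fun f hf => ?_, fun d hd o ho l hl => ?_⟩
        · have := hsf f hf
          omega
        · simp only [List.mem_append, List.mem_singleton] at hd
          rcases hd with hd | rfl
          · have := hsc d hd o ho l hl
            omega
          · simp only [List.mem_cons, List.not_mem_nil, or_false] at ho
            rcases ho with rfl | rfl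
            · simp only [List.mem_cons, List.not_mem_nil, or_false] at hl
              rcases hl with rfl | rfl | rfl
              · simp; omega
              · exact length_vUp_le _ _ ((valOK_iff _ _).1 hb).2
              · exact length_vDn_le _ _ ((valOK_iff _ _).1 hb).2
            · simp only [List.mem_cons, List.not_mem_nil, or_false] at hl
              rcases hl with rfl | rfl | rfl
              · simp; omega
              · exact length_vUp_le _ _ ((valOK_iff _ _).1 ha).2
              · exact length_vDn_le _ _ ((valOK_iff _ _).1 ha).2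
    · refine ⟨Function.update z s.n (vval z b), hag _, ⟨?_, ?_⟩, ?_, rfl⟩
      · intro f hf
        exact (hold _).1 f hf
      · intro d hd
        simp only [Instr.run, List.mem_append, List.mem_singleton] at hd
        rcases hd with hd | rfl
        · exact (hold _).2 d hd
        · refine ⟨[nl (fneg c), nl (vUp s.n b), nl (vDn s.n b)], by simp, ?_⟩
          intro l hl
          simp only [List.mem_cons, List.not_mem_nil, or_false] at hl
          rcases hl with rfl | rfl | rfl
          · rw [nl_holds, ev_fneg, ev_update z s.n _ c hc']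
            linarith
          · rw [nl_holds]
            exact vUp_nonneg z s.n _ b hb (le_refl _)
          · rw [nl_holds]
            exact vDn_nonneg z s.n _ b hb (le_refl _)
      · rw [st_ok_iff]
        simp only [Instr.run]
        refine ⟨fun f hf => ?_, fun d hd o ho l hl => ?_⟩
        · have := hsf f hf
          omega
        · simp only [List.mem_append, List.mem_singleton] at hd
          rcases hd with hd | rfl
          · have := hsc d hd o ho l hl
            omega
          · simp only [List.mem_cons, List.not_mem_nil, or_false] at ho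
            rcases ho with rfl | rfl
            · simp only [List.mem_cons, List.not_mem_nil, or_false] at hl
              rcases hl with rfl | rfl | rfl
              · simp; omega
              · exact length_vUp_le _ _ ((valOK_iff _ _).1 hb).2
              · exact length_vDn_le _ _ ((valOK_iff _ _).1 hb).2
            · simp only [List.mem_cons, List.not_mem_nil, or_false] at hl
              rcases hl with rfl | rfl | rfl
              · simp; omega
              · exact length_vUp_le _ _ ((valOK_iff _ _).1 ha).2
              · exact length_vDn_le _ _ ((valOK_iff _ _).1 ha).2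
  | eqv v =>
    have hv : valOK s.n v = true := hi
    refine ⟨Function.update z s.n (vval z v), hag _, ⟨?_, ?_⟩, ?_, rfl⟩
    · intro f hf
      simp only [Instr.run, List.mem_append, List.mem_cons, List.not_mem_nil, or_false] at hf
      rcases hf with hf | rfl | rfl
      · exact (hold _).1 f hf
      · exact vUp_nonneg z s.n _ v hv (le_refl _)
      · exact vDn_nonneg z s.n _ v hv (le_refl _)
    · intro d hd
      exact (hold _).2 d hd
    · rw [st_ok_iff]
      simp only [Instr.run]
      refine ⟨fun f hf => ?_, fun d hd o ho l hl => ?_⟩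
      · simp only [List.mem_append, List.mem_cons, List.not_mem_nil, or_false] at hf
        rcases hf with hf | rfl | rfl
        · have := hsf f hf
          omega
        · exact length_vUp_le _ _ ((valOK_iff _ _).1 hv).2
        · exact length_vDn_le _ _ ((valOK_iff _ _).1 hv).2
      · have := hsc d hd o ho l hl
        omega

theorem runProg_sound (s : St) (p : List Instr) (hs : s.ok = true) (hp : progOK s.n p = true)
    (z : ℕ → ℝ) (hz : St.holds z s) :
    ∃ z' : ℕ → ℝ, (∀ i < s.n, z' i = z i) ∧ St.holds z' (runProg s p) ∧ (runProg s p).ok = true ∧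
      (runProg s p).n = s.n + p.length := by
  induction p generalizing s z with
  | nil => exact ⟨z, fun _ _ => rfl, hz, hs, rfl⟩
  | cons i p ih =>
    simp only [progOK, Bool.and_eq_true] at hp
    obtain ⟨z1, h1, h2, h3, h4⟩ := instr_run_sound s i hs hp.1 z hz
    have hp2 : progOK (i.run s).n p = true := by rw [h4]; exact hp.2
    obtain ⟨z2, h5, h6, h7, h8⟩ := ih (i.run s) h3 hp2 z1 h2
    refine ⟨z2, fun j hj => ?_, h6, h7, ?_⟩
    · rw [h5 j (by omega), h1 j hj]
    · change (runProg (i.run s) p).n = _
      rw [h8, h4]
      simp
      omega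

theorem ev_smul_var (q : ℝ) (z : ℕ → ℝ) (f : Form) : ev (fun i => q * z i) f = q * ev z f := by
  induction f generalizing z with
  | nil => simp
  | cons c f ih =>
    simp only [ev_cons]
    rw [ih (fun i => z (i + 1))]
    ring

theorem pureF_len (f : Form) (h : pureF f = true) : f.length ≤ 9 := by
  simp only [pureF, Bool.and_eq_true] at h
  simpa using h.1

theorem lit_nonneg_of_holds (z : ℕ → ℝ) (l : Lit) (h : l.holds z) : 0 ≤ ev z l.form := by
  unfold Lit.holds at h
  split_ifs at h
  · exact le_of_lt h
  · exact h

/-- scaling: `q = num / (numDen * sig)` (any value in `[0,1]` if `sig = 0`) -/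
theorem scaleRun_sound (s : St) (P : ScaleP) (hs : s.ok = true) (hP : scaleOK s P = true)
    (z : ℕ → ℝ) (hz : St.holds z s)
    (h0 : 0 ≤ ev z P.num) (h1 : ev z P.num ≤ (P.numDen : ℝ) * ev z P.sig)
    (hsig : ev z P.sig = 0 → ev z P.num = 0) :
    ∃ (z' : ℕ → ℝ) (q : ℝ), 0 ≤ q ∧ q ≤ 1 ∧ (∀ i < s.n, z' i = z i) ∧ (∀ i < 9, z' (s.n + i) = q * z i) ∧
      (ev z P.sig ≠ 0 → q = ev z P.num / ((P.numDen : ℝ) * ev z P.sig)) ∧
      (ev z P.sig = 0 → q = 1 / 2) ∧
      St.holds z' (scaleRun s P) ∧ (scaleRun s P).ok = true ∧ (scaleRun s P).n = s.n + 9 := by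
  obtain ⟨hsf, hsc⟩ := (st_ok_iff s).1 hs
  simp only [scaleOK, Bool.and_eq_true, List.all_eq_true] at hP
  obtain ⟨⟨⟨⟨⟨⟨hden, h9⟩, hsl⟩, hnl⟩, hrat⟩, hgrid⟩, hflag⟩ := hP
  have hden' : 0 < P.numDen := by simpa using hden
  have h9' : 9 ≤ s.n := by simpa using h9
  have hsl' : P.sig.length ≤ 9 := by simpa using hsl
  have hnl' : P.num.length ≤ s.n := by simpa using hnl
  have hdR : (0 : ℝ) < (P.numDen : ℝ) := by exact_mod_cast hden'
  have hsig0 : 0 ≤ ev z P.sig := by
    by_contra hneg
    have : (P.numDen : ℝ) * ev z P.sig < 0 := mul_neg_of_pos_of_neg hdR (not_le.1 hneg)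
    linarith
  obtain ⟨q, hq⟩ : ∃ q : ℝ, q = if ev z P.sig = 0 then 1 / 2 else
      ev z P.num / ((P.numDen : ℝ) * ev z P.sig) := ⟨_, rfl⟩
  have hq1 : ev z P.sig = 0 → q = 1 / 2 := fun h => by rw [hq, if_pos h]
  have hq2 : ev z P.sig ≠ 0 → q = ev z P.num / ((P.numDen : ℝ) * ev z P.sig) :=
    fun h => by rw [hq, if_neg h]
  have hq0 : 0 ≤ q := by
    by_cases h : ev z P.sig = 0
    · rw [hq1 h]; norm_num
    · rw [hq2 h]
      exact div_nonneg h0 (mul_nonneg hdR.le hsig0)
  have hqle : q ≤ 1 := by
    by_cases h : ev z P.sig = 0
    · rw [hq1 h]; norm_num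
    · rw [hq2 h]
      have hpos : 0 < (P.numDen : ℝ) * ev z P.sig :=
        mul_pos hdR (lt_of_le_of_ne hsig0 (Ne.symm h))
      rw [div_le_one hpos]
      exact h1
  have hnum : (P.numDen : ℝ) * (q * ev z P.sig) = ev z P.num := by
    by_cases h : ev z P.sig = 0
    · rw [h, hsig h]; ring
    · rw [hq2 h]
      have : (P.numDen : ℝ) ≠ 0 := hdR.ne'
      field_simp
  obtain ⟨z', hz'⟩ : ∃ z' : ℕ → ℝ, z' = fun i => if i < s.n then z i else
      if i < s.n + 9 then q * z (i - s.n) else 0 := ⟨_, rfl⟩
  have hlow : ∀ i < s.n, z' i = z i := fun i hi => by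
    rw [hz']; simp [hi]
  have hhigh : ∀ i < 9, z' (s.n + i) = q * z i := fun i hi => by
    rw [hz']
    have h1 : ¬ s.n + i < s.n := by omega
    have h2 : s.n + i < s.n + 9 := by omega
    simp [h2]
  have hB : ∀ f : Form, f.length ≤ s.n → ev z' f = ev z f := fun f hf =>
    ev_congr f _ _ (fun i hi => hlow i (by omega))
  have hC : ∀ f : Form, f.length ≤ 9 → ev z' (fshift s.n f) = q * ev z f := fun f hf => by
    rw [ev_fshift, ← ev_smul_var]
    exact ev_congr f _ _ (fun i hi => hhigh i (by omega))
  have hold : ∀ l : Lit, l.form.length ≤ s.n → l.holds z → l.holds z' := fun l hl h =>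
    lit_holds_congr l z z' (fun i hi => (hlow i (by omega)).symm) h
  refine ⟨z', q, hq0, hqle, hlow, hhigh, hq2, hq1, ⟨?_, ?_⟩, ?_, rfl⟩
  · intro f hf
    simp only [scaleRun, List.mem_append, List.mem_flatMap, List.mem_filter, List.mem_cons,
      List.not_mem_nil, or_false] at hf
    rcases hf with (hf | ⟨g, ⟨hgf, hgp⟩, rfl | rfl⟩) | rfl | rfl
    · rw [hB f (hsf f hf)]
      exact hz.1 f hf
    · rw [hC g (pureF_len g hgp)]
      exact mul_nonneg hq0 (hz.1 g hgf)
    · rw [ev_fsub, hC g (pureF_len g hgp), hB g (hsf g hgf)]
      have := hz.1 g hgf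
      nlinarith
    · rw [ev_fsub, ev_fscale, ev_fshift, hB _ hnl']
      have := hC P.sig hsl'
      rw [ev_fshift] at this
      rw [this]
      simp only [Int.cast_natCast]
      rw [hnum]
      simp
    · rw [ev_fsub, ev_fscale, ev_fshift, hB _ hnl']
      have := hC P.sig hsl'
      rw [ev_fshift] at this
      rw [this]
      simp only [Int.cast_natCast]
      rw [hnum]
      simp
  · intro c hc
    simp only [scaleRun, List.mem_append, List.mem_map] at hc
    rcases hc with ((hc | ⟨i, hi, rfl⟩) | ⟨f, hf, rfl⟩) | ⟨k, hk, rfl⟩
    · obtain ⟨o, ho, hoh⟩ := hz.2 c hc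
      exact ⟨o, ho, fun l hl => hold l (hsc c hc o ho l hl) (hoh l hl)⟩
    · have hi' : i < s.clauses.length := by simpa using hflag i hi
      have hmem : s.clauses.getD i [] ∈ s.clauses := by
        rw [List.getD_eq_getElem _ _ hi']
        exact List.getElem_mem hi'
      obtain ⟨o, ho, hoh⟩ := hz.2 _ hmem
      refine ⟨o ++ (o.filter (fun l => pureF l.form)).flatMap
          (fun l => [nl (fshift s.n l.form), nl (fsub l.form (fshift s.n l.form))]), ?_, ?_⟩
      · simp only [scaleExt, List.mem_map]
        exact ⟨o, ho, rfl⟩
      · intro l hl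
        simp only [List.mem_append, List.mem_flatMap, List.mem_filter, List.mem_cons,
          List.not_mem_nil, or_false] at hl
        rcases hl with hl | ⟨m, ⟨hm, hmp⟩, rfl | rfl⟩
        · exact hold l (hsc _ hmem o ho l hl) (hoh l hl)
        · rw [nl_holds, hC _ (pureF_len _ hmp)]
          exact mul_nonneg hq0 (lit_nonneg_of_holds z m (hoh m hm))
        · rw [nl_holds, ev_fsub, hC _ (pureF_len _ hmp), hB _ (hsc _ hmem o ho m hm)]
          have := lit_nonneg_of_holds z m (hoh m hm)
          nlinarith
    · have hfl : f.length ≤ 9 := by simpa using hrat f hf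
      have hfn : f.length ≤ s.n := by omega
      by_cases hpos : 0 ≤ ev z f
      · refine ⟨[nl f, nl (fshift s.n f), nl (fsub f (fshift s.n f))], by simp [scaleRatio], ?_⟩
        intro l hl
        simp only [List.mem_cons, List.not_mem_nil, or_false] at hl
        rcases hl with rfl | rfl | rfl
        · rw [nl_holds, hB f hfn]; exact hpos
        · rw [nl_holds, hC f hfl]; exact mul_nonneg hq0 hpos
        · rw [nl_holds, ev_fsub, hC f hfl, hB f hfn]; nlinarith
      · have hneg : ev z f < 0 := not_le.1 hpos
        refine ⟨[nl (fneg f), nl (fneg (fshift s.n f)), nl (fsub (fshift s.n f) f)],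
          by simp [scaleRatio], ?_⟩
        intro l hl
        simp only [List.mem_cons, List.not_mem_nil, or_false] at hl
        rcases hl with rfl | rfl | rfl
        · rw [nl_holds, ev_fneg, hB f hfn]; linarith
        · rw [nl_holds, ev_fneg, hC f hfl]; nlinarith
        · rw [nl_holds, ev_fsub, hC f hfl, hB f hfn]; nlinarith
    · have hk2 := hgrid k hk
      have hsum : ev z' (fsub (fscale (k.2 : Int) P.num) (fscale ((k.1 : Int) * P.numDen) P.sig))
          = (P.numDen : ℝ) * ev z P.sig * ((k.2 : ℝ) * q - (k.1 : ℝ)) := by
        rw [ev_fsub, ev_fscale, ev_fscale, hB _ hnl', hB _ (by omega), ← hnum]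
        simp only [Int.cast_mul, Int.cast_natCast]
        ring
      have hsum' : ev z' (fsub (fscale ((k.1 : Int) * P.numDen) P.sig) (fscale (k.2 : Int) P.num))
          = - ((P.numDen : ℝ) * ev z P.sig * ((k.2 : ℝ) * q - (k.1 : ℝ))) := by
        rw [ev_fsub, ev_fscale, ev_fscale, hB _ hnl', hB _ (by omega), ← hnum]
        simp only [Int.cast_mul, Int.cast_natCast]
        ring
      have hdsig : 0 ≤ (P.numDen : ℝ) * ev z P.sig := mul_nonneg hdR.le hsig0
      by_cases hD : 0 ≤ (k.2 : ℝ) * q - (k.1 : ℝ)
      · refine ⟨(s.facts.filter pureF).map (fun f => nl (fsub (fscale (k.2 : Int) (fshift s.n f))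
            (fscale (k.1 : Int) f))) ++
            [nl (fsub (fscale (k.2 : Int) P.num) (fscale ((k.1 : Int) * P.numDen) P.sig))],
          by simp [scaleGrid], ?_⟩
        intro l hl
        simp only [List.mem_append, List.mem_map, List.mem_filter, List.mem_singleton] at hl
        rcases hl with ⟨f, ⟨hf, hfp⟩, rfl⟩ | rfl
        · rw [nl_holds, ev_fsub, ev_fscale, ev_fscale, hC f (pureF_len f hfp), hB f (hsf f hf)]
          simp only [Int.cast_natCast]
          have := hz.1 f hf
          nlinarith [mul_nonneg hD this]
        · rw [nl_holds, hsum]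
          exact mul_nonneg hdsig hD
      · have hD' : (k.2 : ℝ) * q - (k.1 : ℝ) < 0 := not_le.1 hD
        refine ⟨(s.facts.filter pureF).map (fun f => nl (fsub (fscale (k.1 : Int) f)
            (fscale (k.2 : Int) (fshift s.n f)))) ++
            [nl (fsub (fscale ((k.1 : Int) * P.numDen) P.sig) (fscale (k.2 : Int) P.num))],
          by simp [scaleGrid], ?_⟩
        intro l hl
        simp only [List.mem_append, List.mem_map, List.mem_filter, List.mem_singleton] at hl
        rcases hl with ⟨f, ⟨hf, hfp⟩, rfl⟩ | rfl
        · rw [nl_holds, ev_fsub, ev_fscale, ev_fscale, hC f (pureF_len f hfp), hB f (hsf f hf)]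
          simp only [Int.cast_natCast]
          have := hz.1 f hf
          nlinarith [mul_nonneg (le_of_lt (neg_pos.2 hD')) this]
        · rw [nl_holds, hsum']
          nlinarith [mul_nonneg hdsig (le_of_lt (neg_pos.2 hD'))]
  · rw [st_ok_iff]
    refine ⟨?_, ?_⟩
    · intro f hf
      simp only [scaleRun, List.mem_append, List.mem_flatMap, List.mem_filter, List.mem_cons,
        List.not_mem_nil, or_false] at hf
      rcases hf with (hf | ⟨g, ⟨hgf, hgp⟩, rfl | rfl⟩) | rfl | rfl
      · have := hsf f hf
        simp only [scaleRun]
        omega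
      · have := pureF_len g hgp
        simp only [scaleRun, length_fshift]
        omega
      · have := pureF_len g hgp
        simp only [scaleRun, length_fsub, length_fshift]
        omega
      · simp only [scaleRun, length_fsub, length_fscale, length_fshift]
        omega
      · simp only [scaleRun, length_fsub, length_fscale, length_fshift]
        omega
    · intro c hc o ho l hl
      simp only [scaleRun, List.mem_append, List.mem_map] at hc
      simp only [scaleRun]
      rcases hc with ((hc | ⟨i, hi, rfl⟩) | ⟨f, hf, rfl⟩) | ⟨k, hk, rfl⟩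
      · have := hsc c hc o ho l hl
        omega
      · have hi' : i < s.clauses.length := by simpa using hflag i hi
        have hmem : s.clauses.getD i [] ∈ s.clauses := by
          rw [List.getD_eq_getElem _ _ hi']
          exact List.getElem_mem hi'
        simp only [scaleExt, List.mem_map] at ho
        obtain ⟨o', ho', rfl⟩ := ho
        simp only [List.mem_append, List.mem_flatMap, List.mem_filter, List.mem_cons,
          List.not_mem_nil, or_false] at hl
        rcases hl with hl | ⟨m, ⟨hm, hmp⟩, rfl | rfl⟩
        · have := hsc _ hmem o' ho' l hl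
          omega
        · have := pureF_len _ hmp
          simp only [nl_form, length_fshift]
          omega
        · have := pureF_len _ hmp
          simp only [nl_form, length_fsub, length_fshift]
          omega
      · have hfl : f.length ≤ 9 := by simpa using hrat f hf
        simp only [scaleRatio, List.mem_cons, List.not_mem_nil, or_false] at ho
        rcases ho with rfl | rfl <;>
        · simp only [List.mem_cons, List.not_mem_nil, or_false] at hl
          rcases hl with rfl | rfl | rfl <;>
          · simp only [nl_form, length_fsub, length_fshift, length_fneg]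
            omega
      · simp only [scaleGrid, List.mem_cons, List.not_mem_nil, or_false] at ho
        rcases ho with rfl | rfl
        · simp only [List.mem_append, List.mem_map, List.mem_filter, List.mem_singleton] at hl
          rcases hl with ⟨f, ⟨hf, hfp⟩, rfl⟩ | rfl
          · have := pureF_len f hfp
            simp only [nl_form, length_fsub, length_fscale, length_fshift]
            omega
          · simp only [nl_form, length_fsub, length_fscale]
            omega
        · simp only [List.mem_append, List.mem_map, List.mem_filter, List.mem_singleton] at hl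
          rcases hl with ⟨f, ⟨hf, hfp⟩, rfl⟩ | rfl
          · have := pureF_len f hfp
            simp only [nl_form, length_fsub, length_fscale, length_fshift]
            omega
          · simp only [nl_form, length_fsub, length_fscale]
            omega

end Vale.Agent.Lib.P235.UB.Cert
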