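import Vale.Agent.Lib.P235.UB.CertDefs

/-! Soundness of the certificate checker (module T1). -/

namespace Vale.Agent.Lib.P235.UB.Cert

namespace CertSoundAux

/-- numbers with digits in base `2 ^ K` -/
def pack (K : ℕ) : List ℕ → ℕ
  | [] => 0
  | a :: A => a + pack K A * 2 ^ K

/-- value of a dense list of natural coefficients -/
noncomputable def evN (z : ℕ → ℝ) : List ℕ → ℝ
  | [] => 0
  | a :: A => (a : ℝ) * z 0 + evN (fun i => z (i + 1)) A

/-- digitwise sum -/
def ladd : List ℕ → List ℕ → List ℕ
  | [], B => B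
  | a :: A, [] => a :: A
  | a :: A, b :: B => (a + b) :: ladd A B

/-- digitwise multiple -/
def lscale (m : ℕ) (A : List ℕ) : List ℕ := A.map (fun a => m * a)

/-- positive parts -/
def posD (f : Form) : List ℕ := f.map Int.toNat

/-- negative parts -/
def negD (f : Form) : List ℕ := f.map (fun c => (-c).toNat)

theorem pack_ladd (K : ℕ) (A B : List ℕ) : pack K (ladd A B) = pack K A + pack K B := by
  induction A generalizing B with
  | nil => simp [ladd, pack]
  | cons a A ih =>
    cases B with
    | nil => simp [ladd, pack]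
    | cons b B =>
      simp only [ladd, pack, ih]
      ring

theorem pack_lscale (K m : ℕ) (A : List ℕ) : pack K (lscale m A) = m * pack K A := by
  induction A with
  | nil => simp [lscale, pack]
  | cons a A ih =>
    have : pack K (lscale m A) = m * pack K A := ih
    simp only [lscale, List.map_cons, pack] at this ⊢
    rw [this]
    ring

theorem evN_ladd (A B : List ℕ) (z : ℕ → ℝ) : evN z (ladd A B) = evN z A + evN z B := by
  induction A generalizing B z with
  | nil => simp [ladd, evN]
  | cons a A ih =>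
    cases B with
    | nil => simp [ladd, evN]
    | cons b B =>
      simp only [ladd, evN, ih]
      push_cast
      ring

theorem evN_lscale (m : ℕ) (A : List ℕ) (z : ℕ → ℝ) : evN z (lscale m A) = (m : ℝ) * evN z A := by
  induction A generalizing z with
  | nil => simp [lscale, evN]
  | cons a A ih =>
    have := ih (fun i => z (i + 1))
    simp only [lscale, List.map_cons, evN] at this ⊢
    rw [this]
    push_cast
    ring

theorem pkN_eq (K : ℕ) (f : Form) : pkN K f = (pack K (posD f), pack K (negD f)) := by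
  induction f with
  | nil => rfl
  | cons c f ih =>
    have hs : ∀ a : ℕ, Nat.shiftLeft a K = a * 2 ^ K := fun a => Nat.shiftLeft_eq a K
    simp only [pkN, ih, posD, negD, List.map_cons, pack, hs, Nat.add_eq]

theorem ev_eq (z : ℕ → ℝ) (f : Form) : ev z f = evN z (posD f) - evN z (negD f) := by
  induction f generalizing z with
  | nil => simp [ev, evN, posD, negD]
  | cons c f ih =>
    have h := ih (fun i => z (i + 1))
    simp only [posD, negD] at h
    simp only [ev, evN, posD, negD, List.map_cons, h]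
    have hc : (c : ℝ) = ((c.toNat : ℕ) : ℝ) - (((-c).toNat : ℕ) : ℝ) := by
      have : c = ((c.toNat : ℕ) : ℤ) - (((-c).toNat : ℕ) : ℤ) := by omega
      exact_mod_cast this
    rw [hc]
    ring

theorem ladd_bound {A B : List ℕ} {a b : ℕ} (hA : ∀ d ∈ A, d ≤ a) (hB : ∀ d ∈ B, d ≤ b) :
    ∀ d ∈ ladd A B, d ≤ a + b := by
  induction A generalizing B with
  | nil =>
    intro d hd
    simp only [ladd] at hd
    exact (hB d hd).trans (Nat.le_add_left _ _)
  | cons x A ih =>
    cases B with
    | nil =>
      intro d hd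
      simp only [ladd] at hd
      exact (hA d hd).trans (Nat.le_add_right _ _)
    | cons y B =>
      intro d hd
      simp only [ladd, List.mem_cons] at hd
      rcases hd with rfl | hd
      · exact Nat.add_le_add (hA _ (by simp)) (hB _ (by simp))
      · exact ih (fun e he => hA e (by simp [he])) (fun e he => hB e (by simp [he])) d hd

theorem lscale_bound {A : List ℕ} {a : ℕ} (m : ℕ) (hA : ∀ d ∈ A, d ≤ a) :
    ∀ d ∈ lscale m A, d ≤ m * a := by
  intro d hd
  simp only [lscale, List.mem_map] at hd
  obtain ⟨e, he, rfl⟩ := hd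
  exact Nat.mul_le_mul_left _ (hA e he)

theorem pack_zero {K : ℕ} {B : List ℕ} (h : pack K B = 0) (z : ℕ → ℝ) : evN z B = 0 := by
  induction B generalizing z with
  | nil => rfl
  | cons b B ih =>
    simp only [pack] at h
    have h2 : 0 < 2 ^ K := by positivity
    have hb : b = 0 := by omega
    have hB : pack K B = 0 := by
      have : pack K B * 2 ^ K = 0 := by omega
      rcases Nat.mul_eq_zero.mp this with h3 | h3
      · exact h3
      · omega
    simp [evN, hb, ih hB]

theorem pack_unique {K : ℕ} {A B : List ℕ} (hA : ∀ d ∈ A, d < 2 ^ K) (hB : ∀ d ∈ B, d < 2 ^ K)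
    (h : pack K A = pack K B) (z : ℕ → ℝ) : evN z A = evN z B := by
  induction A generalizing B z with
  | nil =>
    simp only [pack] at h
    rw [pack_zero h.symm z]
    rfl
  | cons a A ih =>
    cases B with
    | nil =>
      have h' : pack K (a :: A) = 0 := h
      rw [pack_zero h' z]
      rfl
    | cons b B =>
      simp only [pack] at h
      have ha : a < 2 ^ K := hA a (by simp)
      have hb : b < 2 ^ K := hB b (by simp)
      have hab : a = b := by
        have h1 : (a + pack K A * 2 ^ K) % 2 ^ K = a := by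
          rw [Nat.add_mul_mod_self_right, Nat.mod_eq_of_lt ha]
        have h2 : (b + pack K B * 2 ^ K) % 2 ^ K = b := by
          rw [Nat.add_mul_mod_self_right, Nat.mod_eq_of_lt hb]
        rw [← h1, ← h2, h]
      subst hab
      have hp : pack K A = pack K B := by
        have h3 : pack K A * 2 ^ K = pack K B * 2 ^ K := by omega
        exact Nat.eq_of_mul_eq_mul_right (by positivity) h3
      simp only [evN]
      rw [ih (fun e he => hA e (by simp [he])) (fun e he => hB e (by simp [he])) hp]

/-- a form with small coefficients whose packing is `p`, and that is nonnegative at `z` -/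
def GoodH (K : ℕ) (z : ℕ → ℝ) (p : PF) : Prop :=
  ∃ f : Form, smallF f = true ∧ pkN K f = p ∧ 0 ≤ ev z f

/-- a form with small coefficients whose packing is `p`, and that is negative at `z` -/
def GoodN (K : ℕ) (z : ℕ → ℝ) (p : PF) : Prop :=
  ∃ f : Form, smallF f = true ∧ pkN K f = p ∧ ev z f < 0

theorem smallF_bound {f : Form} (h : smallF f = true) :
    (∀ d ∈ posD f, d ≤ 2 ^ 24) ∧ (∀ d ∈ negD f, d ≤ 2 ^ 24) := by
  simp only [smallF, List.all_eq_true] at h
  constructor
  · intro d hd
    simp only [posD, List.mem_map] at hd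
    obtain ⟨c, hc, rfl⟩ := hd
    have := h c hc
    have h2 : c.natAbs < 16777216 := by
      simpa [Nat.blt_eq] using this
    norm_num
    omega
  · intro d hd
    simp only [negD, List.mem_map] at hd
    obtain ⟨c, hc, rfl⟩ := hd
    have := h c hc
    have h2 : c.natAbs < 16777216 := by
      simpa [Nat.blt_eq] using this
    norm_num
    omega

/-- the state of the leaf loop -/
def LInv (K : ℕ) (z : ℕ → ℝ) (l r sm sn : ℕ) : Prop :=
  ∃ A B : List ℕ, pack K A = l ∧ pack K B = r ∧ (∀ d ∈ A, d ≤ (sm + sn) * 2 ^ 24) ∧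
    (∀ d ∈ B, d ≤ (sm + sn) * 2 ^ 24) ∧ 0 ≤ evN z A - evN z B ∧ (0 < sn → 0 < evN z A - evN z B)

theorem LInv.stepH {K : ℕ} {z : ℕ → ℝ} {l r sm sn : ℕ} (h : LInv K z l r sm sn) {p : PF}
    (hp : GoodH K z p) (m : ℕ) :
    LInv K z (l + m * p.1) (r + m * p.2) (sm + m) sn := by
  obtain ⟨A, B, rfl, rfl, hA, hB, h0, h1⟩ := h
  obtain ⟨f, hf, rfl, hev⟩ := hp
  obtain ⟨hb1, hb2⟩ := smallF_bound hf
  have hm : (0 : ℝ) ≤ (m : ℝ) * ev z f := mul_nonneg (Nat.cast_nonneg _) hev
  have hd : evN z (ladd A (lscale m (posD f))) - evN z (ladd B (lscale m (negD f))) =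
      (evN z A - evN z B) + (m : ℝ) * ev z f := by
    rw [evN_ladd, evN_ladd, evN_lscale, evN_lscale, ev_eq]
    ring
  refine ⟨ladd A (lscale m (posD f)), ladd B (lscale m (negD f)), ?_, ?_, ?_, ?_, ?_, ?_⟩
  · rw [pack_ladd, pack_lscale, pkN_eq]
  · rw [pack_ladd, pack_lscale, pkN_eq]
  · intro d hd
    have := ladd_bound hA (lscale_bound m hb1) d hd
    calc d ≤ _ := this
      _ = (sm + m + sn) * 2 ^ 24 := by ring
  · intro d hd
    have := ladd_bound hB (lscale_bound m hb2) d hd
    calc d ≤ _ := this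
      _ = (sm + m + sn) * 2 ^ 24 := by ring
  · rw [hd]; linarith
  · intro hs
    rw [hd]
    have := h1 hs
    linarith

theorem LInv.stepN {K : ℕ} {z : ℕ → ℝ} {l r sm sn : ℕ} (h : LInv K z l r sm sn) {p : PF}
    (hp : GoodN K z p) (m : ℕ) :
    LInv K z (l + m * p.2) (r + m * p.1) sm (sn + m) := by
  obtain ⟨A, B, rfl, rfl, hA, hB, h0, h1⟩ := h
  obtain ⟨f, hf, rfl, hev⟩ := hp
  obtain ⟨hb1, hb2⟩ := smallF_bound hf
  have hd : evN z (ladd A (lscale m (negD f))) - evN z (ladd B (lscale m (posD f))) =
      (evN z A - evN z B) + (m : ℝ) * (- ev z f) := by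
    rw [evN_ladd, evN_ladd, evN_lscale, evN_lscale, ev_eq]
    ring
  have hev' : 0 < - ev z f := by linarith
  refine ⟨ladd A (lscale m (negD f)), ladd B (lscale m (posD f)), ?_, ?_, ?_, ?_, ?_, ?_⟩
  · rw [pack_ladd, pack_lscale, pkN_eq]
  · rw [pack_ladd, pack_lscale, pkN_eq]
  · intro d hd
    have := ladd_bound hA (lscale_bound m hb2) d hd
    calc d ≤ _ := this
      _ = (sm + (sn + m)) * 2 ^ 24 := by ring
  · intro d hd
    have := ladd_bound hB (lscale_bound m hb1) d hd
    calc d ≤ _ := this
      _ = (sm + (sn + m)) * 2 ^ 24 := by ring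
  · rw [hd]
    have : (0 : ℝ) ≤ (m : ℝ) * (- ev z f) := mul_nonneg (Nat.cast_nonneg _) hev'.le
    linarith
  · intro hs
    rw [hd]
    rcases Nat.eq_zero_or_pos m with rfl | hmpos
    · simp only [add_zero] at hs
      have := h1 hs
      simpa using this
    · have : (0 : ℝ) < (m : ℝ) * (- ev z f) := mul_pos (by exact_mod_cast hmpos) hev'
      linarith

theorem LInv.final {K : ℕ} (hK : 24 ≤ K) {z : ℕ → ℝ} {l r sm sn : ℕ} (h : LInv K z l r sm sn)
    (hlr : l = r) (hsn : 0 < sn) (hsum : sm + sn + 1 < 2 ^ (K - 24)) : False := by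
  obtain ⟨A, B, rfl, rfl, hA, hB, _, h1⟩ := h
  have hpow : 2 ^ (K - 24) * 2 ^ 24 = 2 ^ K := by
    rw [← pow_add]
    congr 1
    omega
  have hlt : (sm + sn) * 2 ^ 24 < 2 ^ K := by
    rw [← hpow]
    exact Nat.mul_lt_mul_of_pos_right (by omega) (by positivity)
  have he := pack_unique (fun d hd => (hA d hd).trans_lt hlt) (fun d hd => (hB d hd).trans_lt hlt) hlr z
  have := h1 hsn
  linarith

theorem getP_goodH {K : ℕ} {z : ℕ → ℝ} {ctx : List PF} (h : ∀ p ∈ ctx, GoodH K z p) (n : ℕ) :
    GoodH K z (getP n ctx) := by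
  induction ctx generalizing n with
  | nil => exact ⟨[], rfl, by cases n <;> rfl, by simp [ev]⟩
  | cons p ctx ih =>
    cases n with
    | zero => exact h p (by simp)
    | succ n => exact ih (fun q hq => h q (by simp [hq])) n

theorem getP_goodN {K : ℕ} {z : ℕ → ℝ} {negs : List PF} (h : ∀ p ∈ negs, GoodN K z p) (n : ℕ)
    (hpos : 0 < (getP n negs).1 + (getP n negs).2) : GoodN K z (getP n negs) := by
  induction negs generalizing n with
  | nil => simp [getP] at hpos
  | cons p negs ih =>
    cases n with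
    | zero => exact h p (by simp)
    | succ n => exact ih (fun q hq => h q (by simp [hq])) n hpos

theorem btGet_mem (i : ℕ) (b : BT) : btGet i b ∈ b.leaves := by
  induction b generalizing i with
  | lf p => simp [btGet, BT.leaves]
  | nd l r ihl ihr =>
    simp only [btGet, BT.leaves, List.mem_append]
    cases Nat.beq (Nat.land i 1) 0
    · exact Or.inr (ihr _)
    · exact Or.inl (ihl _)

theorem leafLoop_zero {K : ℕ} (hK : 24 ≤ K) {z : ℕ → ℝ} {base : BT} {ctx negs : List PF} (w : ℕ)
    (p l r sm sn : ℕ) (hI : LInv K z l r sm sn)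
    (h : leafLoop K base ctx negs w 0 p l r sm sn = true) : False := by
  simp only [leafLoop, Bool.and_eq_true] at h
  obtain ⟨⟨h1, h2⟩, h3⟩ := h
  have h1' : l = r := Nat.eq_of_beq_eq_true h1
  have h2' : 0 < sn := by simpa [Nat.blt_eq] using h2
  have h3' : sm + sn + 1 < 2 ^ (K - 24) := by
    have : Nat.add (Nat.add sm sn) 1 < Nat.shiftLeft 1 (Nat.sub K 24) := by
      simpa [Nat.blt_eq] using h3
    simpa [Nat.shiftLeft_eq] using this
  exact hI.final hK h1' h2' h3'

theorem cond3 {b1 b2 : Bool} {X1 X2 X3 : Bool} (h : cond b1 X1 (cond b2 X2 X3) = true) :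
    X1 = true ∨ X2 = true ∨ X3 = true := by
  cases b1 <;> cases b2 <;> simp_all

theorem branch_base {K : ℕ} {z : ℕ → ℝ} {base : BT} {ctx negs : List PF} {w k : ℕ}
    (hb : ∀ i, GoodH K z (btGet i base))
    (ih : ∀ p l r sm sn, LInv K z l r sm sn → leafLoop K base ctx negs w k p l r sm sn = true → False)
    {l r sm sn : ℕ} (hI : LInv K z l r sm sn) (i m p' : ℕ)
    (h : leafLoop K base ctx negs w k p' (Nat.add l (Nat.mul m (btGet i base).1))
      (Nat.add r (Nat.mul m (btGet i base).2)) (Nat.add sm m) sn = true) : False :=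
  ih p' _ _ _ _ (hI.stepH (hb i) m) h

theorem branch_ctx {K : ℕ} {z : ℕ → ℝ} {base : BT} {ctx negs : List PF} {w k : ℕ}
    (hc : ∀ p ∈ ctx, GoodH K z p)
    (ih : ∀ p l r sm sn, LInv K z l r sm sn → leafLoop K base ctx negs w k p l r sm sn = true → False)
    {l r sm sn : ℕ} (hI : LInv K z l r sm sn) (j m p' : ℕ)
    (h : leafLoop K base ctx negs w k p' (Nat.add l (Nat.mul m (getP j ctx).1))
      (Nat.add r (Nat.mul m (getP j ctx).2)) (Nat.add sm m) sn = true) : False :=
  ih p' _ _ _ _ (hI.stepH (getP_goodH hc j) m) h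

theorem branch_neg {K : ℕ} {z : ℕ → ℝ} {base : BT} {ctx negs : List PF} {w k : ℕ}
    (hn : ∀ p ∈ negs, GoodN K z p)
    (ih : ∀ p l r sm sn, LInv K z l r sm sn → leafLoop K base ctx negs w k p l r sm sn = true → False)
    {l r sm sn : ℕ} (hI : LInv K z l r sm sn) (j m p' : ℕ)
    (h : cond (Nat.blt 0 (Nat.add (getP j negs).1 (getP j negs).2))
      (leafLoop K base ctx negs w k p' (Nat.add l (Nat.mul m (getP j negs).2))
        (Nat.add r (Nat.mul m (getP j negs).1)) sm (Nat.add sn m)) false = true) : False := by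
  cases h3 : Nat.blt 0 (Nat.add (getP j negs).1 (getP j negs).2)
  · rw [h3] at h
    simp at h
  · rw [h3] at h
    simp only [cond_true] at h
    have hpos : 0 < (getP j negs).1 + (getP j negs).2 := by
      simpa [Nat.blt_eq] using h3
    exact ih p' _ _ _ _ (hI.stepN (getP_goodN hn _ hpos) m) h

theorem leafLoop_succ {K : ℕ} {z : ℕ → ℝ} {base : BT} {ctx negs : List PF} (w k : ℕ)
    (hb : ∀ i, GoodH K z (btGet i base)) (hc : ∀ p ∈ ctx, GoodH K z p) (hn : ∀ p ∈ negs, GoodN K z p)
    (ih : ∀ p l r sm sn, LInv K z l r sm sn → leafLoop K base ctx negs w k p l r sm sn = true → False)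
    (p l r sm sn : ℕ) (hI : LInv K z l r sm sn)
    (h : leafLoop K base ctx negs w (k + 1) p l r sm sn = true) : False := by
  rw [leafLoop] at h
  dsimp only at h
  generalize Nat.land (Nat.land p (Nat.sub (Nat.shiftLeft 1 (Nat.add w 16)) 1)) 65535 = i at h
  generalize Nat.shiftRight (Nat.land p (Nat.sub (Nat.shiftLeft 1 (Nat.add w 16)) 1)) 16 = m at h
  generalize Nat.shiftRight p (Nat.add w 16) = p' at h
  rcases cond3 h with h | h | h
  · exact branch_base hb ih hI i m p' h
  · exact branch_ctx hc ih hI _ m p' h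
  · exact branch_neg hn ih hI _ m p' h

theorem leafLoop_sound {K : ℕ} (hK : 24 ≤ K) {z : ℕ → ℝ} {base : BT} {ctx negs : List PF} (w : ℕ)
    (hb : ∀ i, GoodH K z (btGet i base)) (hc : ∀ p ∈ ctx, GoodH K z p) (hn : ∀ p ∈ negs, GoodN K z p)
    (k p l r sm sn : ℕ) (hI : LInv K z l r sm sn)
    (h : leafLoop K base ctx negs w k p l r sm sn = true) : False := by
  induction k generalizing p l r sm sn with
  | zero => exact leafLoop_zero hK w p l r sm sn hI h
  | succ k ih => exact leafLoop_succ w k hb hc hn (fun p l r sm sn h1 h2 => ih p l r sm sn h1 h2) p l r sm sn hI h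

end CertSoundAux

open CertSoundAux

/-- the packed literal `l` comes from a small form with the right sign at `z` -/
def CertSoundAux.GoodL (K : ℕ) (z : ℕ → ℝ) (l : PLit) : Prop :=
  ∃ f : Form, smallF f = true ∧ pkN K f = l.2 ∧ (if l.1 = true then 0 < ev z f else 0 ≤ ev z f)

/-- an option all of whose literals hold -/
def CertSoundAux.GoodO (K : ℕ) (z : ℕ → ℝ) (o : POpt) : Prop := ∀ l ∈ o, CertSoundAux.GoodL K z l

/-- a clause with an option that holds -/
def CertSoundAux.GoodC (K : ℕ) (z : ℕ → ℝ) (c : PClause) : Prop := ∃ o ∈ c, CertSoundAux.GoodO K z o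

theorem CertSoundAux.getC_good {K : ℕ} {z : ℕ → ℝ} {cls : List PClause}
    (h : ∀ c ∈ cls, GoodC K z c) (n : ℕ) : GoodC K z (getC n cls) := by
  induction cls generalizing n with
  | nil =>
    have : getC n [] = [[]] := by cases n <;> rfl
    rw [this]
    exact ⟨[], by simp, by intro l hl; simp at hl⟩
  | cons c cls ih =>
    cases n with
    | zero => exact h c (by simp)
    | succ n => exact ih (fun q hq => h q (by simp [hq])) n

theorem CertSoundAux.pkN_fneg (K : ℕ) (f : Form) : pkN K (fneg f) = ((pkN K f).2, (pkN K f).1) := by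
  induction f with
  | nil => rfl
  | cons c f ih =>
    simp only [fneg, List.map_cons] at ih ⊢
    simp only [pkN, ih, neg_neg]

theorem CertSoundAux.smallF_fneg {f : Form} (h : smallF f = true) : smallF (fneg f) = true := by
  simp only [smallF, fneg, List.all_map, List.all_eq_true, Function.comp] at h ⊢
  intro c hc
  have := h c hc
  simpa using this

theorem CertSoundAux.ev_fneg (z : ℕ → ℝ) (f : Form) : ev z (fneg f) = - ev z f := by
  rw [ev_eq, ev_eq]
  have h1 : posD (fneg f) = negD f := by simp [posD, negD, fneg]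
  have h2 : negD (fneg f) = posD f := by simp [posD, negD, fneg, Function.comp_def]
  rw [h1, h2]
  ring

theorem CertSoundAux.pushOpt_good {K : ℕ} {z : ℕ → ℝ} (o : POpt) (ho : GoodO K z o) (ctx negs : List PF)
    (hc : ∀ p ∈ ctx, GoodH K z p) (hn : ∀ p ∈ negs, GoodN K z p) :
    (∀ p ∈ (pushOpt o ctx negs).1, GoodH K z p) ∧ (∀ p ∈ (pushOpt o ctx negs).2, GoodN K z p) := by
  induction o generalizing ctx negs with
  | nil => exact ⟨hc, hn⟩
  | cons l o ih =>
    have hl := ho l (by simp)
    have ho' : GoodO K z o := fun x hx => ho x (by simp [hx])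
    have := ih ho' (l.2 :: ctx) (cond l.1 ((l.2.2, l.2.1) :: negs) negs) ?_ ?_
    · exact this
    · intro p hp
      simp only [List.mem_cons] at hp
      rcases hp with rfl | hp
      · obtain ⟨f, hf, hpk, hs⟩ := hl
        refine ⟨f, hf, hpk, ?_⟩
        by_cases hb : l.1 = true
        · rw [if_pos hb] at hs
          exact hs.le
        · rw [if_neg hb] at hs
          exact hs
      · exact hc p hp
    · intro p hp
      obtain ⟨s, q⟩ := l
      cases s with
      | false => exact hn p hp
      | true =>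
        simp only [cond_true, List.mem_cons] at hp
        rcases hp with rfl | hp
        · obtain ⟨f, hf, hpk, hs⟩ := hl
          simp only [if_true] at hs
          refine ⟨fneg f, smallF_fneg hf, ?_, ?_⟩
          · rw [pkN_fneg, hpk]
          · rw [ev_fneg]
            linarith
        · exact hn p hp

theorem CertSoundAux.chk_sound {K : ℕ} (hK : 24 ≤ K) {z : ℕ → ℝ} {base : BT} {cls : List PClause}
    (hb : ∀ i, GoodH K z (btGet i base)) (hcl : ∀ c ∈ cls, GoodC K z c) (t : Tree) :
    (∀ ctx negs, (∀ p ∈ ctx, GoodH K z p) → (∀ p ∈ negs, GoodN K z p) →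
      chk K base cls t ctx negs = true → False) ∧
    (∀ c ctx negs, GoodC K z c → (∀ p ∈ ctx, GoodH K z p) → (∀ p ∈ negs, GoodN K z p) →
      chkK K base cls t c ctx negs = true → False) := by
  induction t with
  | leaf w n payload =>
    constructor
    · intro ctx negs hc hn h
      rw [chk] at h
      refine leafLoop_sound hK w hb hc hn n payload 0 0 0 0 ⟨[], [], rfl, rfl, ?_, ?_, ?_, ?_⟩ h
      · intro d hd; simp at hd
      · intro d hd; simp at hd
      · simp [evN]
      · intro h0; omega
    · intro c ctx negs _ _ _ h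
      cases c <;> simp [chkK] at h
  | nil =>
    constructor
    · intro ctx negs _ _ h
      simp [chk] at h
    · intro c ctx negs hC _ _ h
      cases c with
      | nil =>
        obtain ⟨o, ho, _⟩ := hC
        simp at ho
      | cons o os => simp [chkK] at h
  | cons kid rest ih1 ih2 =>
    constructor
    · intro ctx negs _ _ h
      simp [chk] at h
    · intro c ctx negs hC hc hn h
      cases c with
      | nil => simp [chkK] at h
      | cons o os =>
        rw [chkK] at h
        simp only [Bool.and_eq_true] at h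
        obtain ⟨oo, ho, hgo⟩ := hC
        simp only [List.mem_cons] at ho
        rcases ho with rfl | ho
        · obtain ⟨h1, h2⟩ := pushOpt_good _ hgo ctx negs hc hn
          exact ih1.1 _ _ h1 h2 h.1
        · exact ih2.2 os ctx negs ⟨oo, ho, hgo⟩ hc hn h.2
  | node c kids ih =>
    constructor
    · intro ctx negs hc hn h
      rw [chk] at h
      exact ih.2 _ ctx negs (getC_good hcl c) hc hn h
    · intro c' ctx negs _ _ _ h
      cases c' <;> simp [chkK] at h

theorem CertSoundAux.eqPF_eq : ∀ {a b : List PF}, eqPF a b = true → a = b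
  | [], [], _ => rfl
  | [], _ :: _, h => by simp [eqPF] at h
  | _ :: _, [], h => by simp [eqPF] at h
  | x :: a, y :: b, h => by
    simp only [eqPF, Bool.and_eq_true] at h
    obtain ⟨⟨h1, h2⟩, h3⟩ := h
    have e1 : x.1 = y.1 := Nat.eq_of_beq_eq_true h1
    have e2 : x.2 = y.2 := Nat.eq_of_beq_eq_true h2
    rw [CertSoundAux.eqPF_eq h3, Prod.ext e1 e2]

/-- soundness of the checker: every goal has a form that is `≥ 0`. `K ≥ 25` is needed so that digits do not overflow. -/
theorem chkAll_sound (K : Nat) (hK : 25 ≤ K) (s : St) (base : BT) (cls : List PClause)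
    (gts : List (List Form × List PF × Tree)) (h : chkAll K s base cls gts = true)
    (z : ℕ → ℝ) (hz : St.holds z s) : ∀ gt ∈ gts, ∃ f ∈ gt.1, 0 ≤ ev z f := by
  simp only [chkAll, dataOK, Bool.and_eq_true, List.all_eq_true, beq_iff_eq] at h
  obtain ⟨⟨⟨⟨hf, hc⟩, hbase⟩, hcls⟩, hg⟩ := h
  have hbase' := eqPF_eq hbase
  have hb : ∀ i, GoodH K z (btGet i base) := by
    intro i
    have hm := btGet_mem i base
    rw [hbase', List.mem_map] at hm
    obtain ⟨f, hfm, hpk⟩ := hm
    exact ⟨f, hf f hfm, hpk, hz.1 f hfm⟩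
  have hcl : ∀ c ∈ cls, GoodC K z c := by
    intro c hcm
    rw [hcls, List.mem_map] at hcm
    obtain ⟨c', hcm', rfl⟩ := hcm
    obtain ⟨o, ho, hoh⟩ := hz.2 c' hcm'
    refine ⟨o.map (pkLit K), ?_, ?_⟩
    · simp only [pkClause, List.mem_map]
      exact ⟨o, ho, rfl⟩
    · intro l hl
      rw [List.mem_map] at hl
      obtain ⟨l', hl', rfl⟩ := hl
      refine ⟨l'.form, hc c' hcm' o ho l' hl', rfl, ?_⟩
      exact hoh l' hl'
  intro gt hgt
  obtain ⟨⟨hgs, hgp⟩, hgc⟩ := by simpa [chkGoal] using hg gt hgt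
  by_contra hcon
  push Not at hcon
  have hpg := eqPF_eq hgp
  refine (chk_sound (by omega) hb hcl gt.2.2).1 [] gt.2.1 (by simp) ?_ hgc
  intro p hp
  rw [hpg, List.mem_map] at hp
  obtain ⟨f, hfm, rfl⟩ := hp
  exact ⟨f, hgs f hfm, rfl, hcon f hfm⟩

end Vale.Agent.Lib.P235.UB.Cert
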