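import Vale.Agent.Lib.P235.UB.ClosureDefs

/-! From the goals on `T` to the closure conclusion (module T3). All labels in `Fin 3`. -/

namespace Vale.Agent.Lib.P235.UB

noncomputable section

/-- the ten forms that bound `Ψ(l₁,l₂,l₃)` from above -/
def jforms (l : Fin 3 → ℝ) : List ℝ :=
  [l 0 + l 1 + l 2, 5 * l 0, 5 * l 1, 5 * l 2,
   3 * l 0 + l 1, 3 * l 0 + l 2, 3 * l 1 + l 0, 3 * l 1 + l 2, 3 * l 2 + l 0, 3 * l 2 + l 1]

/-- `D = min_i (β x_i + σ_i)` -/
def Dval (σ x : Fin 3 → ℝ) : ℝ :=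
  min ((1 / 100) * x 0 + σ 0) (min ((1 / 100) * x 1 + σ 1) ((1 / 100) * x 2 + σ 2))

/-- `G_k`, `k` the third label -/
def Gval (T : Fin 3 → ℝ) (i j : Fin 3) : ℝ := (T i + T j) / 2

/-- The goals on `T` (a new vertex `w` is placed with `τ_i = σ_i + T_i`, `e_i = x_i - τ_i`), with apex label `A` and
base labels `u`, `v`. `qu` is the wall coefficient. -/
structure GoalsT (σ : Fin 3 → ℝ) (d : Fin 3 → Fin 3 → ℝ) (x T : Fin 3 → ℝ) (A u v : Fin 3) : Prop where
  Au : A ≠ u
  Av : A ≠ v
  uv : u ≠ v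
  floor : ∀ i, (1 / 100) * x i ≤ σ i + T i
  ceil : ∀ i, σ i + T i ≤ x i
  legw : ∀ i j, i ≠ j → 0 ≤ T i + T j
  /-- legs towards the base labels; the legs towards `A` follow from the wall -/
  leg : ∀ i j, i ≠ j → j ≠ A → 0 ≤ 2 * σ i + T i - T j
  ordu : T u ≤ T A
  ordv : T v ≤ T A
  /-- child apex `j`, base `(w, i)` -/
  condA : ∀ i j, i ≠ j →
    (1 / 100) * (x j + σ i + T i) ≤ σ i + σ j ∨
    (1 / 100) * (d i j + σ i + T i) ≤ σ j + T j ∨
    (3 / 20) * x i ≤ x i - σ i - T i
  /-- child apex `w`, base `(i, j)` -/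
  condW : ∀ i j, i < j →
    (1 / 100) * (x i + σ i + σ j) ≤ σ j + T j ∨
    (1 / 100) * (x j + σ i + σ j) ≤ σ i + T i ∨
    (3 / 20) * d i j ≤ d i j - σ i - σ j
  /-- the child with `w` at slot `k`, `i < j` the other slots: legs `G_k`, `σ_i + (T_i - T_j)/2`, `σ_j + (T_j - T_i)/2` -/
  J : ∀ k i j, i < j → k ≠ i → k ≠ j → ∃ f ∈ jforms ![(T i + T j) / 2, σ i + (T i - T j) / 2, σ j + (T j - T i) / 2],
    2 * f ≤ (x i - σ i - T i) + (x j - σ j - T j) + (d i j - σ i - σ j)
  /-- `k`, `i`, `j` distinct, with `G_k = (T_i + T_j)/2` etc. -/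
  LC0 : ∀ k i j, i < j → k ≠ i → k ≠ j →
    Dval σ x ≤ (T i + T j) / 2 + 30 * ((T k + T j) / 2 + (T k + T i) / 2)
  /-- same labels; `mG = G_A = (T_u + T_v)/2`, `val = G_k + 30 (G_i + G_j - 2 mG)` where `G_i = (T_k + T_j)/2`, `G_j = (T_k + T_i)/2`, and `G_k - mG + (D - val)/60 ≤ (27/31) σ_k` is the last option. -/
  LIN : ∀ k i j, k ≠ i → k ≠ j → i ≠ j →
    σ k ≤ (29 / 2) * σ i ∨
    Dval σ x ≤ (T i + T j) / 2 + 30 * ((T k + T j) / 2 + (T k + T i) / 2 - (T u + T v)) ∨
    (T i + T j) / 2 - (T u + T v) / 2 +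
      (Dval σ x - ((T i + T j) / 2 + 30 * ((T k + T j) / 2 + (T k + T i) / 2 - (T u + T v)))) / 60 ≤ (27 / 31) * σ k
  /-- the wall, `qu ∈ [0,1]`, `qu * (σ_u + σ_v) = σ_v + (T_v - T_u) / 2`, and `qu = 1/2` if `σ_u + σ_v = 0` -/
  wall : ∃ qu : ℝ, 0 ≤ qu ∧ qu ≤ 1 ∧ qu * (σ u + σ v) = σ v + (T v - T u) / 2 ∧
    T A ≤ (T u + T v) / 2 + qu * σ u + (1 - qu) * σ v

/-! ### Label combinatorics -/

theorem cover3 {A u v : Fin 3} (h1 : A ≠ u) (h2 : A ≠ v) (h3 : u ≠ v) (k : Fin 3) :
    k = A ∨ k = u ∨ k = v := by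
  revert A u v k; decide

theorem sum3 {A u v : Fin 3} (h1 : A ≠ u) (h2 : A ≠ v) (h3 : u ≠ v) (F : Fin 3 → ℝ) :
    F 0 + F 1 + F 2 = F A + F u + F v := by
  have : (A = 0 ∧ u = 1 ∧ v = 2) ∨ (A = 0 ∧ u = 2 ∧ v = 1) ∨ (A = 1 ∧ u = 0 ∧ v = 2) ∨
      (A = 1 ∧ u = 2 ∧ v = 0) ∨ (A = 2 ∧ u = 0 ∧ v = 1) ∨ (A = 2 ∧ u = 1 ∧ v = 0) := by
    revert A u v; decide
  rcases this with ⟨rfl, rfl, rfl⟩ | ⟨rfl, rfl, rfl⟩ | ⟨rfl, rfl, rfl⟩ | ⟨rfl, rfl, rfl⟩ |
    ⟨rfl, rfl, rfl⟩ | ⟨rfl, rfl, rfl⟩ <;> ring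

theorem others3 (z : Fin 3) : ∃ i j : Fin 3, i < j ∧ z ≠ i ∧ z ≠ j := by
  revert z; decide

/-! ### The form `P3` -/

/-- `Ψ` as a function of three reals -/
def P3 (a b c : ℝ) : ℝ :=
  min a (2 * min a (min b c)) + min b (2 * min a (min b c)) + min c (2 * min a (min b c))

theorem psiF_eq (σ : Fin 3 → ℝ) : PsiF σ = P3 (σ 0) (σ 1) (σ 2) := rfl

theorem P3_swap12 (a b c : ℝ) : P3 b a c = P3 a b c := by
  simp only [P3]; rw [min_left_comm b a c]; ring

theorem P3_swap23 (a b c : ℝ) : P3 a c b = P3 a b c := by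
  simp only [P3]; rw [min_comm c b]; ring

theorem P3_bounds {a b c : ℝ} (ha : 0 ≤ a) (hb : 0 ≤ b) (hc : 0 ≤ c) :
    P3 a b c ≤ a + b + c ∧ P3 a b c ≤ 5 * a ∧ P3 a b c ≤ 5 * b ∧ P3 a b c ≤ 5 * c ∧
    P3 a b c ≤ 3 * a + b ∧ P3 a b c ≤ 3 * a + c ∧ P3 a b c ≤ 3 * b + a ∧ P3 a b c ≤ 3 * b + c ∧
    P3 a b c ≤ 3 * c + a ∧ P3 a b c ≤ 3 * c + b := by
  have key : ∀ m : ℝ, m = min a (min b c) →
      P3 a b c = min a (2 * m) + min b (2 * m) + min c (2 * m) := by
    intro m hm; rw [hm]; rfl
  obtain ⟨m, hm⟩ : ∃ m, m = min a (min b c) := ⟨_, rfl⟩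
  rw [key m hm]
  have hma : m ≤ a := by rw [hm]; exact min_le_left _ _
  have hmb : m ≤ b := by rw [hm]; exact le_trans (min_le_right _ _) (min_le_left _ _)
  have hmc : m ≤ c := by rw [hm]; exact le_trans (min_le_right _ _) (min_le_right _ _)
  have hm0 : 0 ≤ m := by rw [hm]; exact le_min ha (le_min hb hc)
  have ha1 := min_le_left a (2 * m)
  have ha2 := min_le_right a (2 * m)
  have hb1 := min_le_left b (2 * m)
  have hb2 := min_le_right b (2 * m)
  have hc1 := min_le_left c (2 * m)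
  have hc2 := min_le_right c (2 * m)
  have hcase : m = a ∨ m = b ∨ m = c := by
    rw [hm]
    rcases min_choice a (min b c) with h | h
    · left; exact h
    · rcases min_choice b c with h' | h'
      · right; left; rw [h, h']
      · right; right; rw [h, h']
  -- the term of the minimal slot equals `m`
  rcases hcase with h | h | h
  · have : min a (2 * m) ≤ m := by rw [h]; exact min_le_left _ _
    refine ⟨by linarith, by linarith, by linarith, by linarith, by linarith, by linarith,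
      by linarith, by linarith, by linarith, by linarith⟩
  · have : min b (2 * m) ≤ m := by rw [h]; exact min_le_left _ _
    refine ⟨by linarith, by linarith, by linarith, by linarith, by linarith, by linarith,
      by linarith, by linarith, by linarith, by linarith⟩
  · have : min c (2 * m) ≤ m := by rw [h]; exact min_le_left _ _
    refine ⟨by linarith, by linarith, by linarith, by linarith, by linarith, by linarith,
      by linarith, by linarith, by linarith, by linarith⟩

/-- `P3 a b c` is at most any form of any arrangement `![p, q, r]`, given as three cases. -/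
theorem P3_le_jform {a b c : ℝ} (ha : 0 ≤ a) (hb : 0 ≤ b) (hc : 0 ≤ c) {f : ℝ}
    (hf : f ∈ jforms ![a, b, c]) : P3 a b c ≤ f := by
  obtain ⟨h1, h2, h3, h4, h5, h6, h7, h8, h9, h10⟩ := P3_bounds ha hb hc
  simp only [jforms, List.mem_cons, List.not_mem_nil, or_false, Matrix.cons_val_zero,
    Matrix.cons_val_one, Matrix.cons_val] at hf
  rcases hf with h | h | h | h | h | h | h | h | h | h <;> rw [h] <;> assumption

/-- `P3` equals one of the ten forms. -/
theorem P3_cases {a b c : ℝ} (ha : 0 ≤ a) (hb : 0 ≤ b) (hc : 0 ≤ c) :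
    P3 a b c = a + b + c ∨ P3 a b c = 5 * a ∨ P3 a b c = 5 * b ∨ P3 a b c = 5 * c ∨
    P3 a b c = 3 * a + b ∨ P3 a b c = 3 * a + c ∨ P3 a b c = 3 * b + a ∨ P3 a b c = 3 * b + c ∨
    P3 a b c = 3 * c + a ∨ P3 a b c = 3 * c + b := by
  have key : ∀ m : ℝ, m = min a (min b c) →
      P3 a b c = min a (2 * m) + min b (2 * m) + min c (2 * m) := by
    intro m hm; rw [hm]; rfl
  obtain ⟨m, hm⟩ : ∃ m, m = min a (min b c) := ⟨_, rfl⟩
  rw [key m hm]
  have hm0 : 0 ≤ m := by rw [hm]; exact le_min ha (le_min hb hc)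
  have hcase : m = a ∨ m = b ∨ m = c := by
    rw [hm]
    rcases min_choice a (min b c) with h | h
    · left; exact h
    · rcases min_choice b c with h' | h'
      · right; left; rw [h, h']
      · right; right; rw [h, h']
  have hself : min m (2 * m) = m := min_eq_left (by linarith)
  rcases hcase with h | h | h
  · subst h
    rw [hself]
    rcases min_choice b (2 * m) with h2 | h2 <;> rcases min_choice c (2 * m) with h3 | h3 <;>
      rw [h2, h3]
    · exact Or.inl rfl
    · exact Or.inr (Or.inr (Or.inr (Or.inr (Or.inl (by ring)))))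
    · exact Or.inr (Or.inr (Or.inr (Or.inr (Or.inr (Or.inl (by ring))))))
    · exact Or.inr (Or.inl (by ring))
  · subst h
    rw [hself]
    rcases min_choice a (2 * m) with h2 | h2 <;> rcases min_choice c (2 * m) with h3 | h3 <;>
      rw [h2, h3]
    · exact Or.inl rfl
    · exact Or.inr (Or.inr (Or.inr (Or.inr (Or.inr (Or.inr (Or.inl (by ring)))))))
    · exact Or.inr (Or.inr (Or.inr (Or.inr (Or.inr (Or.inr (Or.inr (Or.inl (by ring))))))))
    · exact Or.inr (Or.inr (Or.inl (by ring)))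
  · subst h
    rw [hself]
    rcases min_choice a (2 * m) with h2 | h2 <;> rcases min_choice b (2 * m) with h3 | h3 <;>
      rw [h2, h3]
    · exact Or.inl rfl
    · exact Or.inr (Or.inr (Or.inr (Or.inr (Or.inr (Or.inr (Or.inr (Or.inr (Or.inl (by ring)))))))))
    · exact Or.inr (Or.inr (Or.inr (Or.inr (Or.inr (Or.inr (Or.inr (Or.inr (Or.inr (by ring)))))))))
    · exact Or.inr (Or.inr (Or.inr (Or.inl (by ring))))

/-- the 'J' fact of the input: a form of `σ` is below half the slack sum -/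
theorem input_J (σ : Fin 3 → ℝ) (d : Fin 3 → Fin 3 → ℝ) (hI : TripleInv σ d) :
    ∃ f ∈ jforms σ, 2 * f ≤ (d 0 1 - σ 0 - σ 1) + (d 0 2 - σ 0 - σ 2) + (d 1 2 - σ 1 - σ 2) := by
  have hJ := hI.J
  rw [psiF_eq] at hJ
  rcases P3_cases (hI.sig_nonneg 0) (hI.sig_nonneg 1) (hI.sig_nonneg 2) with
    h | h | h | h | h | h | h | h | h | h <;> rw [h] at hJ <;>
    exact ⟨_, by simp only [jforms, List.mem_cons]; simp, hJ⟩

/-! ### The coefficients `q` -/

/-- `κ/σ`, and `0` if `σ = 0` -/
def Qf (κ σ : ℝ) : ℝ := if σ = 0 then 0 else κ / σ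

theorem Qf_mul {κ σ : ℝ} (h0 : σ = 0 → κ = 0) : Qf κ σ * σ = κ := by
  unfold Qf
  split_ifs with h
  · rw [h0 h]; ring
  · field_simp

theorem Qf_nonneg {κ σ : ℝ} (hκ : 0 ≤ κ) (hσ : 0 ≤ σ) : 0 ≤ Qf κ σ := by
  unfold Qf
  split_ifs
  · exact le_rfl
  · exact div_nonneg hκ hσ

theorem Qf_le {κ σ c : ℝ} (hσ : 0 ≤ σ) (hc : 0 ≤ c) (h : κ ≤ c * σ) : Qf κ σ ≤ c := by
  unfold Qf
  split_ifs with h0
  · exact hc
  · have : 0 < σ := lt_of_le_of_ne hσ (Ne.symm h0)
    rw [div_le_iff₀ this]; exact h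

/-- The tetrahedron estimate when `δ > 0`. -/
theorem tetra_pos {κz κx κy σz σx σy : ℝ} (hκz : 0 ≤ κz) (hκx : 0 ≤ κx) (hκy : 0 ≤ κy)
    (hσz : 0 ≤ σz) (hσx : 0 ≤ σx) (hσy : 0 ≤ σy)
    (h1 : 31 * κx + 29 * κy ≤ 2 * σx) (h2 : 31 * κy + 29 * κx ≤ 2 * σy)
    (h3 : 29 * (κx + κy) ≤ 2 * (σz - κz))
    (hlin : κz ≤ (27 / 31) * σz ∨ (σz ≤ (29 / 2) * σx ∧ σz ≤ (29 / 2) * σy)) :
    (σz = 0 → κz = 0) ∧ (σx = 0 → κx = 0) ∧ (σy = 0 → κy = 0) ∧
      Qf κz σz + Qf κx σx + Qf κy σy ≤ 1 := by
  refine ⟨fun h => ?_, fun h => ?_, fun h => ?_, ?_⟩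
  · subst h; linarith
  · subst h; linarith
  · subst h; linarith
  rcases hlin with h | ⟨h4, h5⟩
  · have q1 : Qf κz σz ≤ 27 / 31 := Qf_le hσz (by norm_num) h
    have q2 : Qf κx σx ≤ 2 / 31 := Qf_le hσx (by norm_num) (by linarith)
    have q3 : Qf κy σy ≤ 2 / 31 := Qf_le hσy (by norm_num) (by linarith)
    linarith
  · rcases eq_or_lt_of_le hσz with h0 | hz
    · have e1 : κz = 0 := by
        rw [← h0] at h3; linarith
      have e2 : κx = 0 := by
        rw [← h0] at h3; linarith
      have e3 : κy = 0 := by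
        rw [← h0] at h3; linarith
      subst e1 e2 e3
      simp [Qf]
    · have hx : 0 < σx := by linarith
      have hy : 0 < σy := by linarith
      have q1 : Qf κz σz = κz / σz := by simp [Qf, hz.ne']
      have q2 : Qf κx σx = κx / σx := by simp [Qf, hx.ne']
      have q3 : Qf κy σy = κy / σy := by simp [Qf, hy.ne']
      rw [q1, q2, q3]
      have e2 : κx / σx ≤ (29 / 2) * κx / σz := by
        rw [div_le_div_iff₀ hx hz]
        nlinarith [mul_nonneg hκx (by linarith : 0 ≤ (29 / 2) * σx - σz)]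
      have e3 : κy / σy ≤ (29 / 2) * κy / σz := by
        rw [div_le_div_iff₀ hy hz]
        nlinarith [mul_nonneg hκy (by linarith : 0 ≤ (29 / 2) * σy - σz)]
      have e1 : κz / σz + (29 / 2) * κx / σz + (29 / 2) * κy / σz ≤ 1 := by
        rw [← add_div, ← add_div, div_le_one hz]
        linarith
      linarith

theorem Dval_le (σ x : Fin 3 → ℝ) (w : Fin 3) : Dval σ x ≤ (1 / 100) * x w + σ w := by
  unfold Dval
  have hw : w = 0 ∨ w = 1 ∨ w = 2 := by revert w; decide
  rcases hw with rfl | rfl | rfl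
  · exact min_le_left _ _
  · exact le_trans (min_le_right _ _) (min_le_left _ _)
  · exact le_trans (min_le_right _ _) (min_le_right _ _)

/-! ### The child invariant -/

theorem child_inv {σ : Fin 3 → ℝ} {d : Fin 3 → Fin 3 → ℝ} {x T : Fin 3 → ℝ} {A u v : Fin 3}
    (hm : Metric4 d x) (hI : TripleInv σ d) (hG : GoalsT σ d x T A u v)
    (hleg : ∀ i j, i ≠ j → 0 ≤ 2 * σ i + T i - T j)
    {l : Fin 3 → ℝ} {c i j : Fin 3} (hij : i < j) (hci : c ≠ i) (hcj : c ≠ j)
    (hlc : l c = (T i + T j) / 2) (hli : l i = σ i + (T i - T j) / 2)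
    (hlj : l j = σ j + (T j - T i) / 2)
    (hJ : 2 * PsiF l ≤ (childDist d x c 0 1 - l 0 - l 1) + (childDist d x c 0 2 - l 0 - l 2) +
      (childDist d x c 1 2 - l 1 - l 2)) :
    TripleInv l (childDist d x c) := by
  have hij' : i ≠ j := ne_of_lt hij
  have hcov := cover3 hci hcj hij'
  have Dci : childDist d x c c i = x i := by simp [childDist, hci.symm]
  have Dcj : childDist d x c c j = x j := by simp [childDist, hcj.symm]
  have Dic : childDist d x c i c = x i := by simp [childDist, hci.symm]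
  have Djc : childDist d x c j c = x j := by simp [childDist, hcj.symm]
  have Dij : childDist d x c i j = d i j := by simp [childDist, hci.symm, hcj.symm]
  have Dji : childDist d x c j i = d i j := by
    simp [childDist, hci.symm, hcj.symm]; exact hm.symm j i
  have hdji : d j i = d i j := hm.symm j i
  refine ⟨?_, ?_, ?_, ?_, hJ⟩
  · intro k
    rcases hcov k with rfl | rfl | rfl
    · rw [hlc]; have := hG.legw i j hij'; linarith
    · rw [hli]; have := hleg k j hij'; linarith
    · rw [hlj]; have := hleg k i hij'.symm; linarith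
  · intro a b hab
    rcases hcov a with rfl | rfl | rfl <;> rcases hcov b with rfl | rfl | rfl <;>
      first
      | exact absurd rfl hab
      | skip
    · rw [Dci, hlc, hli]; have := hG.ceil b; linarith
    · rw [Dcj, hlc, hlj]; have := hG.ceil b; linarith
    · rw [Dic, hlc, hli]; have := hG.ceil a; linarith
    · rw [Dij, hli, hlj]; have := hI.ceil a b hij'; linarith
    · rw [Djc, hlc, hlj]; have := hG.ceil a; linarith
    · rw [Dji, hli, hlj]; have := hI.ceil b a hij'; linarith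
  · intro a b hab
    rcases hcov a with rfl | rfl | rfl <;> rcases hcov b with rfl | rfl | rfl <;>
      first
      | exact absurd rfl hab
      | skip
    · rw [Dci, hlc, hli]; have := hG.floor b; linarith
    · rw [Dcj, hlc, hlj]; have := hG.floor b; linarith
    · rw [Dic, hlc, hli]; have := hG.floor a; linarith
    · rw [Dij, hli, hlj]; have := hI.floor a b hij'; linarith
    · rw [Djc, hlc, hlj]; have := hG.floor a; linarith
    · rw [Dji, hli, hlj]; have := hI.floor b a hij'; linarith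
  · intro a b e hab hae hbe
    rcases hcov a with rfl | rfl | rfl <;> rcases hcov b with rfl | rfl | rfl <;>
      rcases hcov e with rfl | rfl | rfl <;>
      first
      | exact absurd rfl hab
      | exact absurd rfl hae
      | exact absurd rfl hbe
      | skip
    · -- apex `c`, base `(i, j)`
      rw [Dci, Dcj, Dij, hlc, hli, hlj]
      rcases hG.condW b e hij with h | h | h
      · left; linarith
      · right; left; linarith
      · right; right; linarith
    · -- apex `c`, base `(j, i)`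
      rw [Dci, Dcj, Dji, hlc, hli, hlj]
      rcases hG.condW e b hij with h | h | h
      · right; left; linarith
      · left; linarith
      · right; right; linarith
    · -- apex `i`, base `(c, j)`
      rw [Dic, Dij, Dcj, hlc, hli, hlj]
      rcases hG.condA e a hij'.symm with h | h | h
      · left; linarith
      · right; left; rw [hdji] at h; linarith
      · right; right; linarith
    · -- apex `i`, base `(j, c)`
      rw [Dic, Dij, Djc, hlc, hli, hlj]
      rcases hG.condA b a hij'.symm with h | h | h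
      · right; left; linarith
      · left; rw [hdji] at h; linarith
      · right; right; linarith
    · -- apex `j`, base `(c, i)`
      rw [Djc, Dji, Dci, hlc, hli, hlj]
      rcases hG.condA e a hij' with h | h | h
      · left; linarith
      · right; left; linarith
      · right; right; linarith
    · -- apex `j`, base `(i, c)`
      rw [Djc, Dji, Dic, hlc, hli, hlj]
      rcases hG.condA b a hij' with h | h | h
      · right; left; linarith
      · left; linarith
      · right; right; linarith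

/-- The closure conclusion from the goals. Proof in the finding of helper44 (s-elimination and tetrahedron lemma). -/
theorem closure_of_goals (σ : Fin 3 → ℝ) (d : Fin 3 → Fin 3 → ℝ) (x T : Fin 3 → ℝ) (A u v : Fin 3)
    (hm : Metric4 d x) (hI : TripleInv σ d) (hG : GoalsT σ d x T A u v) :
    ∃ (s : ℝ) (q : Fin 3 → ℝ), ActionOK σ x q s ∧
      ∀ c, TripleInv (childLegs σ q s c) (childDist d x c) := by
  classical
  have hcov := cover3 hG.Au hG.Av hG.uv
  have hsumF := sum3 hG.Au hG.Av hG.uv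
  have hσ0 := hI.sig_nonneg
  obtain ⟨qu, hqu0, hqu1, hquE, hwall⟩ := hG.wall
  -- the wall in the form used below
  have hwallU : T A ≤ T u + 2 * (qu * σ u) := by nlinarith
  have hwallV : T A ≤ T v + 2 * ((1 - qu) * σ v) := by nlinarith
  -- legs towards every label
  have hleg : ∀ i j, i ≠ j → 0 ≤ 2 * σ i + T i - T j := by
    intro i j hij
    by_cases hjA : j = A
    · subst hjA
      rcases hcov i with rfl | rfl | rfl
      · exact absurd rfl hij
      · have : qu * σ i ≤ σ i := by nlinarith [hσ0 i]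
        linarith
      · have : (1 - qu) * σ i ≤ σ i := by nlinarith [hσ0 i]
        linarith
    · exact hG.leg i j hij hjA
  -- abbreviations
  obtain ⟨D, hD⟩ : ∃ D, D = Dval σ x := ⟨_, rfl⟩
  obtain ⟨a, ha⟩ : ∃ a : Fin 3 → ℝ, ∀ k, a k = (T A - T k) / 2 := ⟨_, fun _ => rfl⟩
  obtain ⟨Sa, hSa⟩ : ∃ Sa, Sa = (3 * T A - (T 0 + T 1 + T 2)) / 2 := ⟨_, rfl⟩
  obtain ⟨G, hGv⟩ : ∃ G : Fin 3 → ℝ, ∀ k, G k = ((T 0 + T 1 + T 2) - T k) / 2 := ⟨_, fun _ => rfl⟩
  obtain ⟨dz, hdz⟩ : ∃ dz : Fin 3 → ℝ, ∀ z, dz z = (D - (G z + 30 * (Sa - a z))) / 60 :=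
    ⟨_, fun _ => rfl⟩
  obtain ⟨δ, hδ⟩ : ∃ δ, δ = max 0 (max (dz 0) (max (dz 1) (dz 2))) := ⟨_, rfl⟩
  have hδ0 : 0 ≤ δ := by rw [hδ]; exact le_max_left _ _
  have hδz : ∀ z, dz z ≤ δ := by
    intro z
    have hz : z = 0 ∨ z = 1 ∨ z = 2 := by revert z; decide
    rw [hδ]
    rcases hz with rfl | rfl | rfl
    · exact le_trans (le_max_left _ _) (le_max_right _ _)
    · exact le_trans (le_trans (le_max_left _ _) (le_max_right _ _)) (le_max_right _ _)
    · exact le_trans (le_trans (le_max_right _ _) (le_max_right _ _)) (le_max_right _ _)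
  have hδc : δ = 0 ∨ ∃ z, δ = dz z ∧ 0 < δ := by
    rcases eq_or_lt_of_le hδ0 with h | hpos
    · exact Or.inl h.symm
    · right
      have h' := hδ
      rcases max_choice 0 (max (dz 0) (max (dz 1) (dz 2))) with h0 | h0
      · rw [h0] at h'; linarith
      · rw [h0] at h'
        rcases max_choice (dz 0) (max (dz 1) (dz 2)) with h1 | h1
        · rw [h1] at h'; exact ⟨0, h', hpos⟩
        · rw [h1] at h'
          rcases max_choice (dz 1) (dz 2) with h2 | h2
          · rw [h2] at h'; exact ⟨1, h', hpos⟩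
          · rw [h2] at h'; exact ⟨2, h', hpos⟩
  obtain ⟨κ, hκ⟩ : ∃ κ : Fin 3 → ℝ, ∀ k, κ k = a k + δ := ⟨_, fun _ => rfl⟩
  have ha0 : ∀ k, 0 ≤ a k := by
    intro k
    rw [ha]
    have h1 := hG.ordu
    have h2 := hG.ordv
    rcases hcov k with rfl | rfl | rfl <;> linarith
  have hκ0 : ∀ k, 0 ≤ κ k := fun k => by rw [hκ]; linarith [ha0 k]
  have hTsum := hsumF T
  have hDle : ∀ w, D ≤ (1 / 100) * x w + σ w := fun w => by rw [hD]; exact Dval_le σ x w
  -- the tetrahedron lemma
  have htetra : (∀ k, σ k = 0 → κ k = 0) ∧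
      Qf (κ 0) (σ 0) + Qf (κ 1) (σ 1) + Qf (κ 2) (σ 2) ≤ 1 := by
    rcases hδc with h0 | ⟨z, hz, hpos⟩
    · -- `δ = 0`
      have κA : κ A = 0 := by rw [hκ, ha, h0]; ring
      have κU : κ u ≤ qu * σ u := by rw [hκ, ha, h0]; linarith
      have κV : κ v ≤ (1 - qu) * σ v := by rw [hκ, ha, h0]; linarith
      refine ⟨?_, ?_⟩
      · intro k hk
        rcases hcov k with rfl | rfl | rfl
        · exact κA
        · rw [hk] at κU; exact le_antisymm (by linarith) (hκ0 _)
        · rw [hk] at κV; exact le_antisymm (by linarith) (hκ0 _)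
      · have q1 : Qf (κ A) (σ A) ≤ 0 := by rw [κA]; simp [Qf]
        have q2 : Qf (κ u) (σ u) ≤ qu := Qf_le (hσ0 u) hqu0 κU
        have q3 : Qf (κ v) (σ v) ≤ 1 - qu := Qf_le (hσ0 v) (by linarith) κV
        have := hsumF (fun k => Qf (κ k) (σ k))
        linarith
    · -- `δ = dz z > 0`
      obtain ⟨i, j, hij, hzi, hzj⟩ := others3 z
      have hij' : i ≠ j := ne_of_lt hij
      have hcz := sum3 hzi hzj hij'
      have hTz := hcz T
      have eD : D = G z + 30 * (Sa - a z) + 60 * δ := by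
        have := hdz z
        rw [← hz] at this
        linarith
      have eG : G z = (T i + T j) / 2 := by rw [hGv]; linarith
      have eS : Sa - a z = κ i + κ j - 2 * δ := by
        rw [hκ, hκ, ha, ha, ha, hSa]; linarith
      have eD' : D = (T i + T j) / 2 + 30 * (κ i + κ j) := by
        rw [eD, eG, eS]; ring
      have ei : κ i - κ j = (T j - T i) / 2 := by rw [hκ, hκ, ha, ha]; ring
      have ez : 2 * κ z - κ i - κ j = (T i + T j) / 2 - T z := by
        rw [hκ, hκ, hκ, ha, ha, ha]; ring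
      have D2 : ∀ w, D ≤ 2 * σ w + T w := by
        intro w
        have h1 := hDle w
        have h2 := hG.floor w
        linarith
      have h1 : 31 * κ i + 29 * κ j ≤ 2 * σ i := by
        have := D2 i; linarith
      have h2 : 31 * κ j + 29 * κ i ≤ 2 * σ j := by
        have := D2 j; linarith
      have h3 : 29 * (κ i + κ j) ≤ 2 * (σ z - κ z) := by
        have := D2 z; linarith
      -- the linear alternative
      have hlin : κ z ≤ (27 / 31) * σ z ∨ (σ z ≤ (29 / 2) * σ i ∧ σ z ≤ (29 / 2) * σ j) := by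
        have hval : ∀ p r, ((p = i ∧ r = j) ∨ (p = j ∧ r = i)) →
            (T p + T r) / 2 + 30 * ((T z + T r) / 2 + (T z + T p) / 2 - (T u + T v))
              = G z + 30 * (Sa - a z) := by
          intro p r hpr
          have e1 : T u + T v = T i + T j + T z - T A := by linarith
          rw [e1, eG, hSa, ha, show T 0 + T 1 + T 2 = T z + T i + T j from hTz]
          rcases hpr with ⟨rfl, rfl⟩ | ⟨rfl, rfl⟩ <;> ring
        have hA : ∀ p r, z ≠ p → z ≠ r → p ≠ r → ((p = i ∧ r = j) ∨ (p = j ∧ r = i)) →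
            κ z ≤ (27 / 31) * σ z ∨ σ z ≤ (29 / 2) * σ p := by
          intro p r hzp hzr hpr hpr'
          have hv := hval p r hpr'
          have eGp : (T p + T r) / 2 = G z := by
            rcases hpr' with ⟨rfl, rfl⟩ | ⟨rfl, rfl⟩
            · rw [eG]
            · rw [eG]; ring
          rcases hG.LIN z p r hzp hzr hpr with h | h | h
          · exact Or.inr h
          · exfalso
            rw [← hD, hv] at h
            linarith
          · left
            rw [← hD, hv, eGp] at h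
            have e2 : G z - (T u + T v) / 2 = a z := by
              rw [eG, ha]; linarith
            have e3 : (D - (G z + 30 * (Sa - a z))) / 60 = δ := by
              rw [← hdz z]; exact hz.symm
            rw [hκ]
            linarith
        rcases hA i j hzi hzj hij' (Or.inl ⟨rfl, rfl⟩) with h | h1'
        · exact Or.inl h
        · rcases hA j i hzj hzi hij'.symm (Or.inr ⟨rfl, rfl⟩) with h | h2'
          · exact Or.inl h
          · exact Or.inr ⟨h1', h2'⟩
      obtain ⟨z1, z2, z3, hsum⟩ :=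
        tetra_pos (hκ0 z) (hκ0 i) (hκ0 j) (hσ0 z) (hσ0 i) (hσ0 j) h1 h2 h3 hlin
      refine ⟨?_, ?_⟩
      · intro k hk
        rcases cover3 hzi hzj hij' k with rfl | rfl | rfl
        · exact z1 hk
        · exact z2 hk
        · exact z3 hk
      · have := hcz (fun k => Qf (κ k) (σ k))
        linarith
  obtain ⟨hzero, hqsum⟩ := htetra
  -- the action
  obtain ⟨q, hq⟩ : ∃ q : Fin 3 → ℝ, ∀ k, q k = Qf (κ k) (σ k) := ⟨_, fun _ => rfl⟩
  have hqσ : ∀ k, q k * σ k = κ k := fun k => by rw [hq]; exact Qf_mul (hzero k)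
  have hkap : kapSum σ q = κ 0 + κ 1 + κ 2 := by
    unfold kapSum; rw [hqσ, hqσ, hqσ]
  have hkap' : κ 0 + κ 1 + κ 2 = Sa + 3 * δ := by
    rw [hκ, hκ, hκ, ha, ha, ha, hSa]; ring
  have hGA : G A = (T u + T v) / 2 := by rw [hGv]; linarith
  have hGz : ∀ z, G z = G A + a z := by
    intro z; rw [hGv, hGv, ha]; ring
  have hGAnn : 0 ≤ G A := by
    rw [hGA]; have := hG.legw u v hG.uv; linarith
  have hdzle : ∀ z, dz z ≤ G A := by
    intro z
    obtain ⟨i, j, hij, hzi, hzj⟩ := others3 z
    have hTz := sum3 hzi hzj (ne_of_lt hij) T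
    have hl := hG.LC0 z i j hij hzi hzj
    rw [← hD] at hl
    rw [hdz, hGz z, hSa, ha, hGv A]
    linarith
  have hδle : δ ≤ G A := by
    rw [hδ]
    exact max_le hGAnn (max_le (hdzle 0) (max_le (hdzle 1) (hdzle 2)))
  have htau : ∀ i, tauF σ q (G A - δ) i = σ i + T i := by
    intro i
    unfold tauF
    rw [hkap, hkap', hqσ, hκ, ha, hGv, hSa]
    ring
  refine ⟨G A - δ, q, ?_, ?_⟩
  · refine ⟨by linarith, fun i => ?_, ?_, fun i => ?_, fun i => ?_, fun z => ?_⟩
    · rw [hq]; exact Qf_nonneg (hκ0 i) (hσ0 i)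
    · rw [hq, hq, hq]; exact hqsum
    · rw [htau]; exact hG.floor i
    · rw [htau]; exact hG.ceil i
    · show Dval σ x ≤ _
      rw [← hD, hkap, hkap', hqσ]
      have h1 := hδz z
      rw [hdz] at h1
      have h2 := hGz z
      rw [hκ]
      linarith
  · have hlegs : ∀ c i j : Fin 3, i < j → c ≠ i → c ≠ j →
        childLegs σ q (G A - δ) c c = (T i + T j) / 2 ∧
        childLegs σ q (G A - δ) c i = σ i + (T i - T j) / 2 ∧
        childLegs σ q (G A - δ) c j = σ j + (T j - T i) / 2 := by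
      intro c i j hij hci hcj
      have hij' : i ≠ j := ne_of_lt hij
      have hTc := sum3 hci hcj hij' T
      have hκc := sum3 hci hcj hij' κ
      refine ⟨?_, ?_, ?_⟩
      · simp only [childLegs, if_true]
        rw [hqσ, hκ]
        rw [hGv, ha]
        linarith
      · simp only [childLegs, if_neg hci.symm]
        rw [hkap, hqσ, hqσ, hκc, hκ, hκ j, hκ c, ha, ha j, ha c]
        ring
      · simp only [childLegs, if_neg hcj.symm]
        rw [hkap, hqσ, hqσ, hκc, hκ, hκ i, hκ c, ha, ha i, ha c]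
        ring
    intro c
    have hc : c = 0 ∨ c = 1 ∨ c = 2 := by revert c; decide
    rcases hc with rfl | rfl | rfl
    · obtain ⟨l0, l1, l2⟩ := hlegs 0 1 2 (by decide) (by decide) (by decide)
      refine child_inv hm hI hG hleg (i := 1) (j := 2) (by decide) (by decide) (by decide)
        l0 l1 l2 ?_
      obtain ⟨f, hf, hfle⟩ := hG.J 0 1 2 (by decide) (by decide) (by decide)
      rw [← l0, ← l1, ← l2] at hf
      have n0 : 0 ≤ childLegs σ q (G A - δ) 0 0 := by
        rw [l0]; have := hG.legw 1 2 (by decide); linarith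
      have n1 : 0 ≤ childLegs σ q (G A - δ) 0 1 := by
        rw [l1]; have := hleg 1 2 (by decide); linarith
      have n2 : 0 ≤ childLegs σ q (G A - δ) 0 2 := by
        rw [l2]; have := hleg 2 1 (by decide); linarith
      have hP := P3_le_jform n0 n1 n2 hf
      have D01 : childDist d x 0 0 1 = x 1 := by simp [childDist]
      have D02 : childDist d x 0 0 2 = x 2 := by simp [childDist]
      have D12 : childDist d x 0 1 2 = d 1 2 := by simp [childDist]
      rw [psiF_eq, D01, D02, D12]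
      rw [l0, l1, l2] at hP ⊢
      linarith
    · obtain ⟨l1, l0, l2⟩ := hlegs 1 0 2 (by decide) (by decide) (by decide)
      refine child_inv hm hI hG hleg (i := 0) (j := 2) (by decide) (by decide) (by decide)
        l1 l0 l2 ?_
      obtain ⟨f, hf, hfle⟩ := hG.J 1 0 2 (by decide) (by decide) (by decide)
      rw [← l1, ← l0, ← l2] at hf
      have n1 : 0 ≤ childLegs σ q (G A - δ) 1 1 := by
        rw [l1]; have := hG.legw 0 2 (by decide); linarith
      have n0 : 0 ≤ childLegs σ q (G A - δ) 1 0 := by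
        rw [l0]; have := hleg 0 2 (by decide); linarith
      have n2 : 0 ≤ childLegs σ q (G A - δ) 1 2 := by
        rw [l2]; have := hleg 2 0 (by decide); linarith
      have hP := P3_le_jform n1 n0 n2 hf
      rw [P3_swap12] at hP
      have D01 : childDist d x 1 0 1 = x 0 := by simp [childDist]
      have D02 : childDist d x 1 0 2 = d 0 2 := by simp [childDist]
      have D12 : childDist d x 1 1 2 = x 2 := by simp [childDist]
      rw [psiF_eq, D01, D02, D12]
      rw [l0, l1, l2] at hP ⊢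
      linarith
    · obtain ⟨l2, l0, l1⟩ := hlegs 2 0 1 (by decide) (by decide) (by decide)
      refine child_inv hm hI hG hleg (i := 0) (j := 1) (by decide) (by decide) (by decide)
        l2 l0 l1 ?_
      obtain ⟨f, hf, hfle⟩ := hG.J 2 0 1 (by decide) (by decide) (by decide)
      rw [← l2, ← l0, ← l1] at hf
      have n2 : 0 ≤ childLegs σ q (G A - δ) 2 2 := by
        rw [l2]; have := hG.legw 0 1 (by decide); linarith
      have n0 : 0 ≤ childLegs σ q (G A - δ) 2 0 := by
        rw [l0]; have := hleg 0 1 (by decide); linarith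
      have n1 : 0 ≤ childLegs σ q (G A - δ) 2 1 := by
        rw [l1]; have := hleg 1 0 (by decide); linarith
      have hP := P3_le_jform n2 n0 n1 hf
      rw [P3_swap12, P3_swap23] at hP
      have D01 : childDist d x 2 0 1 = d 0 1 := by simp [childDist]
      have D02 : childDist d x 2 0 2 = x 0 := by simp [childDist]
      have D12 : childDist d x 2 1 2 = x 1 := by simp [childDist]
      rw [psiF_eq, D01, D02, D12]
      rw [l0, l1, l2] at hP ⊢
      linarith

/-! ### Relabeling -/

theorem perm_values {A u v : Fin 3} (h1 : A ≠ u) (h2 : A ≠ v) (h3 : u ≠ v) :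
    (A = 0 ∧ u = 1 ∧ v = 2) ∨ (A = 0 ∧ u = 2 ∧ v = 1) ∨ (A = 1 ∧ u = 0 ∧ v = 2) ∨
      (A = 1 ∧ u = 2 ∧ v = 0) ∨ (A = 2 ∧ u = 0 ∧ v = 1) ∨ (A = 2 ∧ u = 1 ∧ v = 0) := by
  revert A u v; decide

theorem P3_cyc1 (a b c : ℝ) : P3 b c a = P3 a b c := by
  simp only [P3]; rw [min_comm c a, min_left_comm b a c]; ring

theorem P3_cyc2 (a b c : ℝ) : P3 c a b = P3 a b c := by
  simp only [P3]; rw [min_left_comm c a b, min_comm c b]; ring

theorem P3_rev (a b c : ℝ) : P3 c b a = P3 a b c := by
  rw [P3_swap23 c a b, P3_cyc2]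

theorem tripleInv_relabel (π : Equiv.Perm (Fin 3)) {l : Fin 3 → ℝ} {D : Fin 3 → Fin 3 → ℝ}
    (hsym : ∀ i j, D i j = D j i)
    (h : TripleInv (fun i => l (π i)) (fun i j => D (π i) (π j))) : TripleInv l D := by
  have hne : ∀ {a b : Fin 3}, a ≠ b → π.symm a ≠ π.symm b := fun hab => π.symm.injective.ne hab
  refine ⟨fun i => ?_, fun i j hij => ?_, fun i j hij => ?_, fun A b c h1 h2 h3 => ?_, ?_⟩
  · have := h.sig_nonneg (π.symm i)
    simpa using this
  · have := h.ceil (π.symm i) (π.symm j) (hne hij)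
    simpa using this
  · have := h.floor (π.symm i) (π.symm j) (hne hij)
    simpa using this
  · have := h.apex (π.symm A) (π.symm b) (π.symm c) (hne h1) (hne h2) (hne h3)
    simpa using this
  · have hJ : 2 * P3 (l (π 0)) (l (π 1)) (l (π 2)) ≤
        (D (π 0) (π 1) - l (π 0) - l (π 1)) + (D (π 0) (π 2) - l (π 0) - l (π 2)) +
        (D (π 1) (π 2) - l (π 1) - l (π 2)) := h.J
    rw [psiF_eq]
    have h01 : π 0 ≠ π 1 := π.injective.ne (by decide)
    have h02 : π 0 ≠ π 2 := π.injective.ne (by decide)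
    have h12 : π 1 ≠ π 2 := π.injective.ne (by decide)
    rcases perm_values h01 h02 h12 with ⟨e0, e1, e2⟩ | ⟨e0, e1, e2⟩ | ⟨e0, e1, e2⟩ | ⟨e0, e1, e2⟩ |
      ⟨e0, e1, e2⟩ | ⟨e0, e1, e2⟩ <;> rw [e0, e1, e2] at hJ
    · linarith
    · rw [P3_swap23, hsym 2 1] at hJ; linarith
    · rw [P3_swap12, hsym 1 0] at hJ; linarith
    · rw [P3_cyc1, hsym 1 0, hsym 2 0] at hJ; linarith
    · rw [P3_cyc2, hsym 2 0, hsym 2 1] at hJ; linarith
    · rw [P3_rev, hsym 2 1, hsym 2 0, hsym 1 0] at hJ; linarith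

theorem childDist_symm {d : Fin 3 → Fin 3 → ℝ} {x : Fin 3 → ℝ} (hd : ∀ i j, d i j = d j i)
    (c i j : Fin 3) : childDist d x c i j = childDist d x c j i := by
  unfold childDist
  by_cases hi : i = c <;> by_cases hj : j = c
  · simp [hi, hj]
  · simp [hi, hj]
  · simp [hi, hj]
  · simp [hi, hj, hd i j]

/-- relabeling -/
theorem closure_of_perm (π : Equiv.Perm (Fin 3)) (σ : Fin 3 → ℝ) (d : Fin 3 → Fin 3 → ℝ) (x : Fin 3 → ℝ)
    (hm : Metric4 d x)
    (h : ∃ (s : ℝ) (q : Fin 3 → ℝ), ActionOK (fun i => σ (π i)) (fun i => x (π i)) q s ∧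
      ∀ c, TripleInv (childLegs (fun i => σ (π i)) q s c) (childDist (fun i j => d (π i) (π j)) (fun i => x (π i)) c)) :
    ∃ (s : ℝ) (q : Fin 3 → ℝ), ActionOK σ x q s ∧
      ∀ c, TripleInv (childLegs σ q s c) (childDist d x c) := by
  obtain ⟨s, q', hA, hC⟩ := h
  have h01 : π 0 ≠ π 1 := π.injective.ne (by decide)
  have h02 : π 0 ≠ π 2 := π.injective.ne (by decide)
  have h12 : π 1 ≠ π 2 := π.injective.ne (by decide)
  have psum : ∀ F : Fin 3 → ℝ, F 0 + F 1 + F 2 = F (π 0) + F (π 1) + F (π 2) := sum3 h01 h02 h12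
  obtain ⟨q, hq⟩ : ∃ q : Fin 3 → ℝ, ∀ i, q i = q' (π.symm i) := ⟨_, fun _ => rfl⟩
  have hqπ : ∀ i, q (π i) = q' i := fun i => by rw [hq]; simp
  have hkap : kapSum σ q = kapSum (fun i => σ (π i)) q' := by
    unfold kapSum
    have := psum (fun i => q i * σ i)
    simp only [hqπ] at this
    exact this
  refine ⟨s, q, ?_, fun c => ?_⟩
  · refine ⟨hA.s_nonneg, fun i => ?_, ?_, fun i => ?_, fun i => ?_, fun z => ?_⟩
    · rw [hq]; exact hA.q_nonneg _
    · have := psum q
      simp only [hqπ] at this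
      rw [this]; exact hA.q_sum
    · have := hA.floor (π.symm i)
      simp only [Equiv.apply_symm_apply] at this
      unfold tauF at this ⊢
      rw [hkap, hq]
      simpa using this
    · have := hA.ceil (π.symm i)
      simp only [Equiv.apply_symm_apply] at this
      unfold tauF at this ⊢
      rw [hkap, hq]
      simpa using this
    · have := hA.lc (π.symm z)
      simp only [Equiv.apply_symm_apply] at this
      rw [hkap, hq]
      refine le_trans ?_ this
      exact le_min (Dval_le σ x (π 0)) (le_min (Dval_le σ x (π 1)) (Dval_le σ x (π 2)))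
  · refine tripleInv_relabel π (childDist_symm hm.symm c) ?_
    have e1 : (fun i => childLegs σ q s c (π i)) =
        childLegs (fun i => σ (π i)) q' s (π.symm c) := by
      funext i
      unfold childLegs
      by_cases hi : π i = c
      · have hi' : i = π.symm c := by rw [← hi]; simp
        rw [if_pos hi, if_pos hi', hq]
        simp
      · have hi' : ¬ i = π.symm c := fun h' => hi (by rw [h']; simp)
        rw [if_neg hi, if_neg hi', hkap, hq c, hqπ]
        simp
    have e2 : (fun i j => childDist d x c (π i) (π j)) =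
        childDist (fun i j => d (π i) (π j)) (fun i => x (π i)) (π.symm c) := by
      funext i j
      unfold childDist
      have hi : π i = c ↔ i = π.symm c := by
        constructor
        · intro h'; rw [← h']; simp
        · intro h'; rw [h']; simp
      have hj : π j = c ↔ j = π.symm c := by
        constructor
        · intro h'; rw [← h']; simp
        · intro h'; rw [h']; simp
      simp only [hi, hj]
    rw [e1, e2]
    exact hC _

end

end Vale.Agent.Lib.P235.UB
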