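import Vale.Agent.Lib.P235.UB.CertRun
import Vale.Agent.Lib.P235.UB.CertSound
import Vale.Agent.Lib.P235.UB.CertProg
import Vale.Agent.Lib.P235.UB.ClosureGoals

/-! From the checks to the goals `GoalsT` (module T5), part A: stage soundness and input facts. -/

namespace Vale.Agent.Lib.P235.UB.Cert

set_option linter.unusedSimpArgs false

noncomputable section

/-- reading the base variables of an assignment -/
def zS (z : ℕ → ℝ) : Fin 3 → ℝ := fun i => z (3 + i.1)
def zX (z : ℕ → ℝ) : Fin 3 → ℝ := fun i => z (6 + i.1)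
def zDv (z : ℕ → ℝ) : Fin 3 → Fin 3 → ℝ := fun i j =>
  if i = j then 0 else if (i.1 + j.1 = 1) then z 0 else if (i.1 + j.1 = 2) then z 1 else z 2

/-- the initial assignment -/
def zInit (σ : Fin 3 → ℝ) (d : Fin 3 → Fin 3 → ℝ) (x : Fin 3 → ℝ) : ℕ → ℝ
  | 0 => d 0 1 | 1 => d 0 2 | 2 => d 1 2
  | 3 => σ 0 | 4 => σ 1 | 5 => σ 2
  | 6 => x 0 | 7 => x 1 | 8 => x 2
  | _ => 0

theorem mkGts_mem (K : Nat) : ∀ (goals : List (List Form)) (trees : List Tree)
    (gts : List (List Form × List PF × Tree)), mkGts K goals trees = some gts →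
    ∀ g ∈ goals, ∃ gt ∈ gts, gt.1 = g
  | [], [], _, _, _, hg => by simp at hg
  | [], _ :: _, _, h, _, _ => by simp [mkGts] at h
  | _ :: _, [], _, h, _, _ => by simp [mkGts] at h
  | g0 :: gs, t :: ts, gts, h, g, hg => by
    simp only [mkGts, Option.map_eq_some_iff] at h
    obtain ⟨r, hr, rfl⟩ := h
    rcases List.mem_cons.1 hg with rfl | hg
    · exact ⟨_, List.mem_cons_self, rfl⟩
    · obtain ⟨gt, hgt, e⟩ := mkGts_mem K gs ts r hr g hg
      exact ⟨gt, List.mem_cons_of_mem _ hgt, e⟩

theorem chkStage_sound (K : Nat) (hK : 25 ≤ K) (s : St) (goals : List (List Form)) (trees : List Tree)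
    (h : chkStage K s goals trees = true) (z : ℕ → ℝ) (hz : St.holds z s) :
    ∀ g ∈ goals, ∃ f ∈ g, 0 ≤ ev z f := by
  unfold chkStage at h
  split at h
  · simp at h
  · rename_i gts hgts
    intro g hg
    obtain ⟨gt, hgt, rfl⟩ := mkGts_mem K _ _ _ hgts g hg
    exact chkAll_sound K hK s _ _ gts h z hz gt hgt

/-- value of a sparse form -/
theorem ev_mk_nil (z : ℕ → ℝ) : ev z (mk []) = 0 := rfl

theorem ev_mk_cons (z : ℕ → ℝ) (n : ℕ) (c : Int) (l : List (ℕ × Int)) :
    ev z (mk ((n, c) :: l)) = (c : ℝ) * z n + ev z (mk l) := by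
  show ev z (fadd (fvar n c) (mk l)) = _
  rw [ev_fadd, ev_fvar]

section zInitLemmas
variable (σ : Fin 3 → ℝ) (d : Fin 3 → Fin 3 → ℝ) (x : Fin 3 → ℝ)
@[simp] theorem zInit0 : zInit σ d x 0 = d 0 1 := rfl
@[simp] theorem zInit1 : zInit σ d x 1 = d 0 2 := rfl
@[simp] theorem zInit2 : zInit σ d x 2 = d 1 2 := rfl
@[simp] theorem zInit3 : zInit σ d x 3 = σ 0 := rfl
@[simp] theorem zInit4 : zInit σ d x 4 = σ 1 := rfl
@[simp] theorem zInit5 : zInit σ d x 5 = σ 2 := rfl
@[simp] theorem zInit6 : zInit σ d x 6 = x 0 := rfl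
@[simp] theorem zInit7 : zInit σ d x 7 = x 1 := rfl
@[simp] theorem zInit8 : zInit σ d x 8 = x 2 := rfl
end zInitLemmas

theorem opt_nl (z : ℕ → ℝ) (f : Form) (h : 0 ≤ ev z f) : Opt.holds z [nl f] := by
  intro l hl
  rcases List.mem_singleton.1 hl with rfl
  simpa [Lit.holds, nl] using h

/-- the input facts hold -/
theorem init_holds (σ : Fin 3 → ℝ) (d : Fin 3 → Fin 3 → ℝ) (x : Fin 3 → ℝ)
    (hm : Metric4 d x) (hI : TripleInv σ d) : St.holds (zInit σ d x) (st0 []) := by
  have h10 : d 1 0 = d 0 1 := hm.symm 1 0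
  have h20 : d 2 0 = d 0 2 := hm.symm 2 0
  have h21 : d 2 1 = d 1 2 := hm.symm 2 1
  have hs0 := hI.sig_nonneg 0
  have hs1 := hI.sig_nonneg 1
  have hs2 := hI.sig_nonneg 2
  constructor
  · intro f hf
    simp only [st0, List.append_nil, inputFacts, List.mem_cons, List.not_mem_nil, or_false] at hf
    have t1 := hm.tri 1 0 2
    have t2 := hm.tri 0 1 2
    have t3 := hm.tri 0 2 1
    have l1 := hm.low 1 2
    have l2 := hm.low 0 2
    have l3 := hm.low 0 1
    have u1 := hm.up 0 1
    have u2 := hm.up 0 2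
    have u3 := hm.up 1 0
    have u4 := hm.up 1 2
    have u5 := hm.up 2 0
    have u6 := hm.up 2 1
    have c1 := hI.ceil 0 1 (by decide)
    have c2 := hI.ceil 0 2 (by decide)
    have c3 := hI.ceil 1 2 (by decide)
    have f1 := hI.floor 0 1 (by decide)
    have f2 := hI.floor 0 2 (by decide)
    have f3 := hI.floor 1 2 (by decide)
    rw [h10] at t1 u3
    rw [h20] at u5
    rw [h21] at t3 u6
    rcases hf with rfl | rfl | rfl | rfl | rfl | rfl | rfl | rfl | rfl | rfl | rfl | rfl | rfl |
      rfl | rfl | rfl | rfl | rfl | rfl | rfl | rfl <;>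
    · simp only [ev_mk_cons, ev_mk_nil, zInit0, zInit1, zInit2, zInit3, zInit4, zInit5, zInit6,
        zInit7, zInit8, Int.cast_one, Int.cast_neg, Int.cast_ofNat]
      linarith
  · intro c hc
    simp only [st0, inputClauses, List.mem_cons, List.not_mem_nil, or_false] at hc
    have apex012 := hI.apex 0 1 2 (by decide) (by decide) (by decide)
    have apex102 := hI.apex 1 0 2 (by decide) (by decide) (by decide)
    have apex201 := hI.apex 2 0 1 (by decide) (by decide) (by decide)
    have hJ := input_J σ d hI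
    simp only [jforms, List.mem_cons, List.not_mem_nil, or_false, exists_eq_or_imp,
      exists_eq_left] at hJ
    rw [h10] at apex102
    rw [h20, h21] at apex201
    rcases hc with rfl | rfl | rfl | rfl
    · rcases apex012 with h | h | h
      · exact ⟨_, List.mem_cons_self, opt_nl _ _ (by
          simp only [ev_mk_cons, ev_mk_nil, zInit0, zInit1, zInit2, zInit3, zInit4, zInit5, zInit6,
            zInit7, zInit8, Int.cast_one, Int.cast_neg, Int.cast_ofNat]
          linarith)⟩
      · exact ⟨_, List.mem_cons_of_mem _ List.mem_cons_self, opt_nl _ _ (by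
          simp only [ev_mk_cons, ev_mk_nil, zInit0, zInit1, zInit2, zInit3, zInit4, zInit5, zInit6,
            zInit7, zInit8, Int.cast_one, Int.cast_neg, Int.cast_ofNat]
          linarith)⟩
      · exact ⟨_, List.mem_cons_of_mem _ (List.mem_cons_of_mem _ List.mem_cons_self), opt_nl _ _ (by
          simp only [ev_mk_cons, ev_mk_nil, zInit0, zInit1, zInit2, zInit3, zInit4, zInit5, zInit6,
            zInit7, zInit8, Int.cast_one, Int.cast_neg, Int.cast_ofNat]
          linarith)⟩
    · rcases apex102 with h | h | h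
      · exact ⟨_, List.mem_cons_self, opt_nl _ _ (by
          simp only [ev_mk_cons, ev_mk_nil, zInit0, zInit1, zInit2, zInit3, zInit4, zInit5, zInit6,
            zInit7, zInit8, Int.cast_one, Int.cast_neg, Int.cast_ofNat]
          linarith)⟩
      · exact ⟨_, List.mem_cons_of_mem _ List.mem_cons_self, opt_nl _ _ (by
          simp only [ev_mk_cons, ev_mk_nil, zInit0, zInit1, zInit2, zInit3, zInit4, zInit5, zInit6,
            zInit7, zInit8, Int.cast_one, Int.cast_neg, Int.cast_ofNat]
          linarith)⟩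
      · exact ⟨_, List.mem_cons_of_mem _ (List.mem_cons_of_mem _ List.mem_cons_self), opt_nl _ _ (by
          simp only [ev_mk_cons, ev_mk_nil, zInit0, zInit1, zInit2, zInit3, zInit4, zInit5, zInit6,
            zInit7, zInit8, Int.cast_one, Int.cast_neg, Int.cast_ofNat]
          linarith)⟩
    · rcases apex201 with h | h | h
      · exact ⟨_, List.mem_cons_self, opt_nl _ _ (by
          simp only [ev_mk_cons, ev_mk_nil, zInit0, zInit1, zInit2, zInit3, zInit4, zInit5, zInit6,
            zInit7, zInit8, Int.cast_one, Int.cast_neg, Int.cast_ofNat]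
          linarith)⟩
      · exact ⟨_, List.mem_cons_of_mem _ List.mem_cons_self, opt_nl _ _ (by
          simp only [ev_mk_cons, ev_mk_nil, zInit0, zInit1, zInit2, zInit3, zInit4, zInit5, zInit6,
            zInit7, zInit8, Int.cast_one, Int.cast_neg, Int.cast_ofNat]
          linarith)⟩
      · exact ⟨_, List.mem_cons_of_mem _ (List.mem_cons_of_mem _ List.mem_cons_self), opt_nl _ _ (by
          simp only [ev_mk_cons, ev_mk_nil, zInit0, zInit1, zInit2, zInit3, zInit4, zInit5, zInit6,
            zInit7, zInit8, Int.cast_one, Int.cast_neg, Int.cast_ofNat]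
          linarith)⟩
    · rcases hJ with h | h | h | h | h | h | h | h | h | h
      · exact ⟨_, List.mem_cons_self, opt_nl _ _ (by
          simp only [ev_mk_cons, ev_mk_nil, zInit0, zInit1, zInit2, zInit3, zInit4, zInit5, zInit6,
            zInit7, zInit8, Int.cast_one, Int.cast_neg, Int.cast_ofNat]
          linarith)⟩
      · exact ⟨_, List.mem_cons_of_mem _ (List.mem_cons_self), opt_nl _ _ (by
          simp only [ev_mk_cons, ev_mk_nil, zInit0, zInit1, zInit2, zInit3, zInit4, zInit5, zInit6,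
            zInit7, zInit8, Int.cast_one, Int.cast_neg, Int.cast_ofNat]
          linarith)⟩
      · exact ⟨_, List.mem_cons_of_mem _ (List.mem_cons_of_mem _ (List.mem_cons_self)), opt_nl _ _ (by
          simp only [ev_mk_cons, ev_mk_nil, zInit0, zInit1, zInit2, zInit3, zInit4, zInit5, zInit6,
            zInit7, zInit8, Int.cast_one, Int.cast_neg, Int.cast_ofNat]
          linarith)⟩
      · exact ⟨_, List.mem_cons_of_mem _ (List.mem_cons_of_mem _ (List.mem_cons_of_mem _ (List.mem_cons_self))), opt_nl _ _ (by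
          simp only [ev_mk_cons, ev_mk_nil, zInit0, zInit1, zInit2, zInit3, zInit4, zInit5, zInit6,
            zInit7, zInit8, Int.cast_one, Int.cast_neg, Int.cast_ofNat]
          linarith)⟩
      · exact ⟨_, List.mem_cons_of_mem _ (List.mem_cons_of_mem _ (List.mem_cons_of_mem _ (List.mem_cons_of_mem _ (List.mem_cons_self)))), opt_nl _ _ (by
          simp only [ev_mk_cons, ev_mk_nil, zInit0, zInit1, zInit2, zInit3, zInit4, zInit5, zInit6,
            zInit7, zInit8, Int.cast_one, Int.cast_neg, Int.cast_ofNat]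
          linarith)⟩
      · exact ⟨_, List.mem_cons_of_mem _ (List.mem_cons_of_mem _ (List.mem_cons_of_mem _ (List.mem_cons_of_mem _ (List.mem_cons_of_mem _ (List.mem_cons_self))))), opt_nl _ _ (by
          simp only [ev_mk_cons, ev_mk_nil, zInit0, zInit1, zInit2, zInit3, zInit4, zInit5, zInit6,
            zInit7, zInit8, Int.cast_one, Int.cast_neg, Int.cast_ofNat]
          linarith)⟩
      · exact ⟨_, List.mem_cons_of_mem _ (List.mem_cons_of_mem _ (List.mem_cons_of_mem _ (List.mem_cons_of_mem _ (List.mem_cons_of_mem _ (List.mem_cons_of_mem _ (List.mem_cons_self)))))), opt_nl _ _ (by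
          simp only [ev_mk_cons, ev_mk_nil, zInit0, zInit1, zInit2, zInit3, zInit4, zInit5, zInit6,
            zInit7, zInit8, Int.cast_one, Int.cast_neg, Int.cast_ofNat]
          linarith)⟩
      · exact ⟨_, List.mem_cons_of_mem _ (List.mem_cons_of_mem _ (List.mem_cons_of_mem _ (List.mem_cons_of_mem _ (List.mem_cons_of_mem _ (List.mem_cons_of_mem _ (List.mem_cons_of_mem _ (List.mem_cons_self))))))), opt_nl _ _ (by
          simp only [ev_mk_cons, ev_mk_nil, zInit0, zInit1, zInit2, zInit3, zInit4, zInit5, zInit6,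
            zInit7, zInit8, Int.cast_one, Int.cast_neg, Int.cast_ofNat]
          linarith)⟩
      · exact ⟨_, List.mem_cons_of_mem _ (List.mem_cons_of_mem _ (List.mem_cons_of_mem _ (List.mem_cons_of_mem _ (List.mem_cons_of_mem _ (List.mem_cons_of_mem _ (List.mem_cons_of_mem _ (List.mem_cons_of_mem _ (List.mem_cons_self)))))))), opt_nl _ _ (by
          simp only [ev_mk_cons, ev_mk_nil, zInit0, zInit1, zInit2, zInit3, zInit4, zInit5, zInit6,
            zInit7, zInit8, Int.cast_one, Int.cast_neg, Int.cast_ofNat]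
          linarith)⟩
      · exact ⟨_, List.mem_cons_of_mem _ (List.mem_cons_of_mem _ (List.mem_cons_of_mem _ (List.mem_cons_of_mem _ (List.mem_cons_of_mem _ (List.mem_cons_of_mem _ (List.mem_cons_of_mem _ (List.mem_cons_of_mem _ (List.mem_cons_of_mem _ (List.mem_cons_self))))))))), opt_nl _ _ (by
          simp only [ev_mk_cons, ev_mk_nil, zInit0, zInit1, zInit2, zInit3, zInit4, zInit5, zInit6,
            zInit7, zInit8, Int.cast_one, Int.cast_neg, Int.cast_ofNat]
          linarith)⟩

theorem st0_holds_append (z : ℕ → ℝ) (r : List Form) (h : St.holds z (st0 []))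
    (hr : ∀ f ∈ r, 0 ≤ ev z f) : St.holds z (st0 r) := by
  refine ⟨?_, h.2⟩
  intro f hf
  simp only [st0, List.mem_append] at hf
  rcases hf with hf | hf
  · exact h.1 f (by simpa [st0] using hf)
  · exact hr f hf

/-- regime A: the `y` are sorted and nonnegative -/
theorem regA_holds (σ : Fin 3 → ℝ) (d : Fin 3 → Fin 3 → ℝ) (x : Fin 3 → ℝ)
    (hm : Metric4 d x) (hI : TripleInv σ d)
    (h01 : x 1 - σ 1 ≤ x 0 - σ 0) (h12 : x 2 - σ 2 ≤ x 1 - σ 1) (h2 : 0 ≤ x 2 - σ 2) :
    St.holds (zInit σ d x) (st0 regimeFactsA) := by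
  refine st0_holds_append _ _ (init_holds σ d x hm hI) ?_
  intro f hf
  simp only [regimeFactsA, List.mem_cons, List.not_mem_nil, or_false] at hf
  rcases hf with rfl | rfl | rfl <;>
  · simp only [ev_mk_cons, ev_mk_nil, zInit0, zInit1, zInit2, zInit3, zInit4, zInit5, zInit6,
      zInit7, zInit8, Int.cast_one, Int.cast_neg, Int.cast_ofNat]
    linarith

/-- regime B: `y_0 ≤ 0`, `y_2 ≤ y_1` -/
theorem regB_holds (σ : Fin 3 → ℝ) (d : Fin 3 → Fin 3 → ℝ) (x : Fin 3 → ℝ)
    (hm : Metric4 d x) (hI : TripleInv σ d)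
    (h0 : x 0 - σ 0 ≤ 0) (h12 : x 2 - σ 2 ≤ x 1 - σ 1) :
    St.holds (zInit σ d x) (st0 regimeFactsB) := by
  refine st0_holds_append _ _ (init_holds σ d x hm hI) ?_
  intro f hf
  simp only [regimeFactsB, List.mem_cons, List.not_mem_nil, or_false] at hf
  rcases hf with rfl | rfl <;>
  · simp only [ev_mk_cons, ev_mk_nil, zInit0, zInit1, zInit2, zInit3, zInit4, zInit5, zInit6,
      zInit7, zInit8, Int.cast_one, Int.cast_neg, Int.cast_ofNat]
    linarith

end

end Vale.Agent.Lib.P235.UB.Cert
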