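import Vale.Agent.Lib.P235.UB.CertFlowA

/-! From the checks to the goals `GoalsT` (module T5), part B: the bridge from goal lists to the fields of `GoalsT`. -/

namespace Vale.Agent.Lib.P235.UB.Cert

set_option linter.unusedSimpArgs false

noncomputable section

/-- the wall condition of `GoalsT` -/
def WallP (σ T : Fin 3 → ℝ) (A u v : Fin 3) : Prop :=
  ∃ qu : ℝ, 0 ≤ qu ∧ qu ≤ 1 ∧ qu * (σ u + σ v) = σ v + (T v - T u) / 2 ∧
    T A ≤ (T u + T v) / 2 + qu * σ u + (1 - qu) * σ v

section zLemmas
variable (z : ℕ → ℝ)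
theorem zS0 : zS z 0 = z 3 := rfl
theorem zS1 : zS z 1 = z 4 := rfl
theorem zS2 : zS z 2 = z 5 := rfl
theorem zX0 : zX z 0 = z 6 := rfl
theorem zX1 : zX z 1 = z 7 := rfl
theorem zX2 : zX z 2 = z 8 := rfl
theorem zD01 : zDv z 0 1 = z 0 := by simp [zDv]
theorem zD10 : zDv z 1 0 = z 0 := by simp [zDv]
theorem zD02 : zDv z 0 2 = z 1 := by simp [zDv]
theorem zD20 : zDv z 2 0 = z 1 := by simp [zDv]
theorem zD12 : zDv z 1 2 = z 2 := by simp [zDv]
theorem zD21 : zDv z 2 1 = z 2 := by simp [zDv]
end zLemmas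

theorem fin3_all {P : Fin 3 → Prop} (h0 : P 0) (h1 : P 1) (h2 : P 2) : ∀ i, P i := by
  intro i
  match i with
  | 0 => exact h0
  | 1 => exact h1
  | 2 => exact h2

theorem fin3_ne {P : Fin 3 → Fin 3 → Prop} (h01 : P 0 1) (h02 : P 0 2) (h10 : P 1 0) (h12 : P 1 2)
    (h20 : P 2 0) (h21 : P 2 1) : ∀ i j, i ≠ j → P i j := by
  intro i j hij
  match i, j, hij with
  | 0, 1, _ => exact h01
  | 0, 2, _ => exact h02
  | 1, 0, _ => exact h10
  | 1, 2, _ => exact h12
  | 2, 0, _ => exact h20
  | 2, 1, _ => exact h21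
  | 0, 0, h => exact absurd rfl h
  | 1, 1, h => exact absurd rfl h
  | 2, 2, h => exact absurd rfl h

theorem fin3_lt {P : Fin 3 → Fin 3 → Prop} (h01 : P 0 1) (h02 : P 0 2) (h12 : P 1 2) :
    ∀ i j, i < j → P i j := by
  intro i j hij
  match i, j, hij with
  | 0, 1, _ => exact h01
  | 0, 2, _ => exact h02
  | 1, 2, _ => exact h12
  | 0, 0, h => exact absurd h (by decide)
  | 1, 1, h => exact absurd h (by decide)
  | 2, 2, h => exact absurd h (by decide)
  | 1, 0, h => exact absurd h (by decide)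
  | 2, 0, h => exact absurd h (by decide)
  | 2, 1, h => exact absurd h (by decide)

theorem fin3_k {P : Fin 3 → Fin 3 → Fin 3 → Prop} (h201 : P 2 0 1) (h102 : P 1 0 2) (h012 : P 0 1 2) :
    ∀ k i j, i < j → k ≠ i → k ≠ j → P k i j := by
  intro k i j hij hki hkj
  revert hij hki hkj
  revert k i j
  have key : ∀ k i j : Fin 3, i < j → k ≠ i → k ≠ j →
      (k = 2 ∧ i = 0 ∧ j = 1) ∨ (k = 1 ∧ i = 0 ∧ j = 2) ∨ (k = 0 ∧ i = 1 ∧ j = 2) := by decide
  intro k i j hij hki hkj
  rcases key k i j hij hki hkj with ⟨rfl, rfl, rfl⟩ | ⟨rfl, rfl, rfl⟩ | ⟨rfl, rfl, rfl⟩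
  · exact h201
  · exact h102
  · exact h012

theorem fin3_kij {P : Fin 3 → Fin 3 → Fin 3 → Prop} (h012 : P 0 1 2) (h021 : P 0 2 1) (h102 : P 1 0 2)
    (h120 : P 1 2 0) (h201 : P 2 0 1) (h210 : P 2 1 0) :
    ∀ k i j, k ≠ i → k ≠ j → i ≠ j → P k i j := by
  have key : ∀ k i j : Fin 3, k ≠ i → k ≠ j → i ≠ j →
      (k = 0 ∧ i = 1 ∧ j = 2) ∨ (k = 0 ∧ i = 2 ∧ j = 1) ∨ (k = 1 ∧ i = 0 ∧ j = 2) ∨
      (k = 1 ∧ i = 2 ∧ j = 0) ∨ (k = 2 ∧ i = 0 ∧ j = 1) ∨ (k = 2 ∧ i = 1 ∧ j = 0) := by decide
  intro k i j hki hkj hij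
  rcases key k i j hki hkj hij with ⟨rfl, rfl, rfl⟩ | ⟨rfl, rfl, rfl⟩ | ⟨rfl, rfl, rfl⟩ |
    ⟨rfl, rfl, rfl⟩ | ⟨rfl, rfl, rfl⟩ | ⟨rfl, rfl, rfl⟩
  · exact h012
  · exact h021
  · exact h102
  · exact h120
  · exact h201
  · exact h210

theorem or3 {a b c a' b' c' : Prop} (h : a ∨ b ∨ c) (ha : a → a') (hb : b → b') (hc : c → c') :
    a' ∨ b' ∨ c' := h.imp ha (Or.imp hb hc)

/-- the ten options of a `J` goal -/
theorem J_pick (dij si sj xi xj ti tj : ℝ)
    (h : 0 ≤ 1 * dij + (-4 * si + (-4 * sj + (1 * xi + (1 * xj + (-2 * ti + (-2 * tj + 0)))))) ∨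
      0 ≤ 1 * dij + (-2 * si + (-2 * sj + (1 * xi + (1 * xj + (-6 * ti + (-6 * tj + 0)))))) ∨
      0 ≤ 1 * dij + (-12 * si + (-2 * sj + (1 * xi + (1 * xj + (-6 * ti + (4 * tj + 0)))))) ∨
      0 ≤ 1 * dij + (-2 * si + (-12 * sj + (1 * xi + (1 * xj + (4 * ti + (-6 * tj + 0)))))) ∨
      0 ≤ 1 * dij + (-4 * si + (-2 * sj + (1 * xi + (1 * xj + (-5 * ti + (-3 * tj + 0)))))) ∨
      0 ≤ 1 * dij + (-2 * si + (-4 * sj + (1 * xi + (1 * xj + (-3 * ti + (-5 * tj + 0)))))) ∨
      0 ≤ 1 * dij + (-8 * si + (-2 * sj + (1 * xi + (1 * xj + (-5 * ti + (1 * tj + 0)))))) ∨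
      0 ≤ 1 * dij + (-8 * si + (-4 * sj + (1 * xi + (1 * xj + (-3 * ti + (1 * tj + 0)))))) ∨
      0 ≤ 1 * dij + (-2 * si + (-8 * sj + (1 * xi + (1 * xj + (1 * ti + (-5 * tj + 0)))))) ∨
      0 ≤ 1 * dij + (-4 * si + (-8 * sj + (1 * xi + (1 * xj + (1 * ti + (-3 * tj + 0))))))) :
    ∃ f ∈ jforms ![(ti + tj) / 2, si + (ti - tj) / 2, sj + (tj - ti) / 2],
      2 * f ≤ (xi - si - ti) + (xj - sj - tj) + (dij - si - sj) := by
  simp only [jforms, List.mem_cons, List.not_mem_nil, or_false, exists_eq_or_imp, exists_eq_left,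
    Matrix.cons_val_zero, Matrix.cons_val_one, Matrix.cons_val]
  rcases h with h | h | h | h | h | h | h | h | h | h
  · left; linarith
  · right; left; linarith
  · right; right; left; linarith
  · right; right; right; left; linarith
  · right; right; right; right; left; linarith
  · right; right; right; right; right; left; linarith
  · right; right; right; right; right; right; left; linarith
  · right; right; right; right; right; right; right; left; linarith
  · right; right; right; right; right; right; right; right; left; linarith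
  · right; right; right; right; right; right; right; right; right; linarith

theorem bridge0 (z : ℕ → ℝ) (t : Fin 3 → ℕ) (u v : Fin 3) (huv : (u = 1 ∧ v = 2) ∨ (u = 2 ∧ v = 1))
    (hD : z 9 = Dval (zS z) (zX z))
    (H : ∀ g ∈ goalList0 (t 0) (t 1) (t 2), ∃ f ∈ g, 0 ≤ ev z f) :
    (∀ i j, i ≠ j → j ≠ 0 → 0 ≤ 2 * zS z i + z (t i) - z (t j)) ∧
    (WallP (zS z) (fun i => z (t i)) 0 u v →
      GoalsT (zS z) (zDv z) (zX z) (fun i => z (t i)) 0 u v) := by
  simp only [goalList0, List.mem_cons, List.not_mem_nil, or_false, forall_eq_or_imp, forall_eq,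
    exists_eq_or_imp, exists_eq_left, ev_mk_cons, ev_mk_nil, Int.cast_one, Int.cast_neg,
    Int.cast_ofNat] at H
  obtain ⟨h1, h2, h3, h4, h5, h6, h7, h8, h9, h10, h11, h12, h13, h14, h15, h16, h17, h18, h19, h20, h21, h22, h23, h24, h25, h26, h27, h28, h29, h30, h31, h32, h33, h34, h35, h36⟩ := H
  have hL : ∀ i j, i ≠ j → j ≠ 0 → 0 ≤ 2 * zS z i + z (t i) - z (t j) := by
    have key : ∀ i j : Fin 3, i ≠ j → j ≠ 0 → (i = 0 ∧ j = 1) ∨ (i = 0 ∧ j = 2) ∨ (i = 1 ∧ j = 2) ∨ (i = 2 ∧ j = 1) := by decide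
    intro i j hij hjA
    rcases key i j hij hjA with ⟨rfl, rfl⟩ | ⟨rfl, rfl⟩ | ⟨rfl, rfl⟩ | ⟨rfl, rfl⟩
    · simp only [zS0]; linarith
    · simp only [zS0]; linarith
    · simp only [zS1]; linarith
    · simp only [zS2]; linarith
  refine ⟨hL, fun hW => ?_⟩
  rcases huv with ⟨rfl, rfl⟩ | ⟨rfl, rfl⟩
  · obtain ⟨qu, q0, q1, q2, q3⟩ := hW
    refine ⟨by decide, by decide, by decide, ?_, ?_, ?_, hL, ?_, ?_, ?_, ?_, ?_, ?_, ?_, ⟨qu, q0, q1, q2, q3⟩⟩
    · refine fin3_all ?_ ?_ ?_ <;> simp only [zS0, zS1, zS2, zX0, zX1, zX2, zD01, zD10, zD02, zD20, zD12, zD21]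
      · linarith
      · linarith
      · linarith
    · refine fin3_all ?_ ?_ ?_ <;> simp only [zS0, zS1, zS2, zX0, zX1, zX2, zD01, zD10, zD02, zD20, zD12, zD21]
      · linarith
      · linarith
      · linarith
    · refine fin3_ne ?_ ?_ ?_ ?_ ?_ ?_
      · linarith
      · linarith
      · linarith
      · linarith
      · linarith
      · linarith
    · linarith
    · linarith
    · refine fin3_ne ?_ ?_ ?_ ?_ ?_ ?_ <;> simp only [zS0, zS1, zS2, zX0, zX1, zX2, zD01, zD10, zD02, zD20, zD12, zD21]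
      · exact or3 h16 (fun h => by linarith) (fun h => by linarith) (fun h => by linarith)
      · exact or3 h17 (fun h => by linarith) (fun h => by linarith) (fun h => by linarith)
      · exact or3 h18 (fun h => by linarith) (fun h => by linarith) (fun h => by linarith)
      · exact or3 h19 (fun h => by linarith) (fun h => by linarith) (fun h => by linarith)
      · exact or3 h20 (fun h => by linarith) (fun h => by linarith) (fun h => by linarith)
      · exact or3 h21 (fun h => by linarith) (fun h => by linarith) (fun h => by linarith)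
    · refine fin3_lt ?_ ?_ ?_ <;> simp only [zS0, zS1, zS2, zX0, zX1, zX2, zD01, zD10, zD02, zD20, zD12, zD21]
      · exact or3 h22 (fun h => by linarith) (fun h => by linarith) (fun h => by linarith)
      · exact or3 h24 (fun h => by linarith) (fun h => by linarith) (fun h => by linarith)
      · exact or3 h26 (fun h => by linarith) (fun h => by linarith) (fun h => by linarith)
    · refine fin3_k ?_ ?_ ?_ <;> simp only [zS0, zS1, zS2, zX0, zX1, zX2, zD01, zD10, zD02, zD20, zD12, zD21]
      · exact J_pick _ _ _ _ _ _ _ h23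
      · exact J_pick _ _ _ _ _ _ _ h25
      · exact J_pick _ _ _ _ _ _ _ h27
    · refine fin3_k ?_ ?_ ?_ <;> simp only [← hD]
      · linarith
      · linarith
      · linarith
    · refine fin3_kij ?_ ?_ ?_ ?_ ?_ ?_ <;> simp only [← hD, zS0, zS1, zS2, zX0, zX1, zX2, zD01, zD10, zD02, zD20, zD12, zD21]
      · exact or3 h29 (fun h => by linarith) (fun h => by linarith) (fun h => by linarith)
      · exact or3 h30 (fun h => by linarith) (fun h => by linarith) (fun h => by linarith)
      · exact or3 h32 (fun h => by linarith) (fun h => by linarith) (fun h => by linarith)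
      · exact or3 h33 (fun h => by linarith) (fun h => by linarith) (fun h => by linarith)
      · exact or3 h35 (fun h => by linarith) (fun h => by linarith) (fun h => by linarith)
      · exact or3 h36 (fun h => by linarith) (fun h => by linarith) (fun h => by linarith)
  · obtain ⟨qu, q0, q1, q2, q3⟩ := hW
    refine ⟨by decide, by decide, by decide, ?_, ?_, ?_, hL, ?_, ?_, ?_, ?_, ?_, ?_, ?_, ⟨qu, q0, q1, q2, q3⟩⟩
    · refine fin3_all ?_ ?_ ?_ <;> simp only [zS0, zS1, zS2, zX0, zX1, zX2, zD01, zD10, zD02, zD20, zD12, zD21]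
      · linarith
      · linarith
      · linarith
    · refine fin3_all ?_ ?_ ?_ <;> simp only [zS0, zS1, zS2, zX0, zX1, zX2, zD01, zD10, zD02, zD20, zD12, zD21]
      · linarith
      · linarith
      · linarith
    · refine fin3_ne ?_ ?_ ?_ ?_ ?_ ?_
      · linarith
      · linarith
      · linarith
      · linarith
      · linarith
      · linarith
    · linarith
    · linarith
    · refine fin3_ne ?_ ?_ ?_ ?_ ?_ ?_ <;> simp only [zS0, zS1, zS2, zX0, zX1, zX2, zD01, zD10, zD02, zD20, zD12, zD21]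
      · exact or3 h16 (fun h => by linarith) (fun h => by linarith) (fun h => by linarith)
      · exact or3 h17 (fun h => by linarith) (fun h => by linarith) (fun h => by linarith)
      · exact or3 h18 (fun h => by linarith) (fun h => by linarith) (fun h => by linarith)
      · exact or3 h19 (fun h => by linarith) (fun h => by linarith) (fun h => by linarith)
      · exact or3 h20 (fun h => by linarith) (fun h => by linarith) (fun h => by linarith)
      · exact or3 h21 (fun h => by linarith) (fun h => by linarith) (fun h => by linarith)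
    · refine fin3_lt ?_ ?_ ?_ <;> simp only [zS0, zS1, zS2, zX0, zX1, zX2, zD01, zD10, zD02, zD20, zD12, zD21]
      · exact or3 h22 (fun h => by linarith) (fun h => by linarith) (fun h => by linarith)
      · exact or3 h24 (fun h => by linarith) (fun h => by linarith) (fun h => by linarith)
      · exact or3 h26 (fun h => by linarith) (fun h => by linarith) (fun h => by linarith)
    · refine fin3_k ?_ ?_ ?_ <;> simp only [zS0, zS1, zS2, zX0, zX1, zX2, zD01, zD10, zD02, zD20, zD12, zD21]
      · exact J_pick _ _ _ _ _ _ _ h23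
      · exact J_pick _ _ _ _ _ _ _ h25
      · exact J_pick _ _ _ _ _ _ _ h27
    · refine fin3_k ?_ ?_ ?_ <;> simp only [← hD]
      · linarith
      · linarith
      · linarith
    · refine fin3_kij ?_ ?_ ?_ ?_ ?_ ?_ <;> simp only [← hD, zS0, zS1, zS2, zX0, zX1, zX2, zD01, zD10, zD02, zD20, zD12, zD21]
      · exact or3 h29 (fun h => by linarith) (fun h => by linarith) (fun h => by linarith)
      · exact or3 h30 (fun h => by linarith) (fun h => by linarith) (fun h => by linarith)
      · exact or3 h32 (fun h => by linarith) (fun h => by linarith) (fun h => by linarith)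
      · exact or3 h33 (fun h => by linarith) (fun h => by linarith) (fun h => by linarith)
      · exact or3 h35 (fun h => by linarith) (fun h => by linarith) (fun h => by linarith)
      · exact or3 h36 (fun h => by linarith) (fun h => by linarith) (fun h => by linarith)

theorem bridge1 (z : ℕ → ℝ) (t : Fin 3 → ℕ) (u v : Fin 3) (huv : (u = 2 ∧ v = 0) ∨ (u = 0 ∧ v = 2))
    (hD : z 9 = Dval (zS z) (zX z))
    (H : ∀ g ∈ goalList1 (t 0) (t 1) (t 2), ∃ f ∈ g, 0 ≤ ev z f) :
    (∀ i j, i ≠ j → j ≠ 1 → 0 ≤ 2 * zS z i + z (t i) - z (t j)) ∧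
    (WallP (zS z) (fun i => z (t i)) 1 u v →
      GoalsT (zS z) (zDv z) (zX z) (fun i => z (t i)) 1 u v) := by
  simp only [goalList1, List.mem_cons, List.not_mem_nil, or_false, forall_eq_or_imp, forall_eq,
    exists_eq_or_imp, exists_eq_left, ev_mk_cons, ev_mk_nil, Int.cast_one, Int.cast_neg,
    Int.cast_ofNat] at H
  obtain ⟨h1, h2, h3, h4, h5, h6, h7, h8, h9, h10, h11, h12, h13, h14, h15, h16, h17, h18, h19, h20, h21, h22, h23, h24, h25, h26, h27, h28, h29, h30, h31, h32, h33, h34, h35, h36⟩ := H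
  have hL : ∀ i j, i ≠ j → j ≠ 1 → 0 ≤ 2 * zS z i + z (t i) - z (t j) := by
    have key : ∀ i j : Fin 3, i ≠ j → j ≠ 1 → (i = 0 ∧ j = 2) ∨ (i = 1 ∧ j = 0) ∨ (i = 1 ∧ j = 2) ∨ (i = 2 ∧ j = 0) := by decide
    intro i j hij hjA
    rcases key i j hij hjA with ⟨rfl, rfl⟩ | ⟨rfl, rfl⟩ | ⟨rfl, rfl⟩ | ⟨rfl, rfl⟩
    · simp only [zS0]; linarith
    · simp only [zS1]; linarith
    · simp only [zS1]; linarith
    · simp only [zS2]; linarith
  refine ⟨hL, fun hW => ?_⟩
  rcases huv with ⟨rfl, rfl⟩ | ⟨rfl, rfl⟩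
  · obtain ⟨qu, q0, q1, q2, q3⟩ := hW
    refine ⟨by decide, by decide, by decide, ?_, ?_, ?_, hL, ?_, ?_, ?_, ?_, ?_, ?_, ?_, ⟨qu, q0, q1, q2, q3⟩⟩
    · refine fin3_all ?_ ?_ ?_ <;> simp only [zS0, zS1, zS2, zX0, zX1, zX2, zD01, zD10, zD02, zD20, zD12, zD21]
      · linarith
      · linarith
      · linarith
    · refine fin3_all ?_ ?_ ?_ <;> simp only [zS0, zS1, zS2, zX0, zX1, zX2, zD01, zD10, zD02, zD20, zD12, zD21]
      · linarith
      · linarith
      · linarith
    · refine fin3_ne ?_ ?_ ?_ ?_ ?_ ?_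
      · linarith
      · linarith
      · linarith
      · linarith
      · linarith
      · linarith
    · linarith
    · linarith
    · refine fin3_ne ?_ ?_ ?_ ?_ ?_ ?_ <;> simp only [zS0, zS1, zS2, zX0, zX1, zX2, zD01, zD10, zD02, zD20, zD12, zD21]
      · exact or3 h16 (fun h => by linarith) (fun h => by linarith) (fun h => by linarith)
      · exact or3 h17 (fun h => by linarith) (fun h => by linarith) (fun h => by linarith)
      · exact or3 h18 (fun h => by linarith) (fun h => by linarith) (fun h => by linarith)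
      · exact or3 h19 (fun h => by linarith) (fun h => by linarith) (fun h => by linarith)
      · exact or3 h20 (fun h => by linarith) (fun h => by linarith) (fun h => by linarith)
      · exact or3 h21 (fun h => by linarith) (fun h => by linarith) (fun h => by linarith)
    · refine fin3_lt ?_ ?_ ?_ <;> simp only [zS0, zS1, zS2, zX0, zX1, zX2, zD01, zD10, zD02, zD20, zD12, zD21]
      · exact or3 h22 (fun h => by linarith) (fun h => by linarith) (fun h => by linarith)
      · exact or3 h24 (fun h => by linarith) (fun h => by linarith) (fun h => by linarith)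
      · exact or3 h26 (fun h => by linarith) (fun h => by linarith) (fun h => by linarith)
    · refine fin3_k ?_ ?_ ?_ <;> simp only [zS0, zS1, zS2, zX0, zX1, zX2, zD01, zD10, zD02, zD20, zD12, zD21]
      · exact J_pick _ _ _ _ _ _ _ h23
      · exact J_pick _ _ _ _ _ _ _ h25
      · exact J_pick _ _ _ _ _ _ _ h27
    · refine fin3_k ?_ ?_ ?_ <;> simp only [← hD]
      · linarith
      · linarith
      · linarith
    · refine fin3_kij ?_ ?_ ?_ ?_ ?_ ?_ <;> simp only [← hD, zS0, zS1, zS2, zX0, zX1, zX2, zD01, zD10, zD02, zD20, zD12, zD21]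
      · exact or3 h29 (fun h => by linarith) (fun h => by linarith) (fun h => by linarith)
      · exact or3 h30 (fun h => by linarith) (fun h => by linarith) (fun h => by linarith)
      · exact or3 h32 (fun h => by linarith) (fun h => by linarith) (fun h => by linarith)
      · exact or3 h33 (fun h => by linarith) (fun h => by linarith) (fun h => by linarith)
      · exact or3 h35 (fun h => by linarith) (fun h => by linarith) (fun h => by linarith)
      · exact or3 h36 (fun h => by linarith) (fun h => by linarith) (fun h => by linarith)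
  · obtain ⟨qu, q0, q1, q2, q3⟩ := hW
    refine ⟨by decide, by decide, by decide, ?_, ?_, ?_, hL, ?_, ?_, ?_, ?_, ?_, ?_, ?_, ⟨qu, q0, q1, q2, q3⟩⟩
    · refine fin3_all ?_ ?_ ?_ <;> simp only [zS0, zS1, zS2, zX0, zX1, zX2, zD01, zD10, zD02, zD20, zD12, zD21]
      · linarith
      · linarith
      · linarith
    · refine fin3_all ?_ ?_ ?_ <;> simp only [zS0, zS1, zS2, zX0, zX1, zX2, zD01, zD10, zD02, zD20, zD12, zD21]
      · linarith
      · linarith
      · linarith
    · refine fin3_ne ?_ ?_ ?_ ?_ ?_ ?_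
      · linarith
      · linarith
      · linarith
      · linarith
      · linarith
      · linarith
    · linarith
    · linarith
    · refine fin3_ne ?_ ?_ ?_ ?_ ?_ ?_ <;> simp only [zS0, zS1, zS2, zX0, zX1, zX2, zD01, zD10, zD02, zD20, zD12, zD21]
      · exact or3 h16 (fun h => by linarith) (fun h => by linarith) (fun h => by linarith)
      · exact or3 h17 (fun h => by linarith) (fun h => by linarith) (fun h => by linarith)
      · exact or3 h18 (fun h => by linarith) (fun h => by linarith) (fun h => by linarith)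
      · exact or3 h19 (fun h => by linarith) (fun h => by linarith) (fun h => by linarith)
      · exact or3 h20 (fun h => by linarith) (fun h => by linarith) (fun h => by linarith)
      · exact or3 h21 (fun h => by linarith) (fun h => by linarith) (fun h => by linarith)
    · refine fin3_lt ?_ ?_ ?_ <;> simp only [zS0, zS1, zS2, zX0, zX1, zX2, zD01, zD10, zD02, zD20, zD12, zD21]
      · exact or3 h22 (fun h => by linarith) (fun h => by linarith) (fun h => by linarith)
      · exact or3 h24 (fun h => by linarith) (fun h => by linarith) (fun h => by linarith)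
      · exact or3 h26 (fun h => by linarith) (fun h => by linarith) (fun h => by linarith)
    · refine fin3_k ?_ ?_ ?_ <;> simp only [zS0, zS1, zS2, zX0, zX1, zX2, zD01, zD10, zD02, zD20, zD12, zD21]
      · exact J_pick _ _ _ _ _ _ _ h23
      · exact J_pick _ _ _ _ _ _ _ h25
      · exact J_pick _ _ _ _ _ _ _ h27
    · refine fin3_k ?_ ?_ ?_ <;> simp only [← hD]
      · linarith
      · linarith
      · linarith
    · refine fin3_kij ?_ ?_ ?_ ?_ ?_ ?_ <;> simp only [← hD, zS0, zS1, zS2, zX0, zX1, zX2, zD01, zD10, zD02, zD20, zD12, zD21]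
      · exact or3 h29 (fun h => by linarith) (fun h => by linarith) (fun h => by linarith)
      · exact or3 h30 (fun h => by linarith) (fun h => by linarith) (fun h => by linarith)
      · exact or3 h32 (fun h => by linarith) (fun h => by linarith) (fun h => by linarith)
      · exact or3 h33 (fun h => by linarith) (fun h => by linarith) (fun h => by linarith)
      · exact or3 h35 (fun h => by linarith) (fun h => by linarith) (fun h => by linarith)
      · exact or3 h36 (fun h => by linarith) (fun h => by linarith) (fun h => by linarith)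

end

end Vale.Agent.Lib.P235.UB.Cert
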