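import Vale.Agent.Lib.P235.UB.CertFlowB

/-! From the checks to the goals `GoalsT` (module T5), part C: the main flow. -/

namespace Vale.Agent.Lib.P235.UB.Cert

set_option linter.unusedSimpArgs false

noncomputable section

/-! ### Facts and clauses along a program -/

theorem instr_run_sub (s : St) (i : Instr) :
    s.facts ⊆ (i.run s).facts ∧ s.clauses ⊆ (i.run s).clauses := by
  cases i <;> simp only [Instr.run] <;> constructor <;> intro a ha <;> simp [ha]

theorem runProg_sub (s : St) (p : List Instr) :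
    s.facts ⊆ (runProg s p).facts ∧ s.clauses ⊆ (runProg s p).clauses := by
  induction p generalizing s with
  | nil => exact ⟨fun _ h => h, fun _ h => h⟩
  | cons i p ih =>
    have h1 := instr_run_sub s i
    have h2 := ih (i.run s)
    exact ⟨fun a ha => h2.1 (h1.1 ha), fun a ha => h2.2 (h1.2 ha)⟩

theorem holds_of_sub {z : ℕ → ℝ} {s s' : St} (h : St.holds z s') (h1 : s.facts ⊆ s'.facts)
    (h2 : s.clauses ⊆ s'.clauses) : St.holds z s :=
  ⟨fun f hf => h.1 f (h1 hf), fun c hc => h.2 c (h2 hc)⟩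

theorem zS_congr {z z' : ℕ → ℝ} (h : ∀ i < 9, z' i = z i) : zS z' = zS z :=
  funext fun i => h _ (by have := i.2; omega)

theorem zX_congr {z z' : ℕ → ℝ} (h : ∀ i < 9, z' i = z i) : zX z' = zX z :=
  funext fun i => h _ (by have := i.2; omega)

theorem zDv_congr {z z' : ℕ → ℝ} (h : ∀ i < 9, z' i = z i) : zDv z' = zDv z := by
  funext i j
  unfold zDv
  rw [h 0 (by omega), h 1 (by omega), h 2 (by omega)]

/-- `z 9` is `D` -/
theorem Dinstr_value (z : ℕ → ℝ) (s : St) (hn : s.n = 9) (h : St.holds z (Dinstr.run s)) :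
    z 9 = Dval (zS z) (zX z) := by
  have hf : ∀ v ∈ [((100 : ℕ), mk [(6, 1), (3, 100)]), ((100 : ℕ), mk [(7, 1), (4, 100)]),
      ((100 : ℕ), mk [(8, 1), (5, 100)])], 0 ≤ ev z (vDn 9 v) := by
    intro v hv
    apply h.1
    simp only [Dinstr, Instr.run, hn, List.mem_append, List.mem_map]
    exact Or.inr ⟨v, hv, rfl⟩
  have hc : Clause.holds z [[nl (vUp 9 ((100 : ℕ), mk [(6, 1), (3, 100)]))],
      [nl (vUp 9 ((100 : ℕ), mk [(7, 1), (4, 100)]))],
      [nl (vUp 9 ((100 : ℕ), mk [(8, 1), (5, 100)]))]] := by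
    apply h.2
    simp only [Dinstr, Instr.run, hn, List.mem_append, List.map_cons, List.map_nil]
    simp
  have e1 := hf _ (List.mem_cons_self)
  have e2 := hf _ (List.mem_cons_of_mem _ List.mem_cons_self)
  have e3 := hf _ (List.mem_cons_of_mem _ (List.mem_cons_of_mem _ List.mem_cons_self))
  simp only [ev_vDn, ev_mk_cons, ev_mk_nil, Int.cast_one, Int.cast_ofNat, Nat.cast_ofNat] at e1 e2 e3
  have hS0 : zS z 0 = z 3 := rfl
  have hS1 : zS z 1 = z 4 := rfl
  have hS2 : zS z 2 = z 5 := rfl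
  have hX0 : zX z 0 = z 6 := rfl
  have hX1 : zX z 1 = z 7 := rfl
  have hX2 : zX z 2 = z 8 := rfl
  unfold Dval
  rw [hS0, hS1, hS2, hX0, hX1, hX2]
  apply le_antisymm
  · refine le_min (by linarith) (le_min (by linarith) (by linarith))
  · obtain ⟨o, ho, hoh⟩ := hc
    simp only [List.mem_cons, List.not_mem_nil, or_false] at ho
    have hl : ∀ f : Form, Opt.holds z [nl f] → 0 ≤ ev z f := by
      intro f hf
      have := hf (nl f) List.mem_cons_self
      simpa [Lit.holds, nl] using this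
    rcases ho with rfl | rfl | rfl
    · have := hl _ hoh
      simp only [ev_vUp, ev_mk_cons, ev_mk_nil, Int.cast_one, Int.cast_ofNat, Nat.cast_ofNat] at this
      exact (min_le_left _ _).trans (by linarith)
    · have := hl _ hoh
      simp only [ev_vUp, ev_mk_cons, ev_mk_nil, Int.cast_one, Int.cast_ofNat, Nat.cast_ofNat] at this
      exact (min_le_right _ _).trans ((min_le_left _ _).trans (by linarith))
    · have := hl _ hoh
      simp only [ev_vUp, ev_mk_cons, ev_mk_nil, Int.cast_one, Int.cast_ofNat, Nat.cast_ofNat] at this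
      exact (min_le_right _ _).trans ((min_le_right _ _).trans (by linarith))

/-- the bridge for an apex `0` or `1` -/
theorem bridgeA (A u v : Fin 3) (hAu : A ≠ u) (hAv : A ≠ v) (huv : u ≠ v) (hA : A = 0 ∨ A = 1)
    (z : ℕ → ℝ) (t : Fin 3 → ℕ) (hD : z 9 = Dval (zS z) (zX z))
    (H : ∀ g ∈ goalListA A t, ∃ f ∈ g, 0 ≤ ev z f) :
    (∀ i j, i ≠ j → j ≠ A → 0 ≤ 2 * zS z i + z (t i) - z (t j)) ∧
    (WallP (zS z) (fun i => z (t i)) A u v →
      GoalsT (zS z) (zDv z) (zX z) (fun i => z (t i)) A u v) := by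
  rcases hA with rfl | rfl
  · have key : ∀ u v : Fin 3, 0 ≠ u → 0 ≠ v → u ≠ v → (u = 1 ∧ v = 2) ∨ (u = 2 ∧ v = 1) := by decide
    exact bridge0 z t u v (key u v hAu hAv huv) hD (by simpa [goalListA] using H)
  · have key : ∀ u v : Fin 3, 1 ≠ u → 1 ≠ v → u ≠ v → (u = 2 ∧ v = 0) ∨ (u = 0 ∧ v = 2) := by decide
    exact bridge1 z t u v (key u v hAu hAv huv) hD (by simpa [goalListA] using H)

/-- scaling and the wall -/
theorem scale_wall (s : St) (hs : s.ok = true) (z : ℕ → ℝ) (hz : St.holds z s)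
    (sd : ScaleD) (t : Fin 3 → ℕ) (A u v : Fin 3) (hT : ∀ i, t i < s.n) (hn : 9 ≤ s.n)
    (hP : scaleOK s (wallP sd t u v) = true) (hσ : ∀ i, 0 ≤ zS z i)
    (hLu : 0 ≤ 2 * zS z u + z (t u) - z (t v)) (hLv : 0 ≤ 2 * zS z v + z (t v) - z (t u)) :
    ∃ z' : ℕ → ℝ, (∀ i < s.n, z' i = z i) ∧ St.holds z' (scaleRun s (wallP sd t u v)) ∧
      (scaleRun s (wallP sd t u v)).ok = true ∧ (scaleRun s (wallP sd t u v)).n = s.n + 9 ∧
      (0 ≤ ev z' (wallForm (t A) (t u) (t v) s.n (3 + u.1) (3 + v.1)) →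
        WallP (zS z) (fun i => z (t i)) A u v) := by
  have hnum : ev z (wallP sd t u v).num = 2 * zS z v + z (t v) - z (t u) := by
    simp only [wallP, wallNum, ev_mk_cons, ev_mk_nil, Int.cast_one, Int.cast_neg, Int.cast_ofNat]
    show 2 * z (3 + v.1) + (1 * z (t v) + (-1 * z (t u) + 0)) = 2 * z (3 + v.1) + z (t v) - z (t u)
    ring
  have hsig : ev z (wallP sd t u v).sig = zS z u + zS z v := by
    simp only [wallP, wallSig, ev_mk_cons, ev_mk_nil, Int.cast_one]
    show 1 * z (3 + u.1) + (1 * z (3 + v.1) + 0) = z (3 + u.1) + z (3 + v.1)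
    ring
  have hden : (wallP sd t u v).numDen = 2 := rfl
  obtain ⟨z', q, hq0, hq1, hz1, hz2, hq2, hq3, hh, hok, hnn⟩ :=
    scaleRun_sound s (wallP sd t u v) hs hP z hz (by rw [hnum]; linarith)
      (by rw [hnum, hsig, hden]; push_cast; linarith)
      (by
        rw [hnum, hsig]
        intro h0
        have h1 := hσ u
        have h2 := hσ v
        have e1 : zS z u = 0 := by linarith
        have e2 : zS z v = 0 := by linarith
        rw [e1] at hLu
        rw [e2] at hLv ⊢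
        linarith)
  refine ⟨z', hz1, hh, hok, hnn, fun hw => ?_⟩
  refine ⟨q, hq0, hq1, ?_, ?_⟩
  · by_cases h0 : ev z (wallP sd t u v).sig = 0
    · have h1 := hσ u
      have h2 := hσ v
      rw [hsig] at h0
      have e1 : zS z u = 0 := by linarith
      have e2 : zS z v = 0 := by linarith
      rw [e1] at hLu
      rw [e2] at hLv
      simp only [e1, e2]
      linarith
    · have hq := hq2 h0
      rw [hnum, hsig, hden] at hq
      rw [hsig] at h0
      rw [hq]
      push_cast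
      field_simp
      ring
  · have hu3 : 3 + u.1 < 9 := by have := u.2; omega
    have hv3 : 3 + v.1 < 9 := by have := v.2; omega
    simp only [wallForm, ev_mk_cons, ev_mk_nil, Int.cast_one, Int.cast_neg, Int.cast_ofNat] at hw
    rw [hz1 _ (hT u), hz1 _ (hT v), hz1 _ (hT A), hz2 _ hu3, hz2 _ hv3, hz1 _ (by omega : 3 + v.1 < s.n)] at hw
    show z (t A) ≤ (z (t u) + z (t v)) / 2 + q * z (3 + u.1) + (1 - q) * z (3 + v.1)
    nlinarith

/-- one stage: goals, then scaling -/
theorem stage_flow (s : St) (hs : s.ok = true) (z : ℕ → ℝ) (hz : St.holds z s)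
    (hD : z 9 = Dval (zS z) (zX z)) (hσ : ∀ i, 0 ≤ zS z i)
    (K : ℕ) (hK : 25 ≤ K) (trees : List Tree) (sd : ScaleD) (t : Fin 3 → ℕ)
    (A u v : Fin 3) (hAu : A ≠ u) (hAv : A ≠ v) (huv : u ≠ v) (hA : A = 0 ∨ A = 1)
    (hT : ∀ i, t i < s.n) (hn : 9 ≤ s.n)
    (ok : chkStage K s (goalListA A t) trees = true)
    (hP : scaleOK s (wallP sd t u v) = true) :
    ∃ z' : ℕ → ℝ, (∀ i < s.n, z' i = z i) ∧ St.holds z' (scaleRun s (wallP sd t u v)) ∧
      (scaleRun s (wallP sd t u v)).ok = true ∧ (scaleRun s (wallP sd t u v)).n = s.n + 9 ∧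
      (0 ≤ ev z' (wallForm (t A) (t u) (t v) s.n (3 + u.1) (3 + v.1)) →
        GoalsT (zS z) (zDv z) (zX z) (fun i => z (t i)) A u v) := by
  obtain ⟨hL, hG⟩ := bridgeA A u v hAu hAv huv hA z t hD (chkStage_sound K hK s _ _ ok z hz)
  obtain ⟨z', h1, h2, h3, h4, h5⟩ := scale_wall s hs z hz sd t A u v hT hn hP hσ
    (hL u v huv hAv.symm) (hL v u huv.symm hAu.symm)
  exact ⟨z', h1, h2, h3, h4, fun h => hG (h5 h)⟩

/-- the wall goal at the scaled assignment -/
theorem wall_of_stage {K : ℕ} (hK : 25 ≤ K) {s' s : St} {t : Fin 3 → ℕ} {A u v : Fin 3} {tr : Tree}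
    (ok : chkStage K s' (wallGoal s t A u v) [tr] = true) {z : ℕ → ℝ} (hz : St.holds z s') :
    0 ≤ ev z (wallForm (t A) (t u) (t v) s.n (3 + u.1) (3 + v.1)) := by
  obtain ⟨f, hf, h⟩ := chkStage_sound K hK s' _ _ ok z hz _ List.mem_cons_self
  rcases List.mem_singleton.1 hf with rfl
  exact h

/-- a needle stage -/
theorem NeedleCert.final {sb : St} {A u v : Fin 3} (nc : NeedleCert sb A u v)
    (hAu : A ≠ u) (hAv : A ≠ v) (huv : u ≠ v) (hA : A = 0 ∨ A = 1) (hn : 10 ≤ sb.n)
    (z : ℕ → ℝ) (hz : St.holds z sb) (hD : z 9 = Dval (zS z) (zX z)) (hσ : ∀ i, 0 ≤ zS z i) :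
    ∃ T, GoalsT (zS z) (zDv z) (zX z) T A u v := by
  obtain ⟨z3, h1, h2, h3, h4⟩ := runProg_sound sb nc.prog nc.okB nc.okP z hz
  have hc : ∀ i < 9, z3 i = z i := fun i hi => h1 i (by omega)
  have hT : ∀ i, nc.t i < (runProg sb nc.prog).n := by
    rw [h4]
    have hh := nc.okT
    intro i
    have key : ∀ i : Fin 3, nc.t i < sb.n + nc.prog.length :=
      fin3_all hh.1 hh.2.1 hh.2.2
    exact key i
  obtain ⟨z4, -, h6, -, -, h9⟩ := stage_flow (runProg sb nc.prog) h3 z3 h2
    (by rw [h1 9 (by omega), zS_congr hc, zX_congr hc]; exact hD)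
    (by rw [zS_congr hc]; exact hσ) nc.K3 nc.okK3 nc.trees3 nc.sd nc.t A u v hAu hAv huv hA hT
    (by rw [h4]; omega) nc.ok3 nc.okS
  have h10 := h9 (wall_of_stage nc.okK4 nc.ok4 h6)
  rw [zS_congr hc, zX_congr hc, zDv_congr hc] at h10
  exact ⟨_, h10⟩

theorem opt_sl2 (z : ℕ → ℝ) (F G : Form) (h1 : 0 < ev z F) (h2 : 0 < ev z G) :
    Opt.holds z [sl F, sl G] := by
  intro l hl
  simp only [List.mem_cons, List.not_mem_nil, or_false] at hl
  rcases hl with rfl | rfl
  · simpa [Lit.holds, sl] using h1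
  · simpa [Lit.holds, sl] using h2

/-- the failure of a needle clause gives the trigger facts -/
theorem trig_of_fail (c : NNLF) (z : ℕ → ℝ) (h : ¬ Clause.holds z c.clause) :
    ∃ lab, ∀ f ∈ c.trig lab, 0 ≤ ev z f := by
  have ha1 : ev z c.a1 < 0 := by
    by_contra hh
    exact h ⟨[nl c.a1], by simp [NNLF.clause, nnlClause], opt_nl _ _ (not_lt.1 hh)⟩
  have ha2 : ev z c.a2 < 0 := by
    by_contra hh
    exact h ⟨[nl c.a2], by simp [NNLF.clause, nnlClause], opt_nl _ _ (not_lt.1 hh)⟩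
  have ha3 : ev z c.a3 < 0 := by
    by_contra hh
    exact h ⟨[nl c.a3], by simp [NNLF.clause, nnlClause], opt_nl _ _ (not_lt.1 hh)⟩
  have ha4 : ev z c.a4 < 0 := by
    by_contra hh
    exact h ⟨[nl c.a4], by simp [NNLF.clause, nnlClause], opt_nl _ _ (not_lt.1 hh)⟩
  have h1 : ¬ (ev z c.stv < 0 ∧ ev z c.stu < 0) := fun hh => h ⟨[sl (fneg c.stv), sl (fneg c.stu)],
    by simp [NNLF.clause, nnlClause],
    opt_sl2 _ _ _ (by rw [ev_fneg]; linarith [hh.1]) (by rw [ev_fneg]; linarith [hh.2])⟩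
  have h2 : ¬ (ev z c.stv < 0 ∧ ev z c.su < 0) := fun hh => h ⟨[sl (fneg c.stv), sl (fneg c.su)],
    by simp [NNLF.clause, nnlClause],
    opt_sl2 _ _ _ (by rw [ev_fneg]; linarith [hh.1]) (by rw [ev_fneg]; linarith [hh.2])⟩
  have h3 : ¬ (ev z c.sv < 0 ∧ ev z c.stu < 0) := fun hh => h ⟨[sl (fneg c.sv), sl (fneg c.stu)],
    by simp [NNLF.clause, nnlClause],
    opt_sl2 _ _ _ (by rw [ev_fneg]; linarith [hh.1]) (by rw [ev_fneg]; linarith [hh.2])⟩
  have h4 : ¬ (ev z c.sv < 0 ∧ ev z c.su < 0) := fun hh => h ⟨[sl (fneg c.sv), sl (fneg c.su)],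
    by simp [NNLF.clause, nnlClause],
    opt_sl2 _ _ _ (by rw [ev_fneg]; linarith [hh.1]) (by rw [ev_fneg]; linarith [hh.2])⟩
  have hneg : ∀ f ∈ [fneg c.a1, fneg c.a2, fneg c.a3, fneg c.a4], 0 ≤ ev z f := by
    intro f hf
    simp only [List.mem_cons, List.not_mem_nil, or_false] at hf
    rcases hf with rfl | rfl | rfl | rfl <;> rw [ev_fneg] <;> linarith
  by_cases hv : 0 ≤ ev z c.stv ∧ 0 ≤ ev z c.sv
  · refine ⟨false, fun f hf => ?_⟩
    simp only [NNLF.trig, List.mem_append, if_false, Bool.false_eq_true] at hf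
    rcases hf with hf | hf
    · exact hneg f hf
    · simp only [List.mem_cons, List.not_mem_nil, or_false] at hf
      rcases hf with rfl | rfl
      · exact hv.1
      · exact hv.2
  · have hu : 0 ≤ ev z c.stu ∧ 0 ≤ ev z c.su := by
      by_contra hu
      have hv' : ev z c.stv < 0 ∨ ev z c.sv < 0 := by
        by_contra hh
        push Not at hh
        exact hv hh
      have hu' : ev z c.stu < 0 ∨ ev z c.su < 0 := by
        by_contra hh
        push Not at hh
        exact hu hh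
      rcases hv' with a | a <;> rcases hu' with b | b
      · exact h1 ⟨a, b⟩
      · exact h2 ⟨a, b⟩
      · exact h3 ⟨a, b⟩
      · exact h4 ⟨a, b⟩
    refine ⟨true, fun f hf => ?_⟩
    simp only [NNLF.trig, List.mem_append, if_true] at hf
    rcases hf with hf | hf
    · exact hneg f hf
    · simp only [List.mem_cons, List.not_mem_nil, or_false] at hf
      rcases hf with rfl | rfl
      · exact hu.1
      · exact hu.2

/-- main flow -/
theorem RegimeCert.final {r : List Form} {A u v : Fin 3} (c : RegimeCert r A u v) (hAu : A ≠ u) (hAv : A ≠ v) (huv : u ≠ v)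
    (hA : A = 0 ∨ A = 1)
    (z0 : ℕ → ℝ) (hz0 : St.holds z0 (st0 r)) :
    ∃ (T : Fin 3 → ℝ) (u' v' : Fin 3), GoalsT (zS z0) (zDv z0) (zX z0) T A u' v' := by
  have hσ0 : ∀ i, 0 ≤ zS z0 i := by
    have e3 := hz0.1 (Cert.mk [(3, 1)]) (by simp [st0, inputFacts])
    have e4 := hz0.1 (Cert.mk [(4, 1)]) (by simp [st0, inputFacts])
    have e5 := hz0.1 (Cert.mk [(5, 1)]) (by simp [st0, inputFacts])
    simp only [ev_mk_cons, ev_mk_nil, Int.cast_one] at e3 e4 e5
    refine fin3_all ?_ ?_ ?_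
    · show 0 ≤ z0 3
      linarith
    · show 0 ≤ z0 4
      linarith
    · show 0 ≤ z0 5
      linarith
  obtain ⟨z1, h1, h2, h3, h4⟩ := runProg_sound (st0 r) (Dinstr :: c.prog) c.okS0 c.okP z0 hz0
  have hc : ∀ i < 9, z1 i = z0 i := fun i hi => h1 i hi
  have hn4 : (runProg (st0 r) (Dinstr :: c.prog)).n = 10 + c.prog.length := by
    rw [h4]
    show 9 + (c.prog.length + 1) = _
    omega
  have hD : z1 9 = Dval (zS z1) (zX z1) :=
    Dinstr_value z1 (st0 r) rfl (holds_of_sub h2 (runProg_sub (Dinstr.run (st0 r)) c.prog).1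
      (runProg_sub (Dinstr.run (st0 r)) c.prog).2)
  have hT : ∀ i, c.t i < (runProg (st0 r) (Dinstr :: c.prog)).n := by
    rw [hn4]
    exact fin3_all c.okT.1 c.okT.2.1 c.okT.2.2
  have hσ1 : ∀ i, 0 ≤ zS z1 i := by
    rw [zS_congr hc]
    exact hσ0
  obtain ⟨z2, h5, h6, h7, h8, h9⟩ := stage_flow _ h3 z1 h2 hD hσ1 c.K1 c.okK1 c.trees1 c.sd c.t
    A u v hAu hAv huv hA hT (by rw [hn4]; omega) c.ok1 c.okS
  rw [zS_congr hc, zX_congr hc, zDv_congr hc] at h9
  have hc2 : ∀ i < 9, z2 i = z1 i := fun i hi => h5 i (by rw [hn4]; omega)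
  have hD2 : z2 9 = Dval (zS z2) (zX z2) := by
    rw [h5 9 (by rw [hn4]; omega), zS_congr hc2, zX_congr hc2]
    exact hD
  have hσ2 : ∀ i, 0 ≤ zS z2 i := by
    rw [zS_congr hc2]
    exact hσ1
  have needle : ∀ i : Bool, ¬ Clause.holds z2 (if i then c.nnlV else c.nnlU).clause →
      ∃ (T : Fin 3 → ℝ) (u' v' : Fin 3), GoalsT (zS z0) (zDv z0) (zX z0) T A u' v' := by
    intro i hi
    obtain ⟨lab, hlab⟩ := trig_of_fail _ z2 hi
    have hsb : St.holds z2 ((scaleRun (runProg (st0 r) (Dinstr :: c.prog)) (wallP c.sd c.t u v)).addFacts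
        ((if i then c.nnlV else c.nnlU).trig lab)) := by
      refine ⟨fun f hf => ?_, h6.2⟩
      simp only [St.addFacts, List.mem_append] at hf
      rcases hf with hf | hf
      · exact h6.1 f hf
      · exact hlab f hf
    have hu' : A ≠ (if lab then v else u) := by cases lab <;> simpa
    have hv' : A ≠ (if lab then u else v) := by cases lab <;> simpa
    have huv' : (if lab then v else u) ≠ (if lab then u else v) := by
      cases lab
      · simpa using huv
      · simpa using huv.symm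
    obtain ⟨T, hTT⟩ := (c.needle lab i).final hu' hv' huv' hA
      (by
        show 10 ≤ (scaleRun (runProg (st0 r) (Dinstr :: c.prog)) (wallP c.sd c.t u v)).n
        rw [h8, hn4]
        omega) z2 hsb hD2 hσ2
    rw [zS_congr hc2, zX_congr hc2, zDv_congr hc2, zS_congr hc, zX_congr hc, zDv_congr hc] at hTT
    exact ⟨T, _, _, hTT⟩
  by_cases hU : Clause.holds z2 c.nnlU.clause
  · by_cases hV : Clause.holds z2 c.nnlV.clause
    · have hh : St.holds z2 ((scaleRun (runProg (st0 r) (Dinstr :: c.prog)) (wallP c.sd c.t u v)).addClauses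
          [c.nnlU.clause, c.nnlV.clause]) := by
        refine ⟨h6.1, fun cl hcl => ?_⟩
        simp only [St.addClauses, List.mem_append, List.mem_cons, List.not_mem_nil, or_false] at hcl
        rcases hcl with hcl | rfl | rfl
        · exact h6.2 cl hcl
        · exact hU
        · exact hV
      exact ⟨_, u, v, h9 (wall_of_stage c.okK2 c.ok2 hh)⟩
    · exact needle true (by simpa using hV)
  · exact needle false (by simpa using hU)

end

end Vale.Agent.Lib.P235.UB.Cert
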