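import Vale.Agent.Lib.P235.UB.CertInst

/-! Running a stage: the packed data are computed from the dense data. -/

namespace Vale.Agent.Lib.P235.UB.Cert

/-- balanced tree of the packed facts, with fuel -/
def mkBTf : Nat → List PF → BT
  | 0, _ => .lf (0, 0)
  | _ + 1, [] => .lf (0, 0)
  | _ + 1, [p] => .lf p
  | f + 1, l => .nd (mkBTf f (l.take (l.length / 2))) (mkBTf f (l.drop (l.length / 2)))

/-- pairs of goals and trees, false on a length mismatch -/
def mkGts (K : Nat) : List (List Form) → List Tree → Option (List (List Form × List PF × Tree))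
  | [], [] => some []
  | g :: gs, t :: ts => (mkGts K gs ts).map (fun r => (g, g.map (pkN K), t) :: r)
  | _, _ => none

/-- check all goals of a stage -/
def chkStage (K : Nat) (s : St) (goals : List (List Form)) (trees : List Tree) : Bool :=
  match mkGts K goals trees with
  | none => false
  | some gts => chkAll K s (mkBTf 20 (s.facts.map (pkN K))) (s.clauses.map (pkClause K)) gts

end Vale.Agent.Lib.P235.UB.Cert

namespace Vale.Agent.Lib.P235.UB.Cert

/-! ### The data of a regime -/

/-- the variable `D` -/
def Dinstr : Instr :=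
  Instr.gmin [(100, mk [(6, 1), (3, 100)]), (100, mk [(7, 1), (4, 100)]), (100, mk [(8, 1), (5, 100)])]

/-- goal list with apex `A`, which is 0 or 1 -/
def goalListA (A : Fin 3) (t : Fin 3 → Nat) : List (List Form) :=
  if A = 0 then goalList0 (t 0) (t 1) (t 2) else goalList1 (t 0) (t 1) (t 2)

structure ScaleD where
  flagged : List Nat
  ratios : List Form
  grid : List (Nat × Nat)

/-- scale parameters of a wall, with `T`-variables `t` and labels `u`, `v` -/
def wallP (sd : ScaleD) (t : Fin 3 → Nat) (u v : Fin 3) : ScaleP :=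
  { numDen := 2, num := wallNum (t u) (t v) (3 + v.1), sig := wallSig (3 + u.1) (3 + v.1),
    flagged := sd.flagged, ratios := sd.ratios, grid := sd.grid }

/-- `stv`: `St(v)`, `sv`: `Sub(u,v)`, `stu`: `St(u)`, `su`: `Sub(v,u)` -/
structure NNLF where
  a1 : Form
  a2 : Form
  a3 : Form
  a4 : Form
  stv : Form
  stu : Form
  sv : Form
  su : Form

def NNLF.clause (c : NNLF) : Clause := nnlClause c.a1 c.a2 c.a3 c.a4 c.stv c.stu c.sv c.su

/-- facts of a needle stage; `lab` false: `St(v), Sub(u,v)`; true: `St(u), Sub(v,u)` -/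
def NNLF.trig (c : NNLF) (lab : Bool) : List Form :=
  [fneg c.a1, fneg c.a2, fneg c.a3, fneg c.a4] ++ (if lab then [c.stu, c.su] else [c.stv, c.sv])

def St.addFacts (s : St) (l : List Form) : St := ⟨s.n, s.facts ++ l, s.clauses⟩
def St.addClauses (s : St) (l : List Clause) : St := ⟨s.n, s.facts, s.clauses ++ l⟩

/-- first scaled variable of a scale step applied at `s`, and the wall goal list -/
def wallGoal (s : St) (t : Fin 3 → Nat) (A u v : Fin 3) : List (List Form) :=
  [[wallForm (t A) (t u) (t v) s.n (3 + u.1) (3 + v.1)]]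

/-- a needle: new `T` variables, base state `sb` (scaled state with the trigger facts) -/
structure NeedleCert (sb : St) (A u v : Fin 3) where
  prog : List Instr
  t : Fin 3 → Nat
  K3 : Nat
  trees3 : List Tree
  sd : ScaleD
  K4 : Nat
  tree4 : Tree
  ok3 : chkStage K3 (runProg sb prog) (goalListA A t) trees3 = true
  ok4 : chkStage K4 (scaleRun (runProg sb prog) (wallP sd t u v))
    (wallGoal (runProg sb prog) t A u v) [tree4] = true
  okB : sb.ok = true
  okP : progOK sb.n prog = true
  okS : scaleOK (runProg sb prog) (wallP sd t u v) = true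
  okT : (t 0 < sb.n + prog.length ∧ t 1 < sb.n + prog.length ∧ t 2 < sb.n + prog.length)
  okK3 : 25 ≤ K3
  okK4 : 25 ≤ K4

/-- all data of a regime. `u`, `v` with apex `A` are all the labels. -/
structure RegimeCert (r : List Form) (A u v : Fin 3) where
  prog : List Instr
  t : Fin 3 → Nat
  K1 : Nat
  trees1 : List Tree
  sd : ScaleD
  nnlU : NNLF
  nnlV : NNLF
  K2 : Nat
  tree2 : Tree
  ok1 : chkStage K1 (runProg (st0 r) (Dinstr :: prog)) (goalListA A t) trees1 = true
  ok2 : chkStage K2 ((scaleRun (runProg (st0 r) (Dinstr :: prog)) (wallP sd t u v)).addClauses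
      [nnlU.clause, nnlV.clause]) (wallGoal (runProg (st0 r) (Dinstr :: prog)) t A u v) [tree2] = true
  okS0 : (st0 r).ok = true
  okP : progOK 9 (Dinstr :: prog) = true
  okS : scaleOK (runProg (st0 r) (Dinstr :: prog)) (wallP sd t u v) = true
  okT : (t 0 < 10 + prog.length ∧ t 1 < 10 + prog.length ∧ t 2 < 10 + prog.length)
  okK1 : 25 ≤ K1
  okK2 : 25 ≤ K2
  /-- needle data: `lab` false: labels `(u,v)`, true: labels `(v,u)`; `i` false: clause of `u` failed, true: of `v` -/
  needle : ∀ (lab i : Bool),
    NeedleCert ((scaleRun (runProg (st0 r) (Dinstr :: prog)) (wallP sd t u v)).addFacts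
        ((if i then nnlV else nnlU).trig lab)) A (if lab then v else u) (if lab then u else v)

end Vale.Agent.Lib.P235.UB.Cert
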