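import Mathlib

/-!
The invariant of a triple and the action of a new vertex (pure real statements).
`σ` are the legs of the triple, `d` the distances between the slots, `x` the distances of the new vertex to the slots.
-/

namespace Vale.Agent.Lib.P235.UB

noncomputable section

/-- `Ψ(σ) = Σ_i min(σ_i, 2 min σ)` -/
def PsiF (σ : Fin 3 → ℝ) : ℝ :=
  let m := min (σ 0) (min (σ 1) (σ 2))
  min (σ 0) (2 * m) + min (σ 1) (2 * m) + min (σ 2) (2 * m)

/-- the invariant of a triple, with constants `β = 1/100`, `τ₀ = 3/20`, `Λ = 2`. -/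
structure TripleInv (σ : Fin 3 → ℝ) (d : Fin 3 → Fin 3 → ℝ) : Prop where
  sig_nonneg : ∀ i, 0 ≤ σ i
  ceil : ∀ i j, i ≠ j → σ i + σ j ≤ d i j
  floor : ∀ i j, i ≠ j → (1 / 100) * d i j ≤ σ i + σ j
  apex : ∀ A b c : Fin 3, A ≠ b → A ≠ c → b ≠ c →
    ((1 / 100) * (d A b + σ b + σ c) ≤ σ A + σ c ∨
     (1 / 100) * (d A c + σ b + σ c) ≤ σ A + σ b ∨
     (3 / 20) * d b c ≤ d b c - σ b - σ c)
  J : 2 * PsiF σ ≤ (d 0 1 - σ 0 - σ 1) + (d 0 2 - σ 0 - σ 2) + (d 1 2 - σ 1 - σ 2)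

/-- metric facts for the four points (three slots and the new vertex) -/
structure Metric4 (d : Fin 3 → Fin 3 → ℝ) (x : Fin 3 → ℝ) : Prop where
  symm : ∀ i j, d i j = d j i
  self : ∀ i, d i i = 0
  tri : ∀ i j k, d i k ≤ d i j + d j k
  up : ∀ i j, x i ≤ x j + d i j
  low : ∀ i j, d i j ≤ x i + x j

/-- `κ_i = q_i σ_i`, `κ = Σ κ_i` -/
def kapSum (σ q : Fin 3 → ℝ) : ℝ := q 0 * σ 0 + q 1 * σ 1 + q 2 * σ 2

/-- `S(w, slot i)` after the action -/
def tauF (σ q : Fin 3 → ℝ) (s : ℝ) (i : Fin 3) : ℝ := s + kapSum σ q - 2 * (q i * σ i) + σ i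

/-- legs of the child triple in which slot `c` is replaced by the new vertex -/
def childLegs (σ q : Fin 3 → ℝ) (s : ℝ) (c i : Fin 3) : ℝ :=
  if i = c then s + q c * σ c else σ i - 2 * (q i * σ i) + kapSum σ q - q c * σ c

/-- distances of the child triple -/
def childDist (d : Fin 3 → Fin 3 → ℝ) (x : Fin 3 → ℝ) (c i j : Fin 3) : ℝ :=
  if i = c then (if j = c then 0 else x j) else (if j = c then x i else d i j)

/-- what the deep lemma needs from the action -/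
structure ActionOK (σ : Fin 3 → ℝ) (x q : Fin 3 → ℝ) (s : ℝ) : Prop where
  s_nonneg : 0 ≤ s
  q_nonneg : ∀ i, 0 ≤ q i
  q_sum : q 0 + q 1 + q 2 ≤ 1
  floor : ∀ i, (1 / 100) * x i ≤ tauF σ q s i
  ceil : ∀ i, tauF σ q s i ≤ x i
  lc : ∀ z : Fin 3,
    min ((1 / 100) * x 0 + σ 0) (min ((1 / 100) * x 1 + σ 1) ((1 / 100) * x 2 + σ 2))
      ≤ s + kapSum σ q + 29 * (kapSum σ q - q z * σ z)


end

end Vale.Agent.Lib.P235.UB
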