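import Vale.Agent.Lib.P235.UB.ClosureMain
import Vale.Agent.Lib.P235.UB.CertA
import Vale.Agent.Lib.P235.UB.CertB

/-! The closure theorem, from the certificates of the two regimes. -/

namespace Vale.Agent.Lib.P235.UB

theorem closure_main (σ : Fin 3 → ℝ) (d : Fin 3 → Fin 3 → ℝ) (x : Fin 3 → ℝ)
    (hm : Metric4 d x) (hI : TripleInv σ d) :
    ∃ (s : ℝ) (q : Fin 3 → ℝ), ActionOK σ x q s ∧
      ∀ c, TripleInv (childLegs σ q s c) (childDist d x c) :=
  closure_of_certs Cert.certA Cert.certB σ d x hm hI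

end Vale.Agent.Lib.P235.UB
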