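import Vale.Agent.Lib.P235.UB.CertFlow

/-! The closure theorem from the certificates of the two regimes. -/

namespace Vale.Agent.Lib.P235.UB

open Cert

theorem metric4_relabel (π : Equiv.Perm (Fin 3)) {d : Fin 3 → Fin 3 → ℝ} {x : Fin 3 → ℝ}
    (hm : Metric4 d x) : Metric4 (fun i j => d (π i) (π j)) (fun i => x (π i)) :=
  ⟨fun _ _ => hm.symm _ _, fun _ => hm.self _, fun _ _ _ => hm.tri _ _ _,
    fun _ _ => hm.up _ _, fun _ _ => hm.low _ _⟩

theorem tripleInv_relabel_fwd (π : Equiv.Perm (Fin 3)) {l : Fin 3 → ℝ} {D : Fin 3 → Fin 3 → ℝ}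
    (hsym : ∀ i j, D i j = D j i) (h : TripleInv l D) :
    TripleInv (fun i => l (π i)) (fun i j => D (π i) (π j)) := by
  refine tripleInv_relabel π.symm (fun _ _ => hsym _ _) ?_
  simpa using h

theorem zS_zInit (σ : Fin 3 → ℝ) (d : Fin 3 → Fin 3 → ℝ) (x : Fin 3 → ℝ) :
    zS (zInit σ d x) = σ := by
  funext i; fin_cases i <;> rfl

theorem zX_zInit (σ : Fin 3 → ℝ) (d : Fin 3 → Fin 3 → ℝ) (x : Fin 3 → ℝ) :
    zX (zInit σ d x) = x := by
  funext i; fin_cases i <;> rfl

theorem zDv_zInit (σ : Fin 3 → ℝ) {d : Fin 3 → Fin 3 → ℝ} (x : Fin 3 → ℝ)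
    (hsym : ∀ i j, d i j = d j i) (hself : ∀ i, d i i = 0) :
    zDv (zInit σ d x) = d := by
  funext i j
  fin_cases i <;> fin_cases j <;> simp [zDv, zInit, hself]
  · exact hsym _ _
  · exact hsym _ _
  · exact hsym _ _

/-- The closure theorem, given the two regime certificates (module T6). Proof: `y_i = x_i - σ_i`.
Sort `y` decreasingly by a permutation `π`. If the smallest is nonnegative, apply `certA` to the
relabeled data. Otherwise rotate so that the smallest comes first, and apply `certB`. -/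
theorem closure_of_certs (certA : RegimeCert regimeFactsA 0 1 2) (certB : RegimeCert regimeFactsB 1 2 0)
    (σ : Fin 3 → ℝ) (d : Fin 3 → Fin 3 → ℝ) (x : Fin 3 → ℝ)
    (hm : Metric4 d x) (hI : TripleInv σ d) :
    ∃ (s : ℝ) (q : Fin 3 → ℝ), ActionOK σ x q s ∧
      ∀ c, TripleInv (childLegs σ q s c) (childDist d x c) := by
  -- the general relabeled step
  have step : ∀ π : Equiv.Perm (Fin 3),
      (∃ A u v : Fin 3, ∃ T : Fin 3 → ℝ, GoalsT (fun i => σ (π i)) (fun i j => d (π i) (π j))
        (fun i => x (π i)) T A u v) →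
      ∃ (s : ℝ) (q : Fin 3 → ℝ), ActionOK σ x q s ∧
        ∀ c, TripleInv (childLegs σ q s c) (childDist d x c) := by
    rintro π ⟨A, u, v, T, hG⟩
    exact closure_of_perm π σ d x hm (closure_of_goals _ _ _ T A u v (metric4_relabel π hm)
      (tripleInv_relabel_fwd π hm.symm hI) hG)
  -- sort
  obtain ⟨π, hπ⟩ : ∃ π : Equiv.Perm (Fin 3),
      Monotone ((fun i => -(x i - σ i)) ∘ π) := ⟨_, Tuple.monotone_sort _⟩
  have h01 : x (π 1) - σ (π 1) ≤ x (π 0) - σ (π 0) := by
    have := hπ (show (0 : Fin 3) ≤ 1 by decide)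
    simp only [Function.comp] at this
    linarith
  have h12 : x (π 2) - σ (π 2) ≤ x (π 1) - σ (π 1) := by
    have := hπ (show (1 : Fin 3) ≤ 2 by decide)
    simp only [Function.comp] at this
    linarith
  by_cases hneg : 0 ≤ x (π 2) - σ (π 2)
  · -- regime A
    apply step π
    have hm' := metric4_relabel π hm
    have hI' := tripleInv_relabel_fwd π hm.symm hI
    have hz := regA_holds (fun i => σ (π i)) (fun i j => d (π i) (π j)) (fun i => x (π i))
      hm' hI' h01 h12 hneg
    obtain ⟨T, u', v', hG⟩ := certA.final (by decide) (by decide) (by decide) (Or.inl rfl) _ hz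
    rw [zS_zInit, zX_zInit, zDv_zInit _ _ hm'.symm hm'.self] at hG
    exact ⟨0, u', v', T, hG⟩
  · -- regime B: the smallest goes first
    have hneg := not_le.mp hneg
    let π' : Equiv.Perm (Fin 3) := (finRotate 3).symm.trans π
    have e0 : π' 0 = π 2 := by
      show π ((finRotate 3).symm 0) = π 2
      congr 1
    have e1 : π' 1 = π 0 := by
      show π ((finRotate 3).symm 1) = π 0
      congr 1
    have e2 : π' 2 = π 1 := by
      show π ((finRotate 3).symm 2) = π 1
      congr 1
    apply step π'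
    have hm' := metric4_relabel π' hm
    have hI' := tripleInv_relabel_fwd π' hm.symm hI
    have hz := regB_holds (fun i => σ (π' i)) (fun i j => d (π' i) (π' j)) (fun i => x (π' i))
      hm' hI' (by simp only [e0]; linarith) (by simp only [e1, e2]; exact h01)
    obtain ⟨T, u', v', hG⟩ := certB.final (by decide) (by decide) (by decide) (Or.inr rfl) _ hz
    rw [zS_zInit, zX_zInit, zDv_zInit _ _ hm'.symm hm'.self] at hG
    exact ⟨1, u', v', T, hG⟩

end Vale.Agent.Lib.P235.UB
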