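import Mathlib

/-!
Upper bound program for treewidth 3: definitions for the one step potential inequality.
Points of a triple with hub are indexed by `Fin 4`: slots `0,1,2` are the three vertices, `3` is the hub.
-/

namespace Vale.Agent.Lib.P235.UB

/-- star metric with legs `l`: distance `l X + l Y` for `X ≠ Y` (the hub has `l 3 = 0`). -/
def star (l : Fin 4 → ℝ) (X Y : Fin 4) : ℝ := if X = Y then 0 else l X + l Y

/-- `E min (S(X,y), S(X',y))` for iid votes `X, X'` with law `p`. -/
def mval (l p : Fin 4 → ℝ) (y : Fin 4) : ℝ :=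
  ∑ X, ∑ X', p X * p X' * min (star l X y) (star l X' y)

/-- extended distance function: on slots it is `g`, on the hub it is the minimum of `g + l`. -/
def ghat (g l : Fin 4 → ℝ) (y : Fin 4) : ℝ :=
  if y = 3 then min (g 0 + l 0) (min (g 1 + l 1) (g 2 + l 2)) else g y

/-- the potential -/
def psi (K : ℝ) (g l p : Fin 4 → ℝ) (y : Fin 4) : ℝ := ghat g l y + K * mval l p y

end Vale.Agent.Lib.P235.UB
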