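import Vale.Agent.Lib.P235.UB.AssemblyDefs

/-!
Descent (module A4 of the treewidth 3 program): pull two clouds down the history.
-/

namespace Vale.Agent.Lib.P235.UB

set_option linter.unusedSectionVars false
set_option linter.unusedVariables false
set_option linter.unusedSimpArgs false

noncomputable section

variable {V : Type} [DecidableEq V]

namespace DescentAux

/-! ### valid triples and placed vertices -/

theorem validT_cons {r : V} {H : List (HEntry V)} (e : HEntry V) {T : Fin 3 → V}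
    (h : ValidT r H T) : ValidT r (e :: H) T := by
  rcases h with h | ⟨e', he', c, hc⟩
  · exact Or.inl h
  · exact Or.inr ⟨e', List.mem_cons_of_mem _ he', c, hc⟩

theorem validT_suffix {r : V} {H H' : List (HEntry V)} (hs : H' <:+ H) {T : Fin 3 → V}
    (h : ValidT r H' T) : ValidT r H T := by
  rcases h with h | ⟨e', he', c, hc⟩
  · exact Or.inl h
  · exact Or.inr ⟨e', hs.subset he', c, hc⟩

theorem validT_head (r : V) (H : List (HEntry V)) (e : HEntry V) (c : Fin 3) :
    ValidT r (e :: H) (Function.update e.2.1 c e.1) :=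
  Or.inr ⟨e, List.mem_cons_self, c, rfl⟩

theorem valid_cases {r : V} {H : List (HEntry V)} {w : V} {T0 : Fin 3 → V} {s : ℝ} {q : Fin 3 → ℝ}
    {T : Fin 3 → V} (h : ValidT r ((w, T0, s, q) :: H) T) :
    ValidT r H T ∨ ∃ c, T = Function.update T0 c w := by
  rcases h with h | ⟨e', he', c, hc⟩
  · exact Or.inl (Or.inl h)
  · rcases List.mem_cons.1 he' with rfl | h'
    · exact Or.inr ⟨c, hc⟩
    · exact Or.inl (Or.inr ⟨e', h', c, hc⟩)

theorem valid_image {d : V → V → ℝ} {r : V} {H : List (HEntry V)} (hH : Good d r H) :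
    ∀ {T : Fin 3 → V}, ValidT r H T → ∀ i, T i ∈ placedH r H := by
  induction hH with
  | nil =>
    intro T hT i
    rcases hT with rfl | ⟨e, he, _⟩
    · simp [placedH]
    · simp at he
  | @cons H w T0 s q hH hT0 hw hA ih =>
    intro T hT i
    have hsub : ∀ v, v ∈ placedH r H → v ∈ placedH r ((w, T0, s, q) :: H) := by
      intro v hv
      simp only [placedH, List.map_cons, List.mem_cons] at hv ⊢
      tauto
    rcases valid_cases hT with h | ⟨c, rfl⟩
    · exact hsub _ (ih h i)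
    · by_cases hi : i = c
      · subst hi
        simp [placedH]
      · rw [Function.update_of_ne hi]
        exact hsub _ (ih hT0 i)

theorem valid_ne {d : V → V → ℝ} {r : V} {H : List (HEntry V)} (hH : Good d r H) {w : V}
    (hw : w ∉ placedH r H) {T : Fin 3 → V} (hT : ValidT r H T) (i : Fin 3) : T i ≠ w := by
  intro h
  exact hw (h ▸ valid_image hH hT i)

/-! ### points -/

theorem ptOf_indep {w : V} {T : Fin 3 → V} (hT : ∀ i, T i ≠ w) (X : Fin 4) :
    IndepOf w (ptOf T X) := by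
  unfold ptOf
  split_ifs with h
  · exact indepOf_hub hT
  · exact indepOf_ev (hT _)

theorem ptOf_zero (T : Fin 3 → V) (X : Fin 4) : ZeroPt (ptOf T X) := by
  unfold ptOf
  split_ifs with h
  · exact zeroPt_hub T
  · exact zeroPt_ev _

@[simp] theorem ptOf_0 (T : Fin 3 → V) : ptOf T 0 = ev (T 0) := rfl
@[simp] theorem ptOf_1 (T : Fin 3 → V) : ptOf T 1 = ev (T 1) := rfl
@[simp] theorem ptOf_2 (T : Fin 3 → V) : ptOf T 2 = ev (T 2) := rfl
@[simp] theorem ptOf_3 (T : Fin 3 → V) : ptOf T 3 = hubPt T := rfl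

theorem sDist_self (L : Cut V) (P : Pt V) : sDist L P P = 0 := by
  simp [sDist]

/-- slots at a positive distance split through the hub -/
theorem sDist_slots (L : Cut V) (T : Fin 3 → V) {i j : Fin 3} (hij : i ≠ j) :
    sDist L (ev (T i)) (ev (T j)) = legs L T i + legs L T j := by
  rw [sDist_hub_between L T i j hij, sDist_comm L (hubPt T) (ev (T j))]
  rfl

/-! ### persistence -/

section Persist

variable (L0 : Cut V) (w : V) (T0 : Fin 3 → V) (q : Fin 3 → ℝ) (s : ℝ) (hT0 : ∀ i, T0 i ≠ w)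
include hT0

theorem legs_persist {T : Fin 3 → V} (hT : ∀ i, T i ≠ w) (i : Fin 3) :
    legs (stepCut L0 w T0 q s) T i = legs L0 T i :=
  sDist_step_persist L0 w T0 q s hT0 _ _ (indepOf_ev (hT i)) (indepOf_hub hT) (zeroPt_ev _)
    (zeroPt_hub _)

theorem vval_persist {st : VState V} (hT : ∀ i, st.T i ≠ w) :
    VVal (stepCut L0 w T0 q s) st = VVal L0 st := by
  unfold VVal
  simp only [legs_persist L0 w T0 q s hT0 hT]

theorem pairVal_persist {a b : VState V} (ha : ∀ i, a.T i ≠ w) (hb : ∀ i, b.T i ≠ w) :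
    pairVal (stepCut L0 w T0 q s) a b = pairVal L0 a b := by
  unfold pairVal
  refine Finset.sum_congr rfl fun X _ => Finset.sum_congr rfl fun Y _ => ?_
  rw [sDist_step_persist L0 w T0 q s hT0 _ _ (ptOf_indep ha X) (ptOf_indep hb Y) (ptOf_zero _ _)
    (ptOf_zero _ _)]

theorem cert_persist {d : V → V → ℝ} {z : V} {st : VState V} (hT : ∀ i, st.T i ≠ w)
    (h : Cert d (stepCut L0 w T0 q s) z st) : Cert d L0 z st := by
  obtain ⟨y, hy⟩ := h
  refine ⟨y, ?_⟩
  rw [vval_persist L0 w T0 q s hT0 hT] at hy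
  simpa only [legs_persist L0 w T0 q s hT0 hT] using hy

end Persist

/-! ### legs of a child triple -/

theorem fin3_cases : ∀ x : Fin 3, x = 0 ∨ x = 1 ∨ x = 2 := by decide

theorem legs_child (L0 : Cut V) (w : V) (T0 : Fin 3 → V) (q : Fin 3 → ℝ) (s : ℝ)
    (hT0 : ∀ i, T0 i ≠ w) (c i : Fin 3) :
    legs (stepCut L0 w T0 q s) (Function.update T0 c w) i
      = childLegs (legs L0 T0) q s c i := by
  unfold childLegs
  by_cases hi : i = c
  · subst hi
    simp only [if_true]
    unfold legs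
    rw [Function.update_self, sDist_step_new_childHub L0 w T0 q s hT0 i]
  · rw [if_neg hi]
    unfold legs
    rw [Function.update_of_ne hi, sDist_comm,
      sDist_step_childHub L0 w T0 q s hT0 c _ (indepOf_ev (hT0 i)) (zeroPt_ev _)]
    have hd : ∀ j, sDist L0 (ev (T0 j)) (ev (T0 i))
        = if j = i then 0 else legs L0 T0 j + legs L0 T0 i := by
      intro j
      split_ifs with hj
      · subst hj; exact sDist_self _ _
      · exact sDist_slots L0 T0 hj
    have hh : sDist L0 (hubPt T0) (ev (T0 i)) = legs L0 T0 i := sDist_comm _ _ _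
    rw [hh]
    simp only [hd, Fin.sum_univ_three, kapSum, legs]
    obtain rfl | rfl | rfl := fin3_cases c <;> obtain rfl | rfl | rfl := fin3_cases i <;>
      first
        | exact absurd rfl hi
        | (simp only [if_true, Fin.isValue, show ((0 : Fin 3) = 0) = True by simp,
             show ((1 : Fin 3) = 1) = True by simp, show ((2 : Fin 3) = 2) = True by simp,
             show ((0 : Fin 3) = 1) = False by decide, show ((0 : Fin 3) = 2) = False by decide,
             show ((1 : Fin 3) = 0) = False by decide, show ((1 : Fin 3) = 2) = False by decide,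
             show ((2 : Fin 3) = 0) = False by decide, show ((2 : Fin 3) = 1) = False by decide,
             if_false]
           ring)

/-! ### the pull of a law -/

/-- new votes on the slots -/
def pullF (q : Fin 3 → ℝ) (c : Fin 3) (p : Fin 4 → ℝ) (i : Fin 3) : ℝ :=
  if i = c then q c * p c.castSucc else p i.castSucc + q i * (p c.castSucc + p 3)

/-- the pulled law -/
def pullP (q : Fin 3 → ℝ) (c : Fin 3) (p : Fin 4 → ℝ) : Fin 4 → ℝ :=
  ![pullF q c p 0, pullF q c p 1, pullF q c p 2,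
    1 - pullF q c p 0 - pullF q c p 1 - pullF q c p 2]

/-- the pulled state -/
def pullSt (T0 : Fin 3 → V) (q : Fin 3 → ℝ) (s : ℝ) (c : Fin 3) (st : VState V) : VState V :=
  ⟨T0, pullP q c st.p, st.F + st.p c.castSucc * s⟩

theorem cs0 : (0 : Fin 3).castSucc = (0 : Fin 4) := rfl
theorem cs1 : (1 : Fin 3).castSucc = (1 : Fin 4) := rfl
theorem cs2 : (2 : Fin 3).castSucc = (2 : Fin 4) := rfl

theorem pullP_sum (q : Fin 3 → ℝ) (c : Fin 3) (p : Fin 4 → ℝ) : ∑ X, pullP q c p X = 1 := by
  simp only [Fin.sum_univ_four, pullP]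
  simp

theorem pullP_nonneg {q : Fin 3 → ℝ} (hq : ∀ i, 0 ≤ q i) (hq1 : q 0 + q 1 + q 2 ≤ 1) (c : Fin 3)
    {p : Fin 4 → ℝ} (hp : ∀ X, 0 ≤ p X) (hp1 : ∑ X, p X = 1) (X : Fin 4) : 0 ≤ pullP q c p X := by
  have hF : ∀ i, 0 ≤ pullF q c p i := by
    intro i
    unfold pullF
    split_ifs
    · exact mul_nonneg (hq _) (hp _)
    · exact add_nonneg (hp _) (mul_nonneg (hq _) (add_nonneg (hp _) (hp _)))
  have hrest : 0 ≤ 1 - pullF q c p 0 - pullF q c p 1 - pullF q c p 2 := by
    have h3 : p 3 = 1 - p 0 - p 1 - p 2 := by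
      rw [Fin.sum_univ_four] at hp1; linarith
    have key : ∀ c : Fin 3, 1 - pullF q c p 0 - pullF q c p 1 - pullF q c p 2
        = (p c.castSucc + p 3) * (1 - q 0 - q 1 - q 2) + q c * p 3 := by
      intro c
      unfold pullF
      obtain rfl | rfl | rfl := fin3_cases c <;>
        simp only [cs0, cs1, cs2, if_true, Fin.isValue, show ((0 : Fin 3) = 1) = False by decide,
          show ((0 : Fin 3) = 2) = False by decide, show ((1 : Fin 3) = 0) = False by decide,
          show ((1 : Fin 3) = 2) = False by decide, show ((2 : Fin 3) = 0) = False by decide,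
          show ((2 : Fin 3) = 1) = False by decide, if_false] <;>
        rw [h3] <;> ring
    rw [key]
    exact add_nonneg (mul_nonneg (add_nonneg (hp _) (hp _)) (by linarith))
      (mul_nonneg (hq _) (hp _))
  obtain rfl | rfl | rfl | rfl : X = 0 ∨ X = 1 ∨ X = 2 ∨ X = 3 := by
    revert X; decide
  · exact hF 0
  · exact hF 1
  · exact hF 2
  · exact hrest

/-- the coin expansion of the cloud of a child triple -/
theorem sum_pull (L0 : Cut V) (w : V) (T0 : Fin 3 → V) (q : Fin 3 → ℝ) (s : ℝ)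
    (hT0 : ∀ i, T0 i ≠ w) (c : Fin 3) (p : Fin 4 → ℝ) (hp1 : ∑ X, p X = 1)
    (Q : Pt V) (hQ : IndepOf w Q) (hQ0 : ZeroPt Q) :
    ∑ X, p X * sDist (stepCut L0 w T0 q s) (ptOf (Function.update T0 c w) X) Q
      = p c.castSucc * s + ∑ X, pullP q c p X * sDist L0 (ptOf T0 X) Q := by
  have h3 : p 3 = 1 - p 0 - p 1 - p 2 := by
    rw [Fin.sum_univ_four] at hp1; linarith
  have hnew := sDist_step_new L0 w T0 q s hT0 Q hQ hQ0
  have hold : ∀ i, sDist (stepCut L0 w T0 q s) (ev (T0 i)) Q = sDist L0 (ev (T0 i)) Q := fun i =>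
    sDist_step_persist L0 w T0 q s hT0 _ _ (indepOf_ev (hT0 i)) hQ (zeroPt_ev _) hQ0
  have hhub := sDist_step_childHub L0 w T0 q s hT0 c Q hQ hQ0
  simp only [Fin.sum_univ_four, ptOf_0, ptOf_1, ptOf_2, ptOf_3, hhub, Fin.sum_univ_three, pullP,
    pullF]
  simp only [Matrix.cons_val_zero, Matrix.cons_val_one, Matrix.cons_val_two, Matrix.cons_val_three,
    Matrix.head_cons, Matrix.tail_cons, Matrix.cons_val]
  obtain rfl | rfl | rfl := fin3_cases c
  · simp only [cs0, cs1, cs2, if_true, Fin.isValue, show ((0 : Fin 3) = 1) = False by decide,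
      show ((0 : Fin 3) = 2) = False by decide, show ((1 : Fin 3) = 0) = False by decide,
      show ((1 : Fin 3) = 2) = False by decide, show ((2 : Fin 3) = 0) = False by decide,
      show ((2 : Fin 3) = 1) = False by decide, if_false, Function.update_self,
      Function.update_of_ne (show (1 : Fin 3) ≠ 0 by decide),
      Function.update_of_ne (show (2 : Fin 3) ≠ 0 by decide), hold, hnew]
    rw [h3]; ring
  · simp only [cs0, cs1, cs2, if_true, Fin.isValue, show ((0 : Fin 3) = 1) = False by decide,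
      show ((0 : Fin 3) = 2) = False by decide, show ((1 : Fin 3) = 0) = False by decide,
      show ((1 : Fin 3) = 2) = False by decide, show ((2 : Fin 3) = 0) = False by decide,
      show ((2 : Fin 3) = 1) = False by decide, if_false, Function.update_self,
      Function.update_of_ne (show (0 : Fin 3) ≠ 1 by decide),
      Function.update_of_ne (show (2 : Fin 3) ≠ 1 by decide), hold, hnew]
    rw [h3]; ring
  · simp only [cs0, cs1, cs2, if_true, Fin.isValue, show ((0 : Fin 3) = 1) = False by decide,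
      show ((0 : Fin 3) = 2) = False by decide, show ((1 : Fin 3) = 0) = False by decide,
      show ((1 : Fin 3) = 2) = False by decide, show ((2 : Fin 3) = 0) = False by decide,
      show ((2 : Fin 3) = 1) = False by decide, if_false, Function.update_self,
      Function.update_of_ne (show (0 : Fin 3) ≠ 2 by decide),
      Function.update_of_ne (show (1 : Fin 3) ≠ 2 by decide), hold, hnew]
    rw [h3]; ring

theorem pairVal_comm (L : Cut V) (a b : VState V) : pairVal L a b = pairVal L b a := by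
  unfold pairVal
  rw [Finset.sum_comm]
  refine Finset.sum_congr rfl fun X _ => Finset.sum_congr rfl fun Y _ => ?_
  rw [sDist_comm]; ring

theorem pairVal_pull_left (L0 : Cut V) (w : V) (T0 : Fin 3 → V) (q : Fin 3 → ℝ) (s : ℝ)
    (hT0 : ∀ i, T0 i ≠ w) (c : Fin 3) (a b : VState V) (ha : a.T = Function.update T0 c w)
    (ha1 : ∑ X, a.p X = 1) (hb : ∀ i, b.T i ≠ w) (hb1 : ∑ X, b.p X = 1) :
    pairVal (stepCut L0 w T0 q s) a b
      = a.p c.castSucc * s + pairVal L0 (pullSt T0 q s c a) b := by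
  unfold pairVal
  have e1 : ∑ X, ∑ Y, a.p X * b.p Y * sDist (stepCut L0 w T0 q s) (ptOf a.T X) (ptOf b.T Y)
      = ∑ Y, b.p Y * ∑ X, a.p X * sDist (stepCut L0 w T0 q s) (ptOf a.T X) (ptOf b.T Y) := by
    rw [Finset.sum_comm]
    refine Finset.sum_congr rfl fun Y _ => ?_
    rw [Finset.mul_sum]
    refine Finset.sum_congr rfl fun X _ => ?_
    ring
  have e2 : ∑ X, ∑ Y, (pullSt T0 q s c a).p X * b.p Y
        * sDist L0 (ptOf (pullSt T0 q s c a).T X) (ptOf b.T Y)
      = ∑ Y, b.p Y * ∑ X, pullP q c a.p X * sDist L0 (ptOf T0 X) (ptOf b.T Y) := by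
    rw [Finset.sum_comm]
    refine Finset.sum_congr rfl fun Y _ => ?_
    rw [Finset.mul_sum]
    refine Finset.sum_congr rfl fun X _ => ?_
    simp only [pullSt]
    ring
  rw [e1, e2, ha]
  have e3 : ∀ Y, ∑ X, a.p X * sDist (stepCut L0 w T0 q s) (ptOf (Function.update T0 c w) X)
        (ptOf b.T Y)
      = a.p c.castSucc * s + ∑ X, pullP q c a.p X * sDist L0 (ptOf T0 X) (ptOf b.T Y) := fun Y =>
    sum_pull L0 w T0 q s hT0 c a.p ha1 _ (ptOf_indep hb Y) (ptOf_zero _ _)
  simp only [e3, mul_add]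
  rw [Finset.sum_add_distrib, ← Finset.sum_mul, hb1, one_mul]

theorem pairVal_pull_right (L0 : Cut V) (w : V) (T0 : Fin 3 → V) (q : Fin 3 → ℝ) (s : ℝ)
    (hT0 : ∀ i, T0 i ≠ w) (c : Fin 3) (a b : VState V) (hb : b.T = Function.update T0 c w)
    (hb1 : ∑ X, b.p X = 1) (ha : ∀ i, a.T i ≠ w) (ha1 : ∑ X, a.p X = 1) :
    pairVal (stepCut L0 w T0 q s) a b
      = b.p c.castSucc * s + pairVal L0 a (pullSt T0 q s c b) := by
  rw [pairVal_comm, pairVal_pull_left L0 w T0 q s hT0 c b a hb hb1 ha ha1, pairVal_comm L0]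

/-! ### relabelling the potential -/

theorem mval_perm (π : Equiv.Perm (Fin 4)) (l p : Fin 4 → ℝ) (y : Fin 4) :
    mval (l ∘ π) (p ∘ π) y = mval l p (π y) := by
  unfold mval
  have hst : ∀ X Y, star (l ∘ π) X Y = star l (π X) (π Y) := by
    intro X Y
    simp [star, π.injective.eq_iff]
  simp only [hst, Function.comp]
  rw [← Equiv.sum_comp π (fun X => ∑ X', p X * p X' * min (star l X (π y)) (star l X' (π y)))]
  refine Finset.sum_congr rfl fun X _ => ?_
  rw [← Equiv.sum_comp π (fun X' => p (π X) * p X' * min (star l (π X) (π y)) (star l X' (π y)))]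

theorem psi_perm (π : Equiv.Perm (Fin 4)) (h3 : π 3 = 3)
    (hm : ∀ f : Fin 4 → ℝ, min (f (π 0)) (min (f (π 1)) (f (π 2))) = min (f 0) (min (f 1) (f 2)))
    (K : ℝ) (g l p : Fin 4 → ℝ) (y : Fin 4) :
    psi K (g ∘ π) (l ∘ π) (p ∘ π) y = psi K g l p (π y) := by
  unfold psi
  rw [mval_perm]
  congr 1
  unfold ghat
  by_cases hy : y = 3
  · subst hy
    rw [h3]
    simp only [if_true, Function.comp]
    exact hm fun X => g X + l X
  · have hy' : π y ≠ 3 := by
      intro h
      apply hy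
      apply π.injective
      rw [h, h3]
    simp [hy, hy']

/-- the increase of the potential under a pull -/
def dV (σ q : Fin 3 → ℝ) (s : ℝ) (c : Fin 3) (p : Fin 4 → ℝ) : ℝ :=
  (p c.castSucc) ^ 2 * (s + q c * σ c * (1 - q c))
    + (p c.castSucc + p 3) ^ 2 * ∑ i : Fin 3, if i = c then 0 else q i * σ i * (1 - q i)

theorem fin4_eta (p : Fin 4 → ℝ) : p = ![p 0, p 1, p 2, p 3] := by
  funext X
  obtain rfl | rfl | rfl | rfl : X = 0 ∨ X = 1 ∨ X = 2 ∨ X = 3 := by
    revert X; decide
  all_goals rfl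

/-- `deep_step` for a general replaced slot, with explicit relabelling data -/
theorem deep_gen (σ q bx g : Fin 3 → ℝ) (s gw : ℝ) (p : Fin 4 → ℝ) (A B E : Fin 3)
    (hAB : A ≠ B) (hAE : A ≠ E) (hBE : B ≠ E)
    (π : Equiv.Perm (Fin 4)) (hπ3 : π 3 = 3) (hπA : π 0 = A.castSucc) (hπB : π 1 = B.castSucc)
    (hπE : π 2 = E.castSucc) (hinv : ∀ X, π (π X) = X)
    (hm : ∀ f : Fin 4 → ℝ, min (f (π 0)) (min (f (π 1)) (f (π 2))) = min (f 0) (min (f 1) (f 2)))
    (hkap : kapSum σ q = q A * σ A + q B * σ B + q E * σ E)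
    (hσ : ∀ i, 0 ≤ σ i) (hq : ∀ i, 0 ≤ q i) (hqs : q A + q B + q E ≤ 1) (hs : 0 ≤ s)
    (hp : ∀ X, 0 ≤ p X) (hp1 : ∑ X, p X = 1)
    (hf : ∀ i, bx i ≤ tauF σ q s i)
    (hLC : ∀ z, min (bx A + σ A) (min (bx B + σ B) (bx E + σ E))
      ≤ s + kapSum σ q + 29 * (kapSum σ q - q z * σ z))
    (hg : ∀ i, |g i - gw| ≤ bx i) (hab : |g A - g B| ≤ σ A + σ B)
    (y : Fin 4) :
    ∃ y' : Fin 4,
      psi 20 (![g A, g B, g E, 0] ∘ π) (![σ A, σ B, σ E, 0] ∘ π)
        (![p A.castSucc + q A * (p E.castSucc + p 3), p B.castSucc + q B * (p E.castSucc + p 3),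
           q E * p E.castSucc,
           1 - (p A.castSucc + q A * (p E.castSucc + p 3))
             - (p B.castSucc + q B * (p E.castSucc + p 3)) - q E * p E.castSucc] ∘ π) y'
        ≤ psi 20 (![g A, g B, gw, 0] ∘ π)
            (![σ A - q A * σ A + q B * σ B, σ B - q B * σ B + q A * σ A, s + q E * σ E, 0] ∘ π)
            (![p A.castSucc, p B.castSucc, p E.castSucc, p 3] ∘ π) y
          + 5000 * ((p E.castSucc) ^ 2 * (s + q E * σ E * (1 - q E))
              + (p E.castSucc + p 3) ^ 2 * (q A * σ A * (1 - q A) + q B * σ B * (1 - q B))) := by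
  have hsum : p A.castSucc + p B.castSucc + p E.castSucc + p 3 = 1 := by
    have hπs : ∑ X, p (π X) = 1 := by rw [Equiv.sum_comp]; exact hp1
    rw [Fin.sum_univ_four, hπA, hπB, hπE, hπ3] at hπs
    exact hπs
  have hfa := hf A
  have hfb := hf B
  have hfe := hf E
  unfold tauF at hfa hfb hfe
  rw [hkap] at hfa hfb hfe
  have hLa := hLC A
  have hLb := hLC B
  have hLe := hLC E
  rw [hkap] at hLa hLb hLe
  obtain ⟨y', hy'⟩ := deep_step (σ A) (σ B) (σ E) (q A) (q B) (q E) s (bx A) (bx B) (bx E)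
    (g A) (g B) (g E) gw (p A.castSucc) (p B.castSucc) (p E.castSucc) (p 3)
    (hσ A) (hσ B) (hσ E) (hq A) (hq B) (hq E) hqs hs (hp _) (hp _) (hp _) (hp _) hsum
    (by linarith) (by linarith) (by linarith)
    (hg A) (hg B) (hg E) hab
    (by refine hLa.trans (le_of_eq ?_); ring)
    (by refine hLb.trans (le_of_eq ?_); ring)
    (by refine hLe.trans (le_of_eq ?_); ring)
    (π y)
  refine ⟨π y', ?_⟩
  rw [psi_perm π hπ3 hm, psi_perm π hπ3 hm, hinv]
  exact hy'

theorem fin4_cases : ∀ X : Fin 4, X = 0 ∨ X = 1 ∨ X = 2 ∨ X = 3 := by decide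

/-- `deep_step` for a general replaced slot -/
theorem deep_slot (σ q bx g g1 : Fin 3 → ℝ) (s gw : ℝ) (p : Fin 4 → ℝ) (c : Fin 3)
    (hg1 : ∀ i, g1 i = if i = c then gw else g i)
    (hσ : ∀ i, 0 ≤ σ i) (hq : ∀ i, 0 ≤ q i) (hqs : q 0 + q 1 + q 2 ≤ 1) (hs : 0 ≤ s)
    (hp : ∀ X, 0 ≤ p X) (hp1 : ∑ X, p X = 1)
    (hf : ∀ i, bx i ≤ tauF σ q s i)
    (hLC : ∀ z, min (bx 0 + σ 0) (min (bx 1 + σ 1) (bx 2 + σ 2))
      ≤ s + kapSum σ q + 29 * (kapSum σ q - q z * σ z))
    (hg : ∀ i, |g i - gw| ≤ bx i) (hab : ∀ i j, i ≠ j → |g i - g j| ≤ σ i + σ j)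
    (y : Fin 4) :
    ∃ y' : Fin 4,
      psi 20 ![g 0, g 1, g 2, 0] ![σ 0, σ 1, σ 2, 0] (pullP q c p) y'
        ≤ psi 20 ![g1 0, g1 1, g1 2, 0]
            ![childLegs σ q s c 0, childLegs σ q s c 1, childLegs σ q s c 2, 0] p y
          + 5000 * dV σ q s c p := by
  obtain rfl | rfl | rfl := fin3_cases c
  · -- replaced slot 0: relabel by the swap of 0 and 2
    have hv0 : (Equiv.swap (0 : Fin 4) 2) 0 = 2 := by decide
    have hv1 : (Equiv.swap (0 : Fin 4) 2) 1 = 1 := by decide
    have hv2 : (Equiv.swap (0 : Fin 4) 2) 2 = 0 := by decide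
    have hv3 : (Equiv.swap (0 : Fin 4) 2) 3 = 3 := by decide
    obtain ⟨y', hy'⟩ := deep_gen σ q bx g s gw p 2 1 0 (by decide) (by decide) (by decide)
      (Equiv.swap (0 : Fin 4) 2) hv3 hv0 hv1 hv2 (fun X => Equiv.swap_apply_self _ _ _)
      (by
        intro f
        rw [hv0, hv1, hv2, min_comm (f 1) (f 0), min_left_comm, min_comm (f 2) (f 1)])
      (by unfold kapSum; ring) hσ hq (by linarith) hs hp hp1 hf
      (by
        intro z
        refine le_trans (le_of_eq ?_) (hLC z)
        rw [min_comm (bx 1 + σ 1) (bx 0 + σ 0), min_left_comm,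
          min_comm (bx 2 + σ 2) (bx 1 + σ 1)])
      hg (hab _ _ (by decide)) y
    refine ⟨y', ?_⟩
    have e1 : ![g 2, g 1, g 0, 0] ∘ (Equiv.swap (0 : Fin 4) 2) = ![g 0, g 1, g 2, 0] := by
      funext X
      obtain rfl | rfl | rfl | rfl := fin4_cases X <;> simp [hv0, hv1, hv2, hv3]
    have e2 : ![σ 2, σ 1, σ 0, 0] ∘ (Equiv.swap (0 : Fin 4) 2) = ![σ 0, σ 1, σ 2, 0] := by
      funext X
      obtain rfl | rfl | rfl | rfl := fin4_cases X <;> simp [hv0, hv1, hv2, hv3]
    have e3 : ![p (2 : Fin 3).castSucc + q 2 * (p (0 : Fin 3).castSucc + p 3),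
        p (1 : Fin 3).castSucc + q 1 * (p (0 : Fin 3).castSucc + p 3),
        q 0 * p (0 : Fin 3).castSucc,
        1 - (p (2 : Fin 3).castSucc + q 2 * (p (0 : Fin 3).castSucc + p 3))
          - (p (1 : Fin 3).castSucc + q 1 * (p (0 : Fin 3).castSucc + p 3))
          - q 0 * p (0 : Fin 3).castSucc] ∘ (Equiv.swap (0 : Fin 4) 2) = pullP q 0 p := by
      funext X
      obtain rfl | rfl | rfl | rfl := fin4_cases X <;>
        simp [hv0, hv1, hv2, hv3, pullP, pullF]
      ring
    have e4 : ![g 2, g 1, gw, 0] ∘ (Equiv.swap (0 : Fin 4) 2) = ![g1 0, g1 1, g1 2, 0] := by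
      funext X
      obtain rfl | rfl | rfl | rfl := fin4_cases X <;> simp [hv0, hv1, hv2, hv3, hg1]
    have e5 : ![σ 2 - q 2 * σ 2 + q 1 * σ 1, σ 1 - q 1 * σ 1 + q 2 * σ 2, s + q 0 * σ 0, 0]
        ∘ (Equiv.swap (0 : Fin 4) 2)
        = ![childLegs σ q s 0 0, childLegs σ q s 0 1, childLegs σ q s 0 2, 0] := by
      funext X
      obtain rfl | rfl | rfl | rfl := fin4_cases X <;>
        simp [hv0, hv1, hv2, hv3, childLegs, kapSum] <;> ring
    have e6 : ![p (2 : Fin 3).castSucc, p (1 : Fin 3).castSucc, p (0 : Fin 3).castSucc, p 3]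
        ∘ (Equiv.swap (0 : Fin 4) 2) = p := by
      funext X
      obtain rfl | rfl | rfl | rfl := fin4_cases X <;> simp [hv0, hv1, hv2, hv3, cs0, cs1, cs2]
    have e7 : (p (0 : Fin 3).castSucc) ^ 2 * (s + q 0 * σ 0 * (1 - q 0))
        + (p (0 : Fin 3).castSucc + p 3) ^ 2 * (q 2 * σ 2 * (1 - q 2) + q 1 * σ 1 * (1 - q 1))
        = dV σ q s 0 p := by
      unfold dV
      rw [Fin.sum_univ_three, if_pos rfl, if_neg (by decide), if_neg (by decide)]
      ring
    rw [e1, e2, e3, e4, e5, e6, e7] at hy'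
    exact hy'
  · -- replaced slot 1: relabel by the swap of 1 and 2
    have hv0 : (Equiv.swap (1 : Fin 4) 2) 0 = 0 := by decide
    have hv1 : (Equiv.swap (1 : Fin 4) 2) 1 = 2 := by decide
    have hv2 : (Equiv.swap (1 : Fin 4) 2) 2 = 1 := by decide
    have hv3 : (Equiv.swap (1 : Fin 4) 2) 3 = 3 := by decide
    obtain ⟨y', hy'⟩ := deep_gen σ q bx g s gw p 0 2 1 (by decide) (by decide) (by decide)
      (Equiv.swap (1 : Fin 4) 2) hv3 hv0 hv1 hv2 (fun X => Equiv.swap_apply_self _ _ _)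
      (by
        intro f
        rw [hv0, hv1, hv2, min_comm (f 2) (f 1)])
      (by unfold kapSum; ring) hσ hq (by linarith) hs hp hp1 hf
      (by
        intro z
        refine le_trans (le_of_eq ?_) (hLC z)
        rw [min_comm (bx 2 + σ 2) (bx 1 + σ 1)])
      hg (hab _ _ (by decide)) y
    refine ⟨y', ?_⟩
    have e1 : ![g 0, g 2, g 1, 0] ∘ (Equiv.swap (1 : Fin 4) 2) = ![g 0, g 1, g 2, 0] := by
      funext X
      obtain rfl | rfl | rfl | rfl := fin4_cases X <;> simp [hv0, hv1, hv2, hv3]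
    have e2 : ![σ 0, σ 2, σ 1, 0] ∘ (Equiv.swap (1 : Fin 4) 2) = ![σ 0, σ 1, σ 2, 0] := by
      funext X
      obtain rfl | rfl | rfl | rfl := fin4_cases X <;> simp [hv0, hv1, hv2, hv3]
    have e3 : ![p (0 : Fin 3).castSucc + q 0 * (p (1 : Fin 3).castSucc + p 3),
        p (2 : Fin 3).castSucc + q 2 * (p (1 : Fin 3).castSucc + p 3),
        q 1 * p (1 : Fin 3).castSucc,
        1 - (p (0 : Fin 3).castSucc + q 0 * (p (1 : Fin 3).castSucc + p 3))
          - (p (2 : Fin 3).castSucc + q 2 * (p (1 : Fin 3).castSucc + p 3))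
          - q 1 * p (1 : Fin 3).castSucc] ∘ (Equiv.swap (1 : Fin 4) 2) = pullP q 1 p := by
      funext X
      obtain rfl | rfl | rfl | rfl := fin4_cases X <;>
        simp [hv0, hv1, hv2, hv3, pullP, pullF]
      ring
    have e4 : ![g 0, g 2, gw, 0] ∘ (Equiv.swap (1 : Fin 4) 2) = ![g1 0, g1 1, g1 2, 0] := by
      funext X
      obtain rfl | rfl | rfl | rfl := fin4_cases X <;> simp [hv0, hv1, hv2, hv3, hg1]
    have e5 : ![σ 0 - q 0 * σ 0 + q 2 * σ 2, σ 2 - q 2 * σ 2 + q 0 * σ 0, s + q 1 * σ 1, 0]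
        ∘ (Equiv.swap (1 : Fin 4) 2)
        = ![childLegs σ q s 1 0, childLegs σ q s 1 1, childLegs σ q s 1 2, 0] := by
      funext X
      obtain rfl | rfl | rfl | rfl := fin4_cases X <;>
        simp [hv0, hv1, hv2, hv3, childLegs, kapSum] <;> ring
    have e6 : ![p (0 : Fin 3).castSucc, p (2 : Fin 3).castSucc, p (1 : Fin 3).castSucc, p 3]
        ∘ (Equiv.swap (1 : Fin 4) 2) = p := by
      funext X
      obtain rfl | rfl | rfl | rfl := fin4_cases X <;> simp [hv0, hv1, hv2, hv3, cs0, cs1, cs2]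
    have e7 : (p (1 : Fin 3).castSucc) ^ 2 * (s + q 1 * σ 1 * (1 - q 1))
        + (p (1 : Fin 3).castSucc + p 3) ^ 2 * (q 0 * σ 0 * (1 - q 0) + q 2 * σ 2 * (1 - q 2))
        = dV σ q s 1 p := by
      unfold dV
      rw [Fin.sum_univ_three, if_neg (by decide), if_pos rfl, if_neg (by decide)]
      ring
    rw [e1, e2, e3, e4, e5, e6, e7] at hy'
    exact hy'
  · -- replaced slot 2: no relabelling
    have hv0 : (Equiv.refl (Fin 4)) 0 = 0 := rfl
    have hv1 : (Equiv.refl (Fin 4)) 1 = 1 := rfl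
    have hv2 : (Equiv.refl (Fin 4)) 2 = 2 := rfl
    have hv3 : (Equiv.refl (Fin 4)) 3 = 3 := rfl
    obtain ⟨y', hy'⟩ := deep_gen σ q bx g s gw p 0 1 2 (by decide) (by decide) (by decide)
      (Equiv.refl (Fin 4)) hv3 hv0 hv1 hv2 (fun X => rfl)
      (fun f => rfl)
      (by unfold kapSum; ring) hσ hq (by linarith) hs hp hp1 hf
      hLC
      hg (hab _ _ (by decide)) y
    refine ⟨y', ?_⟩
    have e1 : ![g 0, g 1, g 2, 0] ∘ (Equiv.refl (Fin 4)) = ![g 0, g 1, g 2, 0] := rfl
    have e2 : ![σ 0, σ 1, σ 2, 0] ∘ (Equiv.refl (Fin 4)) = ![σ 0, σ 1, σ 2, 0] := rfl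
    have e3 : ![p (0 : Fin 3).castSucc + q 0 * (p (2 : Fin 3).castSucc + p 3),
        p (1 : Fin 3).castSucc + q 1 * (p (2 : Fin 3).castSucc + p 3),
        q 2 * p (2 : Fin 3).castSucc,
        1 - (p (0 : Fin 3).castSucc + q 0 * (p (2 : Fin 3).castSucc + p 3))
          - (p (1 : Fin 3).castSucc + q 1 * (p (2 : Fin 3).castSucc + p 3))
          - q 2 * p (2 : Fin 3).castSucc] ∘ (Equiv.refl (Fin 4)) = pullP q 2 p := by
      funext X
      obtain rfl | rfl | rfl | rfl := fin4_cases X <;>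
        simp [hv0, hv1, hv2, hv3, pullP, pullF]
    have e4 : ![g 0, g 1, gw, 0] ∘ (Equiv.refl (Fin 4)) = ![g1 0, g1 1, g1 2, 0] := by
      funext X
      obtain rfl | rfl | rfl | rfl := fin4_cases X <;> simp [hv0, hv1, hv2, hv3, hg1]
    have e5 : ![σ 0 - q 0 * σ 0 + q 1 * σ 1, σ 1 - q 1 * σ 1 + q 0 * σ 0, s + q 2 * σ 2, 0]
        ∘ (Equiv.refl (Fin 4))
        = ![childLegs σ q s 2 0, childLegs σ q s 2 1, childLegs σ q s 2 2, 0] := by
      funext X
      obtain rfl | rfl | rfl | rfl := fin4_cases X <;>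
        simp [hv0, hv1, hv2, hv3, childLegs, kapSum] <;> ring
    have e6 : ![p (0 : Fin 3).castSucc, p (1 : Fin 3).castSucc, p (2 : Fin 3).castSucc, p 3]
        ∘ (Equiv.refl (Fin 4)) = p := by
      funext X
      obtain rfl | rfl | rfl | rfl := fin4_cases X <;> simp [hv0, hv1, hv2, hv3, cs0, cs1, cs2]
    have e7 : (p (2 : Fin 3).castSucc) ^ 2 * (s + q 2 * σ 2 * (1 - q 2))
        + (p (2 : Fin 3).castSucc + p 3) ^ 2 * (q 0 * σ 0 * (1 - q 0) + q 1 * σ 1 * (1 - q 1))
        = dV σ q s 2 p := by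
      unfold dV
      rw [Fin.sum_univ_three, if_neg (by decide), if_neg (by decide), if_pos rfl]
      ring
    rw [e1, e2, e3, e4, e5, e6, e7] at hy'
    exact hy'

/-! ### the certificate under a pull -/

theorem vval_pull (L0 : Cut V) (w : V) (T0 : Fin 3 → V) (q : Fin 3 → ℝ) (s : ℝ)
    (hT0 : ∀ i, T0 i ≠ w) (c : Fin 3) (st : VState V) (hst : st.T = Function.update T0 c w)
    (hp1 : ∑ X, st.p X = 1) :
    VVal L0 (pullSt T0 q s c st)
      = VVal (stepCut L0 w T0 q s) st + dV (legs L0 T0) q s c st.p := by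
  have h3 : st.p 3 = 1 - st.p 0 - st.p 1 - st.p 2 := by
    rw [Fin.sum_univ_four] at hp1; linarith
  unfold VVal dV
  rw [hst]
  have hP0 : pullP q c st.p 0 = pullF q c st.p 0 := rfl
  have hP1 : pullP q c st.p 1 = pullF q c st.p 1 := rfl
  have hP2 : pullP q c st.p 2 = pullF q c st.p 2 := rfl
  simp only [legs_child L0 w T0 q s hT0, Fin.sum_univ_three, pullSt, cs0, cs1, cs2, hP0, hP1, hP2]
  simp only [pullF, childLegs, kapSum]
  obtain rfl | rfl | rfl := fin3_cases c
  · simp only [cs0, cs1, cs2, if_true, Fin.isValue, show ((0 : Fin 3) = 1) = False by decide,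
      show ((0 : Fin 3) = 2) = False by decide, show ((1 : Fin 3) = 0) = False by decide,
      show ((1 : Fin 3) = 2) = False by decide, show ((2 : Fin 3) = 0) = False by decide,
      show ((2 : Fin 3) = 1) = False by decide, if_false]
    rw [h3]; ring
  · simp only [cs0, cs1, cs2, if_true, Fin.isValue, show ((0 : Fin 3) = 1) = False by decide,
      show ((0 : Fin 3) = 2) = False by decide, show ((1 : Fin 3) = 0) = False by decide,
      show ((1 : Fin 3) = 2) = False by decide, show ((2 : Fin 3) = 0) = False by decide,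
      show ((2 : Fin 3) = 1) = False by decide, if_false]
    rw [h3]; ring
  · simp only [cs0, cs1, cs2, if_true, Fin.isValue, show ((0 : Fin 3) = 1) = False by decide,
      show ((0 : Fin 3) = 2) = False by decide, show ((1 : Fin 3) = 0) = False by decide,
      show ((1 : Fin 3) = 2) = False by decide, show ((2 : Fin 3) = 0) = False by decide,
      show ((2 : Fin 3) = 1) = False by decide, if_false]
    rw [h3]; ring

theorem cert_pull {d : V → V → ℝ} (hd : PMetric d) (L0 : Cut V) (w : V) (T0 : Fin 3 → V)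
    (q : Fin 3 → ℝ) (s : ℝ) (hT0 : ∀ i, T0 i ≠ w) (c : Fin 3) (z : V) (st : VState V)
    (hst : st.T = Function.update T0 c w) (hp : ∀ X, 0 ≤ st.p X) (hp1 : ∑ X, st.p X = 1)
    (hA : ActionOK (legs L0 T0) (fun i => d w (T0 i)) q s)
    (hI : TripleInv (legs L0 T0) (triDist d T0))
    (h : Cert d (stepCut L0 w T0 q s) z st) :
    Cert d L0 z (pullSt T0 q s c st) := by
  obtain ⟨y, hy⟩ := h
  obtain ⟨y', hy'⟩ := deep_slot (legs L0 T0) q (fun i => (1 / 100) * d w (T0 i))
    (fun i => (1 / 100) * d z (T0 i)) (fun i => (1 / 100) * d z (st.T i)) s ((1 / 100) * d z w)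
    st.p c
    (by
      intro i
      rw [hst]
      by_cases hi : i = c
      · subst hi; simp
      · simp [hi])
    hI.sig_nonneg hA.q_nonneg hA.q_sum hA.s_nonneg hp hp1 hA.floor hA.lc
    (by
      intro i
      have h1 := hd.tri z w (T0 i)
      have h2 := hd.tri z (T0 i) w
      have h3 := hd.symm (T0 i) w
      rw [abs_le]
      constructor <;> linarith)
    (by
      intro i j hij
      have h0 := hI.floor i j hij
      unfold triDist at h0
      have h1 := hd.tri z (T0 j) (T0 i)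
      have h2 := hd.tri z (T0 i) (T0 j)
      have h3 := hd.symm (T0 j) (T0 i)
      rw [abs_le]
      constructor <;> linarith)
    y
  refine ⟨y', ?_⟩
  have hl : ∀ i, legs (stepCut L0 w T0 q s) st.T i = childLegs (legs L0 T0) q s c i := by
    intro i
    rw [hst]
    exact legs_child L0 w T0 q s hT0 c i
  rw [hl 0, hl 1, hl 2] at hy
  rw [vval_pull L0 w T0 q s hT0 c st hst hp1, mul_add]
  have hgoal : psi 20 ![(1 / 100) * d z ((pullSt T0 q s c st).T 0),
        (1 / 100) * d z ((pullSt T0 q s c st).T 1), (1 / 100) * d z ((pullSt T0 q s c st).T 2), 0]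
      ![legs L0 (pullSt T0 q s c st).T 0, legs L0 (pullSt T0 q s c st).T 1,
        legs L0 (pullSt T0 q s c st).T 2, 0] (pullSt T0 q s c st).p y'
      = psi 20 ![(1 / 100) * d z (T0 0), (1 / 100) * d z (T0 1), (1 / 100) * d z (T0 2), 0]
        ![legs L0 T0 0, legs L0 T0 1, legs L0 T0 2, 0] (pullP q c st.p) y' := rfl
  rw [hgoal]
  exact hy'.trans (by linarith)

/-! ### the induction -/

/-- two vertices are equal or lie in different slots of a valid triple -/
def CommonT (r : V) (H : List (HEntry V)) (u v : V) : Prop :=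
  u = v ∨ ∃ T, ValidT r H T ∧ ∃ i j, i ≠ j ∧ T i = u ∧ T j = v

theorem common_stop {r : V} {H : List (HEntry V)} {w : V} {T0 : Fin 3 → V} {s : ℝ}
    {q : Fin 3 → ℝ} (hT0 : ValidT r H T0) (c c' i j : Fin 3) :
    CommonT r ((w, T0, s, q) :: H) (Function.update T0 c w i) (Function.update T0 c' w j) := by
  have hother : ∀ j : Fin 3, ∃ k : Fin 3, k ≠ j := by decide
  have hchild : ∀ k, ValidT r ((w, T0, s, q) :: H) (Function.update T0 k w) := fun k =>
    validT_head r H (w, T0, s, q) k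
  by_cases hi : i = c
  · subst hi
    by_cases hj : j = c'
    · subst hj
      left
      simp
    · obtain ⟨k, hk⟩ := hother j
      right
      refine ⟨Function.update T0 k w, hchild k, k, j, hk, by simp, ?_⟩
      rw [Function.update_of_ne (Ne.symm hk), Function.update_of_ne hj]
  · by_cases hj : j = c'
    · subst hj
      obtain ⟨k, hk⟩ := hother i
      right
      refine ⟨Function.update T0 k w, hchild k, i, k, Ne.symm hk, ?_, by simp⟩
      rw [Function.update_of_ne (Ne.symm hk), Function.update_of_ne hi]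
    · rw [Function.update_of_ne hi, Function.update_of_ne hj]
      by_cases hij : i = j
      · subst hij
        exact Or.inl rfl
      · exact Or.inr ⟨T0, validT_cons _ hT0, i, j, hij, rfl, rfl⟩

theorem descent_aux {d : V → V → ℝ} (hd : PMetric d) (r x y : V) {H : List (HEntry V)}
    (hH : Good d r H) :
    (∀ T, ValidT r H T → TripleInv (legs (buildCut H) T) (triDist d T)) →
    ∀ a b : VState V, ValidT r H a.T → ValidT r H b.T →
      Cert d (buildCut H) x a → Cert d (buildCut H) y b →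
      (∀ X, 0 ≤ a.p X) → (∀ X, 0 ≤ b.p X) → (∑ X, a.p X = 1) → (∑ X, b.p X = 1) →
      ∃ (H' : List (HEntry V)) (a' b' : VState V), H' <:+ H ∧
        Cert d (buildCut H') x a' ∧ Cert d (buildCut H') y b' ∧
        (∀ X, 0 ≤ a'.p X) ∧ (∀ X, 0 ≤ b'.p X) ∧ (∑ X, a'.p X = 1) ∧ (∑ X, b'.p X = 1) ∧
        a.F + b.F + pairVal (buildCut H) a b = a'.F + b'.F + pairVal (buildCut H') a' b' ∧
        ∀ i j, CommonT r H' (a'.T i) (b'.T j) := by
  induction hH with
  | nil =>
    intro hinv a b haV hbV hca hcb ha hb ha1 hb1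
    refine ⟨[], a, b, List.suffix_refl _, hca, hcb, ha, hb, ha1, hb1, rfl, ?_⟩
    intro i j
    left
    rcases haV with ha' | ⟨e, he, _⟩
    · rcases hbV with hb' | ⟨e, he, _⟩
      · rw [ha', hb']
      · simp at he
    · simp at he
  | @cons H w T0 s q hH hT0V hw hA ih =>
    intro hinv a b haV hbV hca hcb ha hb ha1 hb1
    have hne0 : ∀ i, T0 i ≠ w := valid_ne hH hw hT0V
    have hbc : buildCut ((w, T0, s, q) :: H) = stepCut (buildCut H) w T0 q s := rfl
    rw [hbc] at hca hcb ⊢
    have hinv0 : ∀ T, ValidT r H T → TripleInv (legs (buildCut H) T) (triDist d T) := by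
      intro T hT
      have h1 := hinv T (validT_cons _ hT)
      rw [hbc] at h1
      have h2 : legs (stepCut (buildCut H) w T0 q s) T = legs (buildCut H) T := by
        funext i
        exact legs_persist _ w T0 q s hne0 (valid_ne hH hw hT) i
      rwa [h2] at h1
    have hI0 := hinv0 T0 hT0V
    have hpersist : ∀ {st : VState V}, ValidT r H st.T → ∀ i, st.T i ≠ w :=
      fun {st} hs i => valid_ne hH hw hs i
    have hstep : ∀ {H1 : List (HEntry V)}, H1 <:+ H → H1 <:+ (w, T0, s, q) :: H := fun h =>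
      h.trans (List.suffix_cons _ _)
    have hcommon : ∀ {u v : V}, CommonT r H u v → CommonT r H u v := fun h => h
    rcases valid_cases haV with haH | ⟨c, hac⟩
    · rcases valid_cases hbV with hbH | ⟨c', hbc'⟩
      · -- neither reads `w`
        obtain ⟨H', a', b', hs, hca', hcb', ha', hb', ha1', hb1', hval, hfl⟩ :=
          ih hinv0 a b haH hbH
            (cert_persist _ w T0 q s hne0 (hpersist haH) hca)
            (cert_persist _ w T0 q s hne0 (hpersist hbH) hcb) ha hb ha1 hb1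
        refine ⟨H', a', b', hstep hs, hca', hcb', ha', hb', ha1', hb1', ?_, hfl⟩
        rw [pairVal_persist _ w T0 q s hne0 (hpersist haH) (hpersist hbH)]
        exact hval
      · -- only `b` reads `w`
        obtain ⟨H', a', b', hs, hca', hcb', ha', hb', ha1', hb1', hval, hfl⟩ :=
          ih hinv0 a (pullSt T0 q s c' b) haH hT0V
            (cert_persist _ w T0 q s hne0 (hpersist haH) hca)
            (cert_pull hd _ w T0 q s hne0 c' y b hbc' hb hb1 hA hI0 hcb) ha
            (pullP_nonneg hA.q_nonneg hA.q_sum c' hb hb1) ha1 (pullP_sum q c' b.p)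
        refine ⟨H', a', b', hstep hs, hca', hcb', ha', hb', ha1', hb1', ?_, hfl⟩
        rw [pairVal_pull_right _ w T0 q s hne0 c' a b hbc' hb1 (hpersist haH) ha1, ← hval]
        simp only [pullSt]
        ring
    · rcases valid_cases hbV with hbH | ⟨c', hbc'⟩
      · -- only `a` reads `w`
        obtain ⟨H', a', b', hs, hca', hcb', ha', hb', ha1', hb1', hval, hfl⟩ :=
          ih hinv0 (pullSt T0 q s c a) b hT0V hbH
            (cert_pull hd _ w T0 q s hne0 c x a hac ha ha1 hA hI0 hca)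
            (cert_persist _ w T0 q s hne0 (hpersist hbH) hcb)
            (pullP_nonneg hA.q_nonneg hA.q_sum c ha ha1) hb (pullP_sum q c a.p) hb1
        refine ⟨H', a', b', hstep hs, hca', hcb', ha', hb', ha1', hb1', ?_, hfl⟩
        rw [pairVal_pull_left _ w T0 q s hne0 c a b hac ha1 (hpersist hbH) hb1, ← hval]
        simp only [pullSt]
        ring
      · -- both read `w`: stop here
        refine ⟨(w, T0, s, q) :: H, a, b, List.suffix_refl _, ?_, ?_, ha, hb, ha1, hb1, ?_, ?_⟩
        · rw [hbc]; exact hca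
        · rw [hbc]; exact hcb
        · rw [hbc]
        · intro i j
          rw [hac, hbc']
          exact common_stop hT0V c c' i j

/-! ### the initial states and the final form -/

/-- a vertex as a deterministic vote on the last slot -/
def initSt (T : Fin 3 → V) : VState V := ⟨T, fun X => if X = 2 then 1 else 0, 0⟩

theorem exists_init {r z : V} {H : List (HEntry V)} (hz : z ∈ placedH r H) :
    ∃ T, ValidT r H T ∧ T 2 = z := by
  simp only [placedH, List.mem_cons, List.mem_map] at hz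
  rcases hz with rfl | ⟨e, he, rfl⟩
  · exact ⟨fun _ => z, Or.inl rfl, rfl⟩
  · exact ⟨Function.update e.2.1 2 e.1, Or.inr ⟨e, he, 2, rfl⟩, by simp⟩

theorem init_sum (T : Fin 3 → V) : ∑ X, (initSt T).p X = 1 := by
  simp [initSt]

theorem init_nonneg (T : Fin 3 → V) (X : Fin 4) : 0 ≤ (initSt T).p X := by
  simp only [initSt]
  split_ifs <;> norm_num

theorem cert_init {d : V → V → ℝ} (hd : PMetric d) (L : Cut V) {z : V} {T : Fin 3 → V}
    (hT : T 2 = z) : Cert d L z (initSt T) := by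
  refine ⟨2, ?_⟩
  have hV : VVal L (initSt T) = 0 := by
    simp [VVal, initSt, Fin.sum_univ_three, cs0, cs1, cs2]
  have hM : ∀ l : Fin 4 → ℝ, mval l (initSt T).p 2 = 0 := by
    intro l
    simp [mval, initSt, Fin.sum_univ_four, star]
  rw [hV]
  unfold psi
  rw [hM]
  have hg : ghat ![(1 / 100) * d z ((initSt T).T 0), (1 / 100) * d z ((initSt T).T 1),
      (1 / 100) * d z ((initSt T).T 2), 0]
      ![legs L (initSt T).T 0, legs L (initSt T).T 1, legs L (initSt T).T 2, 0] 2 = 0 := by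
    have : (initSt T).T 2 = z := hT
    simp [ghat, this, hd.self]
  rw [hg]
  norm_num

theorem pairVal_init (L : Cut V) (T T' : Fin 3 → V) :
    pairVal L (initSt T) (initSt T') = sDist L (ev (T 2)) (ev (T' 2)) := by
  simp [pairVal, initSt, Fin.sum_univ_four]

end DescentAux

open DescentAux in
/-- The descent to the last common stage, with the statement of `descent` -/
theorem descent_proof {d : V → V → ℝ} (hd : PMetric d) (r : V) (H : List (HEntry V))
    (hH : Good d r H)
    (hinv : ∀ T, ValidT r H T → TripleInv (legs (buildCut H) T) (triDist d T))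
    (x y : V) (hx : x ∈ placedH r H) (hy : y ∈ placedH r H) :
    ∃ (H' : List (HEntry V)) (a b : VState V), H' <:+ H ∧ Cert d (buildCut H') x a ∧
      Cert d (buildCut H') y b ∧
      (∀ X, 0 ≤ a.p X) ∧ (∀ X, 0 ≤ b.p X) ∧ (∑ X, a.p X = 1) ∧ (∑ X, b.p X = 1) ∧
      sDist (buildCut H) (ev x) (ev y) = a.F + b.F + pairVal (buildCut H') a b ∧
      ∀ i j, (1 / 100) * d (a.T i) (b.T j) ≤ sDist (buildCut H) (ev (a.T i)) (ev (b.T j)) := by
  obtain ⟨Tx, hTx, hTx2⟩ := exists_init hx
  obtain ⟨Ty, hTy, hTy2⟩ := exists_init hy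
  obtain ⟨H', a, b, hs, hca, hcb, ha, hb, ha1, hb1, hval, hfl⟩ :=
    descent_aux hd r x y hH hinv (initSt Tx) (initSt Ty) hTx hTy (cert_init hd _ hTx2)
      (cert_init hd _ hTy2) (init_nonneg Tx) (init_nonneg Ty) (init_sum Tx) (init_sum Ty)
  refine ⟨H', a, b, hs, hca, hcb, ha, hb, ha1, hb1, ?_, ?_⟩
  · rw [← hval, pairVal_init, hTx2, hTy2]
    simp [initSt]
  · intro i j
    rcases hfl i j with h | ⟨T, hT, i', j', hij, hi, hj⟩
    · rw [h, hd.self, sDist_self]
      norm_num
    · rw [← hi, ← hj, sDist_slots _ T hij]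
      exact (hinv T (validT_suffix hs hT)).floor i' j' hij

end

end Vale.Agent.Lib.P235.UB
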