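import Vale.Agent.Lib.P235.UB.AssemblyDefs
import Vale.Agent.Lib.P235.UB.ClosureFinal

/-!
Existence of a good history along a construction sequence.
-/

namespace Vale.Agent.Lib.P235.UB

noncomputable section

variable {V : Type} [DecidableEq V]

theorem placedH_mono {r : V} {H : List (HEntry V)} (e : HEntry V) {v : V}
    (hv : v ∈ placedH r H) : v ∈ placedH r (e :: H) := by
  simp only [placedH, List.mem_cons, List.map_cons] at hv ⊢
  rcases hv with h | h
  · exact Or.inl h
  · exact Or.inr (Or.inr h)

/-- the slots of a valid triple are placed vertices -/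
theorem valid_image {d : V → V → ℝ} {r : V} {H : List (HEntry V)} (hH : Good d r H) :
    ∀ T, ValidT r H T → ∀ i, T i ∈ placedH r H := by
  induction hH with
  | nil =>
    intro T hT i
    rcases hT with rfl | ⟨e, he, _⟩
    · simp [placedH]
    · simp at he
  | @cons H w T₀ s q _ hV _ _ ih =>
    intro T hT i
    rcases hT with rfl | ⟨e, he, c, rfl⟩
    · simp [placedH]
    · rcases List.mem_cons.1 he with rfl | he
      · by_cases hi : i = c
        · subst hi
          simp [placedH]
        · simp only [Function.update_of_ne hi]
          exact placedH_mono _ (ih T₀ hV i)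
      · exact placedH_mono _ (ih (Function.update e.2.1 c e.1) (Or.inr ⟨e, he, c, rfl⟩) i)

theorem sDist_self' (L : Cut V) (P : Pt V) : sDist L P P = 0 := by
  unfold sDist
  induction L with
  | nil => simp
  | cons e L ih => simp

theorem tripleInv_root (d : V → V → ℝ) (hd : PMetric d) (r : V) :
    TripleInv (legs (buildCut ([] : List (HEntry V))) (fun _ => r))
      (triDist d (fun _ => r)) := by
  have hl : ∀ i, legs (buildCut ([] : List (HEntry V))) (fun _ => r) i = 0 := by
    intro i
    simp [legs, buildCut, sDist]
  have hdd : ∀ i j, triDist d (fun _ : Fin 3 => r) i j = 0 := fun i j => hd.self r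
  refine ⟨fun i => by rw [hl], fun i j _ => by rw [hl, hl, hdd]; simp,
    fun i j _ => by rw [hl, hl, hdd]; simp, fun A b c _ _ _ => ?_, ?_⟩
  · right; right
    rw [hl, hl, hdd]
    simp
  · have e : PsiF (legs (buildCut ([] : List (HEntry V))) (fun _ => r)) = 0 := by
      simp [PsiF, hl]
    rw [e, hl, hl, hl, hdd, hdd, hdd]
    simp

theorem metric4_of (d : V → V → ℝ) (hd : PMetric d) (w : V) (T : Fin 3 → V) :
    Metric4 (triDist d T) (fun i => d w (T i)) where
  symm := fun i j => hd.symm _ _
  self := fun i => hd.self _
  tri := fun i j k => hd.tri _ _ _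
  up := fun i j => by
    have h := hd.tri w (T j) (T i)
    have e : triDist d T i j = d (T j) (T i) := hd.symm _ _
    rw [e]
    exact h
  low := fun i j => by
    have h := hd.tri (T i) w (T j)
    have e : d (T i) w = d w (T i) := hd.symm _ _
    rw [e] at h
    exact h

theorem fin3_cases (a : Fin 3) : a = 0 ∨ a = 1 ∨ a = 2 := by
  revert a
  decide

/-- the arithmetic of the legs of a child triple -/
theorem child_arith (S σ q : Fin 3 → ℝ) (c i : Fin 3) (hi : i ≠ c)
    (hb : ∀ k, k ≠ i → S k = σ k + σ i) (hs : S i = 0) :
    (∑ k : Fin 3, (if k = c then 0 else q k * S k))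
        + (1 - ∑ k : Fin 3, (if k = c then 0 else q k)) * σ i
      = σ i - 2 * (q i * σ i) + kapSum σ q - q c * σ c := by
  rcases fin3_cases c with rfl | rfl | rfl <;> rcases fin3_cases i with rfl | rfl | rfl
  all_goals first
    | exact absurd rfl hi
    | (simp only [Fin.sum_univ_three, kapSum, Fin.isValue, reduceIte, Fin.reduceEq, hs, mul_zero,
        zero_add, add_zero]
       rw [hb _ (by decide)]
       ring)

/-- legs of a child triple -/
theorem legs_child (L : Cut V) (w : V) (T : Fin 3 → V) (q : Fin 3 → ℝ) (s : ℝ)
    (hT : ∀ i, T i ≠ w) (c : Fin 3) :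
    legs (stepCut L w T q s) (Function.update T c w) = childLegs (legs L T) q s c := by
  funext i
  by_cases hi : i = c
  · subst hi
    unfold childLegs legs
    rw [if_pos rfl, Function.update_self, sDist_step_new_childHub L w T q s hT]
  · have e1 : childLegs (legs L T) q s c i = legs L T i - 2 * (q i * legs L T i)
        + kapSum (legs L T) q - q c * legs L T c := by
      unfold childLegs
      rw [if_neg hi]
    rw [e1]
    unfold legs
    rw [Function.update_of_ne hi, sDist_comm, sDist_step_childHub L w T q s hT c _
      (indepOf_ev (hT i)) (zeroPt_ev _)]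
    have hh : sDist L (hubPt T) (ev (T i)) = sDist L (ev (T i)) (hubPt T) := sDist_comm _ _ _
    rw [hh]
    exact child_arith (fun k => sDist L (ev (T k)) (ev (T i)))
      (fun k => sDist L (ev (T k)) (hubPt T)) q c i hi
      (fun k hk => by
        rw [sDist_hub_between L T k i hk, sDist_comm L (hubPt T) (ev (T i))])
      (sDist_self' _ _)

/-- distances of a child triple -/
theorem triDist_child (d : V → V → ℝ) (hd : PMetric d) (w : V) (T : Fin 3 → V) (c : Fin 3) :
    triDist d (Function.update T c w) = childDist (triDist d T) (fun i => d w (T i)) c := by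
  funext i j
  unfold triDist childDist
  by_cases hi : i = c
  · subst hi
    by_cases hj : j = i
    · subst hj
      simp [hd.self]
    · simp [hj]
  · by_cases hj : j = c
    · subst hj
      simp only [hi, if_false, if_true, Function.update_self, Function.update_of_ne hi]
      exact hd.symm _ _
    · simp [hi, hj]

/-- legs of a triple not reading the new vertex persist -/
theorem legs_persist (L : Cut V) (w : V) (T T' : Fin 3 → V) (q : Fin 3 → ℝ) (s : ℝ)
    (hT : ∀ i, T i ≠ w) (hT' : ∀ i, T' i ≠ w) :
    legs (stepCut L w T q s) T' = legs L T' := by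
  funext i
  unfold legs
  exact sDist_step_persist L w T q s hT _ _ (indepOf_ev (hT' i)) (indepOf_hub hT') (zeroPt_ev _)
    (zeroPt_hub _)

/-- Main construction: any history skeleton can be equipped with actions; all valid triples keep
the invariant. -/
theorem exists_good_main {d : V → V → ℝ} (hd : PMetric d) (r : V) (H0 : List (V × (Fin 3 → V)))
    (h0 : Seq r H0) :
    ∃ H : List (HEntry V), H.map (fun e => (e.1, e.2.1)) = H0 ∧ Good d r H ∧
      ∀ T, ValidT r H T → TripleInv (legs (buildCut H) T) (triDist d T) := by
  induction h0 with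
  | nil =>
    refine ⟨[], rfl, Good.nil, fun T hT => ?_⟩
    rcases hT with rfl | ⟨e, he, _⟩
    · exact tripleInv_root d hd r
    · simp at he
  | @cons H0 w T _ hV hw ih =>
    obtain ⟨H, hmap, hG, hinv⟩ := ih
    have hV' : ValidT r H T := by
      rcases hV with h | ⟨w', T₀, c, hm, h⟩
      · exact Or.inl h
      · rw [← hmap, List.mem_map] at hm
        obtain ⟨e, he, hee⟩ := hm
        refine Or.inr ⟨e, he, c, ?_⟩
        have h1 : e.1 = w' := congrArg Prod.fst hee
        have h2 : e.2.1 = T₀ := congrArg Prod.snd hee
        rw [h, h1, h2]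
    have hw' : w ∉ placedH r H := by
      intro hmem
      apply hw
      have e : (H0.map Prod.fst) = H.map Prod.fst := by
        rw [← hmap, List.map_map]
        rfl
      simp only [placed, e]
      exact hmem
    have hT : ∀ i, T i ≠ w := fun i h => hw' (h ▸ valid_image hG T hV' i)
    obtain ⟨s, q, hA, hch⟩ := closure_main (legs (buildCut H) T) (triDist d T) (fun i => d w (T i))
      (metric4_of d hd w T) (hinv T hV')
    refine ⟨(w, T, s, q) :: H, by simp [hmap], Good.cons hG hV' hw' hA, fun T' hT' => ?_⟩
    have hstep : buildCut ((w, T, s, q) :: H) = stepCut (buildCut H) w T q s := rfl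
    rw [hstep]
    rcases hT' with rfl | ⟨e, he, c, rfl⟩
    · -- the root triple persists
      have hval : ValidT r H (fun _ => r) := Or.inl rfl
      have hne : ∀ i : Fin 3, (fun _ : Fin 3 => r) i ≠ w := fun i h =>
        hw' (h ▸ valid_image hG _ hval i)
      rw [legs_persist _ w T _ q s hT hne]
      exact hinv _ hval
    · rcases List.mem_cons.1 he with rfl | he
      · -- the children of the new triple
        simp only
        rw [legs_child _ w T q s hT c, triDist_child d hd w T c]
        exact hch c
      · have hval : ValidT r H (Function.update e.2.1 c e.1) := Or.inr ⟨e, he, c, rfl⟩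
        have hne : ∀ i, (Function.update e.2.1 c e.1) i ≠ w := fun i h =>
          hw' (h ▸ valid_image hG _ hval i)
        rw [legs_persist _ w T _ q s hT hne]
        exact hinv _ hval

end

end Vale.Agent.Lib.P235.UB
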