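import Vale.Agent.Lib.P235.UB.Descent

/-!
The final lower bound of the upper bound program, from the descent and negative type.
-/

namespace Vale.Agent.Lib.P235.UB

noncomputable section

variable {V : Type} [DecidableEq V]

/-- the weights of the cut list of a good history are nonnegative -/
theorem good_weights {d : V → V → ℝ} {r : V} {H : List (HEntry V)} (hH : Good d r H) :
    ∀ e ∈ buildCut H, 0 ≤ e.1 := by
  induction hH with
  | nil => simp [buildCut]
  | @cons H w T s q _ _ _ hA ih =>
    intro e he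
    simp only [buildCut, stepCut, List.mem_append, List.mem_flatMap, List.mem_cons,
      List.not_mem_nil, or_false] at he
    have hq0 := hA.q_nonneg 0
    have hq1 := hA.q_nonneg 1
    have hq2 := hA.q_nonneg 2
    have hqs := hA.q_sum
    rcases he with ⟨f, hf, rfl | rfl | rfl | rfl⟩ | rfl
    · exact mul_nonneg (ih f hf) hq0
    · exact mul_nonneg (ih f hf) hq1
    · exact mul_nonneg (ih f hf) hq2
    · exact mul_nonneg (ih f hf) (by linarith)
    · exact hA.s_nonneg

/-- goodness passes to suffixes -/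
theorem good_suffix {d : V → V → ℝ} {r : V} {H H' : List (HEntry V)} (hH : Good d r H)
    (hs : H' <:+ H) : Good d r H' := by
  induction hH with
  | nil =>
    have : H' = [] := List.suffix_nil.1 hs
    rw [this]
    exact Good.nil
  | @cons H w T s q hG hV hw hA ih =>
    rcases List.suffix_cons_iff.1 hs with h | h
    · rw [h]
      exact Good.cons hG hV hw hA
    · exact ih h

theorem star_nonneg {l : Fin 4 → ℝ} (hl : ∀ i, 0 ≤ l i) (X Y : Fin 4) : 0 ≤ star l X Y := by
  unfold star
  split_ifs
  · exact le_rfl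
  · exact add_nonneg (hl X) (hl Y)

theorem mval_nonneg {l p : Fin 4 → ℝ} (hl : ∀ i, 0 ≤ l i) (hp : ∀ i, 0 ≤ p i) (y : Fin 4) :
    0 ≤ mval l p y := by
  unfold mval
  refine Finset.sum_nonneg fun X _ => Finset.sum_nonneg fun X' _ => ?_
  exact mul_nonneg (mul_nonneg (hp X) (hp X'))
    (le_min (star_nonneg hl _ _) (star_nonneg hl _ _))

/-- a certificate gives a slot of the state close to the vertex -/
theorem cert_slot {d : V → V → ℝ} {L : Cut V} (hL : ∀ e ∈ L, 0 ≤ e.1) {z : V} {st : VState V}
    (hc : Cert d L z st) (hp : ∀ X, 0 ≤ st.p X) :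
    ∃ i : Fin 3, (1 / 100) * d z (st.T i) ≤ 5000 * VVal L st := by
  obtain ⟨y, hy⟩ := hc
  have hleg : ∀ i : Fin 3, 0 ≤ legs L st.T i := fun i => sDist_nonneg L hL _ _
  set g : Fin 4 → ℝ := ![(1 / 100) * d z (st.T 0), (1 / 100) * d z (st.T 1),
    (1 / 100) * d z (st.T 2), 0] with hg
  set l : Fin 4 → ℝ := ![legs L st.T 0, legs L st.T 1, legs L st.T 2, 0] with hl
  have hl0 : ∀ i, 0 ≤ l i := by
    intro i
    fin_cases i
    · exact hleg 0
    · exact hleg 1
    · exact hleg 2
    · simp [hl]
  have hm := mval_nonneg hl0 hp y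
  have hghat : ghat g l y ≤ 5000 * VVal L st := by
    have : psi 20 g l st.p y = ghat g l y + 20 * mval l st.p y := rfl
    have h2 : psi 20 g l st.p y ≤ 5000 * VVal L st := hy
    linarith
  fin_cases y
  · refine ⟨0, ?_⟩
    simpa [ghat, hg] using hghat
  · refine ⟨1, ?_⟩
    simpa [ghat, hg] using hghat
  · refine ⟨2, ?_⟩
    simpa [ghat, hg] using hghat
  · have e : ghat g l 3 = min ((1 / 100) * d z (st.T 0) + legs L st.T 0)
        (min ((1 / 100) * d z (st.T 1) + legs L st.T 1)
          ((1 / 100) * d z (st.T 2) + legs L st.T 2)) := by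
      simp [ghat, hg, hl]
    have hh : ghat g l 3 ≤ 5000 * VVal L st := hghat
    rw [e] at hh
    rcases min_choice ((1 / 100) * d z (st.T 0) + legs L st.T 0)
        (min ((1 / 100) * d z (st.T 1) + legs L st.T 1)
          ((1 / 100) * d z (st.T 2) + legs L st.T 2)) with h | h
    · refine ⟨0, ?_⟩
      rw [h] at hh
      linarith [hleg 0]
    · rw [h] at hh
      rcases min_choice ((1 / 100) * d z (st.T 1) + legs L st.T 1)
          ((1 / 100) * d z (st.T 2) + legs L st.T 2) with h' | h'
      · refine ⟨1, ?_⟩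
        rw [h'] at hh
        linarith [hleg 1]
      · refine ⟨2, ?_⟩
        rw [h'] at hh
        linarith [hleg 2]

/-- the final lower bound, proved from `descent` and `negative_type` -/
theorem lower_bound_main {d : V → V → ℝ} (hd : PMetric d) (r : V) (H : List (HEntry V))
    (hH : Good d r H)
    (hinv : ∀ T, ValidT r H T → TripleInv (legs (buildCut H) T) (triDist d T))
    (hup : ∀ u v, sDist (buildCut H) (ev u) (ev v) ≤ d u v)
    (x y : V) (hx : x ∈ placedH r H) (hy : y ∈ placedH r H) :
    (1 / 100000000 : ℝ) * d x y ≤ sDist (buildCut H) (ev x) (ev y) := by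
  obtain ⟨H', a, b, hs, hca, hcb, ha, hb, ha1, hb1, hA, hfl⟩ := descent_proof hd r H hH hinv x y hx hy
  have hW := good_weights hH
  have hW' := good_weights (good_suffix hH hs)
  obtain ⟨i, hi⟩ := cert_slot hW' hca ha
  obtain ⟨j, hj⟩ := cert_slot hW' hcb hb
  have hneg : (∑ i : Fin 3, legs (buildCut H') a.T i * (a.p i.castSucc * (1 - a.p i.castSucc)))
      + (∑ i : Fin 3, legs (buildCut H') b.T i * (b.p i.castSucc * (1 - b.p i.castSucc)))
      ≤ pairVal (buildCut H') a b :=
    negative_type_raw (buildCut H') hW' a.T b.T a.p b.p ha1 hb1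
  set A := sDist (buildCut H) (ev x) (ev y) with hAd
  have hA0 : 0 ≤ A := sDist_nonneg _ hW _ _
  have hVV : VVal (buildCut H') a + VVal (buildCut H') b ≤ A := by
    rw [hA]
    unfold VVal
    linarith
  have hm := hfl i j
  have h1 : sDist (buildCut H) (ev (a.T i)) (ev (b.T j)) ≤
      sDist (buildCut H) (ev (a.T i)) (ev x) + sDist (buildCut H) (ev x) (ev (b.T j)) :=
    sDist_tri _ hW _ _ _
  have h2 : sDist (buildCut H) (ev x) (ev (b.T j)) ≤
      sDist (buildCut H) (ev x) (ev y) + sDist (buildCut H) (ev y) (ev (b.T j)) :=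
    sDist_tri _ hW _ _ _
  have h3 := hup (a.T i) x
  have h4 := hup y (b.T j)
  have h5 : d x y ≤ d x (a.T i) + d (a.T i) y := hd.tri _ _ _
  have h6 : d (a.T i) y ≤ d (a.T i) (b.T j) + d (b.T j) y := hd.tri _ _ _
  have h7 : d (a.T i) x = d x (a.T i) := hd.symm _ _
  have h8 : d (b.T j) y = d y (b.T j) := hd.symm _ _
  nlinarith

end

end Vale.Agent.Lib.P235.UB
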