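import Vale.Agent.Lib.P235.UB.ExistsGood
import Vale.Agent.Lib.P235.UB.LowerBound

/-!
The final theorem of the upper bound program: weighted path metrics of graphs of treewidth at most
three embed into `ℓ_1` with bounded distortion.
-/

namespace Vale.Agent.Lib.P235.UB

noncomputable section

variable {V : Type} [DecidableEq V]

/-- total length of a walk -/
def walkLen (G : SimpleGraph V) (ℓ : Sym2 V → ℝ) {x y : V} (p : G.Walk x y) : ℝ :=
  (p.edges.map ℓ).sum

/-- the shortest path metric with edge lengths `ℓ` -/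
def pathDist (G : SimpleGraph V) (ℓ : Sym2 V → ℝ) (x y : V) : ℝ :=
  sInf (Set.range (walkLen G ℓ (x := x) (y := y)))

section path

variable {G : SimpleGraph V} {ℓ : Sym2 V → ℝ}

theorem walkLen_nonneg (hℓ : ∀ e ∈ G.edgeSet, 0 < ℓ e) {x y : V} (p : G.Walk x y) :
    0 ≤ walkLen G ℓ p := by
  unfold walkLen
  apply List.sum_nonneg
  intro a ha
  obtain ⟨e, he, rfl⟩ := List.mem_map.1 ha
  exact (hℓ e (p.edges_subset_edgeSet he)).le

theorem pathDist_le_walk (hℓ : ∀ e ∈ G.edgeSet, 0 < ℓ e) {x y : V} (p : G.Walk x y) :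
    pathDist G ℓ x y ≤ walkLen G ℓ p := by
  apply csInf_le
  · refine ⟨0, ?_⟩
    rintro _ ⟨q, rfl⟩
    exact walkLen_nonneg hℓ q
  · exact ⟨p, rfl⟩

theorem le_pathDist (hc : G.Connected) {x y : V} {c : ℝ} (h : ∀ p : G.Walk x y, c ≤ walkLen G ℓ p) :
    c ≤ pathDist G ℓ x y := by
  obtain ⟨p⟩ := hc.preconnected x y
  apply le_csInf
  · exact ⟨_, p, rfl⟩
  · rintro _ ⟨q, rfl⟩
    exact h q

theorem walkLen_append {x y z : V} (p : G.Walk x y) (q : G.Walk y z) :
    walkLen G ℓ (p.append q) = walkLen G ℓ p + walkLen G ℓ q := by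
  simp [walkLen, SimpleGraph.Walk.edges_append]

theorem walkLen_reverse {x y : V} (p : G.Walk x y) : walkLen G ℓ p.reverse = walkLen G ℓ p := by
  simp [walkLen, SimpleGraph.Walk.edges_reverse]

theorem pathDist_pmetric (hc : G.Connected) (hℓ : ∀ e ∈ G.edgeSet, 0 < ℓ e) :
    PMetric (pathDist G ℓ) where
  self := fun x => by
    apply le_antisymm
    · simpa [walkLen] using pathDist_le_walk hℓ (SimpleGraph.Walk.nil : G.Walk x x)
    · exact le_pathDist hc fun p => walkLen_nonneg hℓ p
  symm := fun x y => by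
    apply le_antisymm
    · apply le_pathDist hc
      intro p
      rw [← walkLen_reverse]
      exact pathDist_le_walk hℓ _
    · apply le_pathDist hc
      intro p
      rw [← walkLen_reverse]
      exact pathDist_le_walk hℓ _
  tri := fun x y z => by
    have h1 : pathDist G ℓ x z - pathDist G ℓ y z ≤ pathDist G ℓ x y := by
      apply le_pathDist hc
      intro p
      have h2 : pathDist G ℓ x z - walkLen G ℓ p ≤ pathDist G ℓ y z := by
        apply le_pathDist hc
        intro q
        have := pathDist_le_walk hℓ (p.append q)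
        rw [walkLen_append] at this
        linarith
      linarith
    linarith

theorem pathDist_edge (hℓ : ∀ e ∈ G.edgeSet, 0 < ℓ e) {u w : V} (h : G.Adj u w) :
    pathDist G ℓ u w ≤ ℓ s(u, w) := by
  have := pathDist_le_walk hℓ (SimpleGraph.Walk.cons h SimpleGraph.Walk.nil)
  simpa [walkLen] using this

end path

/-- placed vertices of a suffix are placed -/
theorem placedH_suffix {r : V} {H H' : List (HEntry V)} (hs : H' <:+ H) {v : V}
    (hv : v ∈ placedH r H') : v ∈ placedH r H := by
  simp only [placedH, List.mem_cons] at hv ⊢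
  rcases hv with h | h
  · exact Or.inl h
  · exact Or.inr ((hs.map Prod.fst).subset h)

/-- distances between old vertices do not change -/
theorem persist_suffix {d : V → V → ℝ} {r : V} {H : List (HEntry V)} (hH : Good d r H) :
    ∀ H'', H'' <:+ H → ∀ x y, x ∈ placedH r H'' → y ∈ placedH r H'' →
      sDist (buildCut H) (ev x) (ev y) = sDist (buildCut H'') (ev x) (ev y) := by
  induction hH with
  | nil =>
    intro H'' hs x y _ _
    rw [List.suffix_nil.1 hs]
  | @cons H w T s q hG hV hw hA ih =>
    intro H'' hs x y hx hy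
    rcases List.suffix_cons_iff.1 hs with h | h
    · rw [h]
    · have hx' := placedH_suffix h hx
      have hy' := placedH_suffix h hy
      have hT : ∀ i, T i ≠ w := fun i e => hw (e ▸ valid_image hG T hV i)
      have hxw : x ≠ w := fun e => hw (e ▸ hx')
      have hyw : y ≠ w := fun e => hw (e ▸ hy')
      have e1 : buildCut ((w, T, s, q) :: H) = stepCut (buildCut H) w T q s := rfl
      rw [e1, sDist_step_persist _ w T q s hT _ _ (indepOf_ev hxw) (indepOf_ev hyw) (zeroPt_ev _)
        (zeroPt_ev _)]
      exact ih H'' h x y hx hy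

/-- the arithmetic of the distance from the new vertex to a slot -/
theorem tau_arith (S σ q : Fin 3 → ℝ) (s : ℝ) (i : Fin 3)
    (hb : ∀ k, k ≠ i → S k = σ k + σ i) (hs : S i = 0) :
    s + q 0 * S 0 + q 1 * S 1 + q 2 * S 2 + (1 - q 0 - q 1 - q 2) * σ i = tauF σ q s i := by
  unfold tauF kapSum
  rcases fin3_cases i with rfl | rfl | rfl
  · rw [hs, hb 1 (by decide), hb 2 (by decide)]
    ring
  · rw [hs, hb 0 (by decide), hb 2 (by decide)]
    ring
  · rw [hs, hb 0 (by decide), hb 1 (by decide)]
    ring

theorem sDist_new_slot (L : Cut V) (w : V) (T : Fin 3 → V) (q : Fin 3 → ℝ) (s : ℝ)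
    (hT : ∀ i, T i ≠ w) (i : Fin 3) :
    sDist (stepCut L w T q s) (ev w) (ev (T i)) = tauF (legs L T) q s i := by
  rw [sDist_step_new L w T q s hT _ (indepOf_ev (hT i)) (zeroPt_ev _)]
  have hh : sDist L (hubPt T) (ev (T i)) = legs L T i := sDist_comm _ _ _
  rw [hh]
  exact tau_arith (fun k => sDist L (ev (T k)) (ev (T i))) (legs L T) q s i
    (fun k hk => by
      rw [sDist_hub_between L T k i hk, sDist_comm L (hubPt T) (ev (T i))]
      rfl)
    (sDist_self' _ _)

variable {G : SimpleGraph V} {ℓ : Sym2 V → ℝ}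

/-- the bound on edges -/
theorem edge_bound (hℓ : ∀ e ∈ G.edgeSet, 0 < ℓ e) (r : V) (H : List (HEntry V))
    (hG : Good (pathDist G ℓ) r H) (hsym : ∀ x y, pathDist G ℓ x y = pathDist G ℓ y x)
    (hcov : Covers G r (H.map (fun e => (e.1, e.2.1)))) :
    ∀ H', H' <:+ H → ∀ u w, u ∈ placedH r H' → w ∈ placedH r H' → G.Adj u w →
      sDist (buildCut H') (ev u) (ev w) ≤ ℓ s(u, w) := by
  intro H'
  induction H' with
  | nil =>
    intro _ u w hu hw hadj
    simp only [placedH, List.map_nil, List.mem_singleton] at hu hw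
    rw [hu, hw] at hadj
    exact absurd hadj (G.loopless.irrefl r)
  | cons e H1 ih =>
    intro hs u w hu hw hadj
    obtain ⟨v, T, s, q⟩ := e
    have hs1 : H1 <:+ H := (List.suffix_cons _ _).trans hs
    have hG' : Good (pathDist G ℓ) r ((v, T, s, q) :: H1) := good_suffix hG hs
    obtain ⟨hG1, hV, hv, hA⟩ : Good (pathDist G ℓ) r H1 ∧ ValidT r H1 T ∧ v ∉ placedH r H1 ∧
        ActionOK (legs (buildCut H1) T) (fun i => pathDist G ℓ v (T i)) q s := by
      cases hG' with
      | cons h1 h2 h3 h4 => exact ⟨h1, h2, h3, h4⟩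
    have hT : ∀ i, T i ≠ v := fun i e => hv (e ▸ valid_image hG1 T hV i)
    have e1 : buildCut ((v, T, s, q) :: H1) = stepCut (buildCut H1) v T q s := rfl
    -- the main case: `w = v`, `u` old
    have key : ∀ u', u' ∈ placedH r H1 → G.Adj u' v →
        sDist (buildCut ((v, T, s, q) :: H1)) (ev v) (ev u') ≤ ℓ s(u', v) := by
      intro u' hu' hadj'
      have hsuf : ((v, T) :: H1.map (fun e => (e.1, e.2.1))) <:+
          H.map (fun e => (e.1, e.2.1)) := by
        have := hs.map (fun e : HEntry V => (e.1, e.2.1))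
        simpa using this
      obtain ⟨i, hi⟩ := hcov.2 _ v T hsuf u' hadj' (by
        simp only [placed, List.map_map]
        exact hu')
      rw [e1, ← hi, sDist_new_slot _ v T q s hT i]
      have h1 := hA.ceil i
      have h2 : pathDist G ℓ v (T i) ≤ ℓ s(T i, v) := by
        rw [hsym]
        apply pathDist_edge hℓ
        rw [hi]
        exact hadj'
      exact h1.trans h2
    have hu' : u = v ∨ u ∈ placedH r H1 := by
      simp only [placedH, List.map_cons, List.mem_cons] at hu ⊢
      tauto
    have hw' : w = v ∨ w ∈ placedH r H1 := by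
      simp only [placedH, List.map_cons, List.mem_cons] at hw ⊢
      tauto
    rcases hu' with rfl | hu1
    · rcases hw' with rfl | hw1
      · exact absurd hadj (G.loopless.irrefl _)
      · have := key w hw1 hadj.symm
        rw [Sym2.eq_swap]
        exact this
    · rcases hw' with rfl | hw1
      · rw [sDist_comm]
        exact key u hu1 hadj
      · have hne1 : u ≠ v := fun e => hv (e ▸ hu1)
        have hne2 : w ≠ v := fun e => hv (e ▸ hw1)
        rw [e1, sDist_step_persist _ v T q s hT _ _ (indepOf_ev hne1) (indepOf_ev hne2)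
          (zeroPt_ev _) (zeroPt_ev _)]
        exact ih hs1 u w hu1 hw1 hadj

theorem abs_aux (C w : ℝ) (hC : 0 ≤ C) (hw : 0 ≤ w) (a b : Bool) :
    |C * w * (if a then 1 else 0) - C * w * (if b then 1 else 0)|
      = C * (w * (if a = b then 0 else 1)) := by
  cases a <;> cases b <;> simp [abs_of_nonneg, hw, hC, mul_nonneg]

/-- the sum over a cut list as a sum over its indices -/
theorem sum_abs_eq (L : Cut V) (hL : ∀ e ∈ L, 0 ≤ e.1) (C : ℝ) (hC : 0 ≤ C) (x y : V) :
    ∑ i : Fin L.length, |C * L[i.1].1 * (if L[i.1].2 x then 1 else 0)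
        - C * L[i.1].1 * (if L[i.1].2 y then 1 else 0)|
      = C * sDist L (ev x) (ev y) := by
  unfold sDist
  rw [← Fin.sum_univ_fun_getElem L (fun e => e.1 * (if ev x e.2 = ev y e.2 then (0 : ℝ) else 1)),
    Finset.mul_sum]
  refine Finset.sum_congr rfl fun i _ => ?_
  have hw : 0 ≤ L[i.1].1 := hL _ (List.getElem_mem _)
  exact abs_aux C L[i.1].1 hC hw _ _

/-- **Treewidth three.** The weighted path metric of a finite connected graph of treewidth at most
three embeds into a finite `ℓ_1` with distortion at most `10 ^ 8`. -/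
theorem ell1_embedding [Fintype V] (hc : G.Connected) (htw : Vale.Agent.Lib.P235.TreewidthLE G 3)
    (hℓ : ∀ e ∈ G.edgeSet, 0 < ℓ e) :
    ∃ (n : ℕ) (f : V → Fin n → ℝ), ∀ x y,
      pathDist G ℓ x y ≤ ∑ i, |f x i - f y i| ∧
      ∑ i, |f x i - f y i| ≤ 100000000 * pathDist G ℓ x y := by
  have hne : Nonempty V := ((SimpleGraph.connected_iff G).1 hc).2
  obtain ⟨r⟩ := hne
  have : Nonempty V := ⟨r⟩
  have hM := pathDist_pmetric hc hℓ
  obtain ⟨H0, hseq, hcov⟩ := exists_seq G htw r
  obtain ⟨H, hmap, hG, hinv⟩ := exists_good_main hM r H0 hseq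
  have hcov' : Covers G r (H.map (fun e => (e.1, e.2.1))) := by rw [hmap]; exact hcov
  have hW := good_weights hG
  have hpl : ∀ v, v ∈ placedH r H := by
    intro v
    have := hcov.1 v
    rw [← hmap] at this
    simpa [placed, placedH, List.map_map] using this
  have hedge := edge_bound hℓ r H hG hM.symm hcov' H (List.suffix_refl _)
  -- the upper bound of the cut metric along walks
  have hwalk : ∀ {x y : V} (p : G.Walk x y),
      sDist (buildCut H) (ev x) (ev y) ≤ walkLen G ℓ p := by
    intro x y p
    induction p with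
    | nil => simp [walkLen, sDist_self']
    | @cons u v w' h p ih =>
      have h1 := sDist_tri (buildCut H) hW (ev u) (ev v) (ev w')
      have h2 := hedge u v (hpl u) (hpl v) h
      have e : walkLen G ℓ (SimpleGraph.Walk.cons h p) = ℓ s(u, v) + walkLen G ℓ p := by
        simp [walkLen]
      rw [e]
      linarith
  have hup : ∀ u v, sDist (buildCut H) (ev u) (ev v) ≤ pathDist G ℓ u v := fun u v =>
    le_pathDist hc fun p => hwalk p
  set L := buildCut H with hL
  refine ⟨L.length, fun x i => (100000000 : ℝ) * L[i.1].1 * (if L[i.1].2 x then 1 else 0),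
    fun x y => ?_⟩
  have e := sum_abs_eq L hW 100000000 (by norm_num) x y
  have hlow := lower_bound_main hM r H hG hinv hup x y (hpl x) (hpl y)
  have hu := hup x y
  simp only
  rw [e]
  constructor
  · linarith
  · linarith

end

end Vale.Agent.Lib.P235.UB
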