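import Vale.Agent.Lib.P235.UB.FinalA

/-!
The final theorem of the upper bound program in the form `L_1(Ω, μ)`.
-/

open MeasureTheory

namespace Vale.Agent.Lib.P235.UB

noncomputable section

variable {V : Type} [DecidableEq V]

theorem memLp_count {n : ℕ} (f : Fin n → ℝ) : MemLp f 1 (Measure.count : Measure (Fin n)) := by
  refine ⟨(measurable_of_finite f).aestronglyMeasurable, ?_⟩
  rw [eLpNorm_one_eq_lintegral_enorm, lintegral_fintype]
  simp only [Measure.count_singleton, mul_one]
  exact ENNReal.sum_lt_top.2 fun i _ => enorm_lt_top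

theorem norm_toLp_sub {n : ℕ} (f g : Fin n → ℝ) :
    ‖(memLp_count f).toLp f - (memLp_count g).toLp g‖ = ∑ i, |f i - g i| := by
  rw [← MemLp.toLp_sub, Lp.norm_toLp, eLpNorm_one_eq_lintegral_enorm, lintegral_fintype]
  simp only [Measure.count_singleton, mul_one, Pi.sub_apply]
  rw [ENNReal.toReal_sum (fun i _ => enorm_ne_top)]
  refine Finset.sum_congr rfl fun i _ => ?_
  rw [toReal_enorm, Real.norm_eq_abs]

/-- **Treewidth three, `L_1` form.** The weighted path metric of a finite connected graph of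
treewidth at most three embeds into a space `L_1(Ω, μ)` with distortion at most `10 ^ 8`. -/
theorem lp_embedding [Fintype V] {G : SimpleGraph V} {ℓ : Sym2 V → ℝ} (hc : G.Connected)
    (htw : Vale.Agent.Lib.P235.TreewidthLE G 3) (hℓ : ∀ e ∈ G.edgeSet, 0 < ℓ e) :
    ∃ (n : ℕ) (g : V → Lp ℝ 1 (Measure.count : Measure (Fin n))), ∀ x y,
      pathDist G ℓ x y ≤ ‖g x - g y‖ ∧ ‖g x - g y‖ ≤ 100000000 * pathDist G ℓ x y := by
  obtain ⟨n, f, hf⟩ := ell1_embedding hc htw hℓ
  refine ⟨n, fun x => (memLp_count (f x)).toLp (f x), fun x y => ?_⟩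
  simp only
  rw [norm_toLp_sub]
  exact hf x y

end

end Vale.Agent.Lib.P235.UB
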